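import Mathlib

namespace Vale.Agent.Lib.P037

open Classical in
/-- The set of ordered copies of the `k × k` binary pattern `H` in the `n × n` binary matrix `A`:
pairs `(r, c)` of strictly increasing maps `Fin k → Fin n` (the chosen rows and columns)
with `A (r i) (c j) = H i j` for all `i j`. -/
noncomputable def copies {k n : ℕ} (H : Fin k → Fin k → Bool) (A : Fin n → Fin n → Bool) :
    Finset ((Fin k → Fin n) × (Fin k → Fin n)) :=
  Finset.univ.filter
    (fun p => StrictMono p.1 ∧ StrictMono p.2 ∧ ∀ i j, A (p.1 i) (p.2 j) = H i j)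

/-- `N_H(A)`: the number of ordered copies of `H` in `A`. -/
noncomputable def copyCount {k n : ℕ} (H : Fin k → Fin k → Bool) (A : Fin n → Fin n → Bool) : ℕ :=
  (copies H A).card

/-- `A` is `H`-free: it has no ordered copy of `H`. -/
def IsFree {k n : ℕ} (H : Fin k → Fin k → Bool) (A : Fin n → Fin n → Bool) : Prop :=
  ∀ r c : Fin k → Fin n, StrictMono r → StrictMono c → ¬ ∀ i j, A (r i) (c j) = H i j

/-- The number of entries in which `A` and `B` differ. -/
noncomputable def numDiff {n : ℕ} (A B : Fin n → Fin n → Bool) : ℕ :=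
  (Finset.univ.filter (fun p : Fin n × Fin n => A p.1 p.2 ≠ B p.1 p.2)).card

/-- `A` is `ε`-far from `H`-free, i.e. `dist_H(A) ≥ ε`: every `H`-free `B` differs from `A`
in at least `ε n²` entries. -/
def IsFar {k n : ℕ} (H : Fin k → Fin k → Bool) (A : Fin n → Fin n → Bool) (ε : ℝ) : Prop :=
  ∀ B : Fin n → Fin n → Bool, IsFree H B → ε * (n : ℝ) ^ 2 ≤ (numDiff A B : ℝ)

end Vale.Agent.Lib.P037
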