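import Mathlib
import Vale.Agent.Lib.P037.Defs

namespace Vale.Agent.Lib.P037

open Finset

/-- The `2 × 2` identity pattern: with rows 1 0 and 0 1. -/
def I2 : Fin 2 → Fin 2 → Bool := fun i j => decide (i = j)

/-- Column degree: the number of ones in column `c`. -/
def cdeg {n : ℕ} (A : Fin n → Fin n → Bool) (c : Fin n) : ℕ :=
  (univ.filter (fun r : Fin n => A r c = true)).card

/-- Rank of column `c` inside its strip (strips are the classes of `c ↦ c / w`): the number of
columns of the same strip which come before `c` when the strip is sorted by decreasing column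
degree, ties broken by index. -/
def rk {n : ℕ} (A : Fin n → Fin n → Bool) (w : ℕ) (c : Fin n) : ℕ :=
  (univ.filter (fun c' : Fin n => c'.val / w = c.val / w ∧
      (cdeg A c < cdeg A c' ∨ (cdeg A c' = cdeg A c ∧ c' < c)))).card

/-- Level of row `r` in strip `j`: the number of ones of row `r` in the strip. -/
def lev {n : ℕ} (A : Fin n → Fin n → Bool) (w : ℕ) (r : Fin n) (j : ℕ) : ℕ :=
  (univ.filter (fun c : Fin n => c.val / w = j ∧ A r c = true)).card

/-- Threshold matrix: the entry in row `r` and column `c` is one iff the rank of `c` is below the level of row `r`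
in the strip of `c`. -/
def thr {n : ℕ} (ρ : Fin n → ℕ) (w : ℕ) (L : Fin n → ℕ → ℕ) : Fin n → Fin n → Bool :=
  fun r c => decide (ρ c < L r (c.val / w))

/-- Number of entries of strip `j` in which `A` and `B` differ. -/
def stripDiff {n : ℕ} (A B : Fin n → Fin n → Bool) (w j : ℕ) : ℕ :=
  (univ.filter (fun p : Fin n × Fin n => p.2.val / w = j ∧ A p.1 p.2 ≠ B p.1 p.2)).card

/-- Number of quadruples of two rows `r, r1` and two columns `c, c1` with both columns in strip `j` and
`A r c = 1, A r c1 = 0, A r1 c = 0, A r1 c1 = 1` (no order conditions). -/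
def Qs {n : ℕ} (A : Fin n → Fin n → Bool) (w j : ℕ) : ℕ :=
  (univ.filter (fun q : (Fin n × Fin n) × (Fin n × Fin n) =>
    q.2.1.val / w = j ∧ q.2.2.val / w = j ∧ A q.1.1 q.2.1 = true ∧ A q.1.1 q.2.2 = false ∧
      A q.1.2 q.2.1 = false ∧ A q.1.2 q.2.2 = true)).card

/-- Number of copies of the identity pattern whose two columns lie in different strips. -/
def Ncross {n : ℕ} (A : Fin n → Fin n → Bool) (w : ℕ) : ℕ :=
  (univ.filter (fun q : (Fin n × Fin n) × (Fin n × Fin n) =>
    q.1.1 < q.1.2 ∧ q.2.1.val / w < q.2.2.val / w ∧ A q.1.1 q.2.1 = true ∧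
      A q.1.1 q.2.2 = false ∧ A q.1.2 q.2.1 = false ∧ A q.1.2 q.2.2 = true)).card

/-- Weighted number of violations of a level array. -/
def Vlev {n : ℕ} (ℓ : Fin n → ℕ → ℕ) (K : ℕ) : ℕ :=
  ∑ r : Fin n, ∑ r' : Fin n,
    if r < r' then ∑ j' ∈ range K, ∑ j ∈ range j', (ℓ r j - ℓ r' j) * (ℓ r' j' - ℓ r j') else 0

/-- A level array has no violation: for rows `r < r'` there are no strips `j < j' < K` with a
decrease at `j` and an increase at `j'`. -/
def NoViol {n : ℕ} (L : Fin n → ℕ → ℕ) (K : ℕ) : Prop :=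
  ∀ r r' : Fin n, r < r' → ∀ j j' : ℕ, j < j' → j' < K → ¬ (L r' j < L r j ∧ L r j' < L r' j')

end Vale.Agent.Lib.P037
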