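import Mathlib
import Vale.Agent.Lib.P037.Defs
import Vale.Agent.Lib.P037.I2Defs
namespace Vale.Agent.Lib.P037
open Finset

/-- The 2 by 2 anti-identity pattern: first row 01, second row 10. -/
def J2 : Fin 2 → Fin 2 → Bool := fun i j => decide (i ≠ j)

/-- Reverse the order of the columns. -/
def revCols {n : ℕ} (A : Fin n → Fin n → Bool) : Fin n → Fin n → Bool := fun r c => A r (Fin.rev c)

theorem revCols_revCols {n : ℕ} (A : Fin n → Fin n → Bool) : revCols (revCols A) = A := by
  funext r c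
  simp only [revCols, Fin.rev_rev]

/-- Reversal of a choice of two columns. -/
def revMap {n : ℕ} (c : Fin 2 → Fin n) : Fin 2 → Fin n := fun i => Fin.rev (c (Fin.rev i))

theorem revMap_revMap {n : ℕ} (c : Fin 2 → Fin n) : revMap (revMap c) = c := by
  funext i
  simp only [revMap, Fin.rev_rev]

theorem strictMono_revMap {n : ℕ} {c : Fin 2 → Fin n} (hc : StrictMono c) :
    StrictMono (revMap c) := by
  intro i j hij
  exact Fin.rev_lt_rev.mpr (hc (Fin.rev_lt_rev.mpr hij))

theorem J2_rev : ∀ i j : Fin 2, J2 i (Fin.rev j) = I2 i j := by decide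

theorem I2_rev : ∀ i j : Fin 2, I2 i (Fin.rev j) = J2 i j := by decide

/-- Copies of the anti-identity pattern correspond to copies of the identity pattern in the
column-reversed matrix. -/
theorem mem_copies_J2_iff {n : ℕ} (A : Fin n → Fin n → Bool)
    (p : (Fin 2 → Fin n) × (Fin 2 → Fin n)) :
    p ∈ copies J2 A ↔ (p.1, revMap p.2) ∈ copies I2 (revCols A) := by
  unfold copies
  rw [Finset.mem_filter, Finset.mem_filter]
  constructor
  · rintro ⟨-, h1, h2, h3⟩
    refine ⟨Finset.mem_univ _, h1, strictMono_revMap h2, fun i j => ?_⟩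
    show A (p.1 i) (Fin.rev (Fin.rev (p.2 (Fin.rev j)))) = I2 i j
    rw [Fin.rev_rev, h3, J2_rev]
  · rintro ⟨-, h1, h2, h3⟩
    refine ⟨Finset.mem_univ _, h1, ?_, fun i j => ?_⟩
    · have h4 := strictMono_revMap h2
      rwa [revMap_revMap] at h4
    · have h4 := h3 i (Fin.rev j)
      have h5 : revCols A (p.1 i) (revMap p.2 (Fin.rev j)) = A (p.1 i) (p.2 j) := by
        show A (p.1 i) (Fin.rev (Fin.rev (p.2 (Fin.rev (Fin.rev j))))) = _
        rw [Fin.rev_rev, Fin.rev_rev]
      rw [← h5, h4, I2_rev]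

theorem copyCount_J2 {n : ℕ} (A : Fin n → Fin n → Bool) :
    copyCount J2 A = copyCount I2 (revCols A) := by
  unfold copyCount
  refine Finset.card_nbij' (fun p => (p.1, revMap p.2)) (fun p => (p.1, revMap p.2)) ?_ ?_ ?_ ?_
  · intro p hp
    exact (mem_copies_J2_iff A p).mp hp
  · intro p hp
    refine (mem_copies_J2_iff A (p.1, revMap p.2)).mpr ?_
    show (p.1, revMap (revMap p.2)) ∈ copies I2 (revCols A)
    rw [revMap_revMap]
    exact hp
  · intro p _
    show (p.1, revMap (revMap p.2)) = p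
    rw [revMap_revMap]
  · intro p _
    show (p.1, revMap (revMap p.2)) = p
    rw [revMap_revMap]

theorem isFree_J2_revCols {n : ℕ} {B : Fin n → Fin n → Bool} (hB : IsFree I2 B) :
    IsFree J2 (revCols B) := by
  intro r c hr hc hcopy
  refine hB r (revMap c) hr (strictMono_revMap hc) (fun i j => ?_)
  have h1 := hcopy i (Fin.rev j)
  rw [J2_rev] at h1
  exact h1

theorem numDiff_revCols {n : ℕ} (A B : Fin n → Fin n → Bool) :
    numDiff (revCols A) B = numDiff A (revCols B) := by
  unfold numDiff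
  refine Finset.card_nbij' (fun p => (p.1, Fin.rev p.2)) (fun p => (p.1, Fin.rev p.2)) ?_ ?_ ?_ ?_
  · intro p hp
    rw [Finset.mem_coe, Finset.mem_filter] at hp ⊢
    refine ⟨Finset.mem_univ _, ?_⟩
    show A p.1 (Fin.rev p.2) ≠ B p.1 (Fin.rev (Fin.rev p.2))
    rw [Fin.rev_rev]
    exact hp.2
  · intro p hp
    rw [Finset.mem_coe, Finset.mem_filter] at hp ⊢
    refine ⟨Finset.mem_univ _, ?_⟩
    show A p.1 (Fin.rev (Fin.rev p.2)) ≠ B p.1 (Fin.rev p.2)
    rw [Fin.rev_rev]
    exact hp.2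
  · intro p _
    show (p.1, Fin.rev (Fin.rev p.2)) = p
    rw [Fin.rev_rev]
  · intro p _
    show (p.1, Fin.rev (Fin.rev p.2)) = p
    rw [Fin.rev_rev]

theorem isFar_J2 {n : ℕ} (A : Fin n → Fin n → Bool) (ε : ℝ) (h : IsFar J2 A ε) :
    IsFar I2 (revCols A) ε := by
  intro B hB
  rw [numDiff_revCols]
  exact h (revCols B) (isFree_J2_revCols hB)

end Vale.Agent.Lib.P037
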