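import Mathlib
import Vale.Agent.Lib.P037.Defs
import Vale.Agent.Lib.P037.I2Defs
import Vale.Agent.Lib.P037.I2Rev

namespace Vale.Agent.Lib.P037

/-- The polynomial removal property of a `2 × 2` pattern `H`: there are constants `c > 0` and `C`
such that every `n × n` matrix that is `ε`-far from `H`-free (with `0 < ε < 1`) contains at least
`c ε^C n^4` ordered copies of `H`. -/
def PolyRemoval (H : Fin 2 → Fin 2 → Bool) : Prop :=
  ∃ c : ℝ, 0 < c ∧ ∃ C : ℕ, ∀ (n : ℕ) (A : Fin n → Fin n → Bool) (ε : ℝ), 0 < ε → ε < 1 →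
    IsFar H A ε → c * ε ^ C * (n : ℝ) ^ 4 ≤ (copyCount H A : ℝ)

/-- The all-zero pattern. -/
def Z2 : Fin 2 → Fin 2 → Bool := fun _ _ => false

/-- The pattern with both rows equal to `0 1`. -/
def R2 : Fin 2 → Fin 2 → Bool := fun _ j => decide (j = 1)

/-- The pattern with rows `1 1` and `1 0`. -/
def G2 : Fin 2 → Fin 2 → Bool := fun i j => !(decide (i = 1) && decide (j = 1))

/-- Entrywise complement. -/
def complM {n : ℕ} (A : Fin n → Fin n → Bool) : Fin n → Fin n → Bool := fun r c => !A r c

/-- Reverse the order of the rows. -/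
def revRows {n : ℕ} (A : Fin n → Fin n → Bool) : Fin n → Fin n → Bool := fun r c => A (Fin.rev r) c

/-- Transpose. -/
def transpM {n : ℕ} (A : Fin n → Fin n → Bool) : Fin n → Fin n → Bool := fun r c => A c r

end Vale.Agent.Lib.P037
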