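import Mathlib
import Vale.Agent.Lib.P037.Defs

namespace Vale.Agent.Lib.P037

theorem isFree_iff_copies_eq_empty {k n : ℕ} (H : Fin k → Fin k → Bool)
    (A : Fin n → Fin n → Bool) : IsFree H A ↔ copies H A = ∅ := by
  classical
  unfold IsFree copies
  rw [Finset.filter_eq_empty_iff]
  constructor
  · intro h p _ hp
    exact h p.1 p.2 hp.1 hp.2.1 hp.2.2
  · intro h r c hr hc hrc
    exact h (Finset.mem_univ (r, c)) ⟨hr, hc, hrc⟩

theorem mem_copies {k n : ℕ} (H : Fin k → Fin k → Bool) (A : Fin n → Fin n → Bool)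
    (p : (Fin k → Fin n) × (Fin k → Fin n)) :
    p ∈ copies H A ↔ StrictMono p.1 ∧ StrictMono p.2 ∧ ∀ i j, A (p.1 i) (p.2 j) = H i j := by
  classical
  unfold copies
  simp

theorem numDiff_self {n : ℕ} (A : Fin n → Fin n → Bool) : numDiff A A = 0 := by
  unfold numDiff
  simp

/-- If `A` is `ε`-far from `H`-free with `ε > 0` and `n ≥ 1`, then `A` contains a copy. -/
theorem copyCount_pos_of_isFar {k n : ℕ} (H : Fin k → Fin k → Bool) (A : Fin n → Fin n → Bool)
    (ε : ℝ) (hε : 0 < ε) (hn : 1 ≤ n) (hfar : IsFar H A ε) : 1 ≤ copyCount H A := by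
  by_contra hcon
  have h0 : copyCount H A = 0 := by omega
  have hfree : IsFree H A := by
    rw [isFree_iff_copies_eq_empty]
    exact Finset.card_eq_zero.mp h0
  have h1 := hfar A hfree
  rw [numDiff_self] at h1
  have hn' : (0 : ℝ) < (n : ℝ) ^ 2 := by positivity
  have : 0 < ε * (n : ℝ) ^ 2 := mul_pos hε hn'
  simp at h1
  linarith

end Vale.Agent.Lib.P037
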