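import Mathlib
import Vale.Agent.Lib.P037.Defs
import Vale.Agent.Lib.P037.Basic
import Vale.Agent.Lib.P037.I2Defs
import Vale.Agent.Lib.P037.I2Rev
import Vale.Agent.Lib.P037.AllDefs

namespace Vale.Agent.Lib.P037

open Finset

/-- Number of ones of row `r`. -/
def allR2_o {n : ℕ} (A : Fin n → Fin n → Bool) (r : Fin n) : ℕ :=
  (univ.filter (fun c : Fin n => A r c = true)).card

/-- The row-sorted matrix: row `r` has its ones in the first `o r` columns. -/
def allR2_B {n : ℕ} (A : Fin n → Fin n → Bool) : Fin n → Fin n → Bool :=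
  fun r c => decide (c.val < allR2_o A r)

/-- Number of zeros of row `r` among its first `o r` columns. -/
def allR2_d {n : ℕ} (A : Fin n → Fin n → Bool) (r : Fin n) : ℕ :=
  (univ.filter (fun c : Fin n => c.val < allR2_o A r ∧ A r c = false)).card

/-- The pairs of columns in increasing order. -/
def allR2_P (n : ℕ) : Finset (Fin n × Fin n) :=
  univ.filter (fun cc : Fin n × Fin n => cc.1 < cc.2)

/-- Number of inversions of row `r`. -/
def allR2_inv {n : ℕ} (A : Fin n → Fin n → Bool) (r : Fin n) : ℕ :=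
  ((allR2_P n).filter (fun cc => A r cc.1 = false ∧ A r cc.2 = true)).card

/-- Number of rows with a `0 1` in the columns `cc`. -/
def allR2_m {n : ℕ} (A : Fin n → Fin n → Bool) (cc : Fin n × Fin n) : ℕ :=
  (univ.filter (fun r : Fin n => A r cc.1 = false ∧ A r cc.2 = true)).card

/-- The increasing pairs of rows having a `0 1` in the columns `cc`. -/
def allR2_L {n : ℕ} (A : Fin n → Fin n → Bool) (cc : Fin n × Fin n) : Finset (Fin n × Fin n) :=
  univ.filter (fun rr : Fin n × Fin n => rr.1 < rr.2 ∧ A rr.1 cc.1 = false ∧ A rr.1 cc.2 = true ∧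
    A rr.2 cc.1 = false ∧ A rr.2 cc.2 = true)

theorem allR2_strictMono_pair {n : ℕ} (a b : Fin n) (h : a < b) :
    StrictMono (![a, b] : Fin 2 → Fin n) := by
  intro i j hij
  fin_cases i <;> fin_cases j
  · exact absurd hij (lt_irrefl _)
  · simpa using h
  · exact absurd hij (by decide)
  · exact absurd hij (lt_irrefl _)

theorem allR2_B_free {n : ℕ} (A : Fin n → Fin n → Bool) : IsFree R2 (allR2_B A) := by
  intro r c _ hc hall
  have h0 := hall 0 0
  have h1 := hall 0 1
  have hc01 : c 0 < c 1 := hc (by decide)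
  simp only [allR2_B, R2] at h0 h1
  have h0' : ¬ (c 0).val < allR2_o A (r 0) := by
    intro h
    rw [decide_eq_true h] at h0
    exact absurd h0 (by decide)
  have h1' : (c 1).val < allR2_o A (r 0) := by
    by_contra h
    rw [decide_eq_false h] at h1
    exact absurd h1 (by decide)
  have := Fin.lt_def.mp hc01
  omega

theorem allR2_o_le {n : ℕ} (A : Fin n → Fin n → Bool) (r : Fin n) : allR2_o A r ≤ n := by
  unfold allR2_o
  exact (Finset.card_filter_le _ _).trans (by simp)

/-- The number of ones to the right of position `o r` equals the number of zeros to the left. -/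
theorem allR2_w_eq {n : ℕ} (A : Fin n → Fin n → Bool) (r : Fin n) :
    (univ.filter (fun c : Fin n => allR2_o A r ≤ c.val ∧ A r c = true)).card = allR2_d A r := by
  have ho := allR2_o_le A r
  have h1 : (univ.filter (fun c : Fin n => c.val < allR2_o A r ∧ A r c = true)).card
      + allR2_d A r = allR2_o A r := by
    have hlt : (univ.filter (fun c : Fin n => c.val < allR2_o A r)).card = allR2_o A r := by
      rw [Fin.card_filter_val_lt, min_eq_right ho]
    have hsum : (univ.filter (fun c : Fin n => c.val < allR2_o A r ∧ A r c = true)).card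
        + (univ.filter (fun c : Fin n => c.val < allR2_o A r ∧ A r c = false)).card
        = (univ.filter (fun c : Fin n => c.val < allR2_o A r)).card := by
      simp only [Finset.card_filter]
      rw [← Finset.sum_add_distrib]
      refine Finset.sum_congr rfl fun c _ => ?_
      cases A r c <;> by_cases h : c.val < allR2_o A r <;> simp [h]
    rw [hlt] at hsum
    exact hsum
  have h2 : (univ.filter (fun c : Fin n => c.val < allR2_o A r ∧ A r c = true)).card
      + (univ.filter (fun c : Fin n => allR2_o A r ≤ c.val ∧ A r c = true)).card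
      = allR2_o A r := by
    have hdef : allR2_o A r = (univ.filter (fun c : Fin n => A r c = true)).card := rfl
    conv_rhs => rw [hdef]
    simp only [Finset.card_filter]
    rw [← Finset.sum_add_distrib]
    refine Finset.sum_congr rfl fun c _ => ?_
    cases A r c <;> by_cases h : c.val < allR2_o A r <;> simp [h]
  omega

theorem allR2_card_filter_prod_fst {α β : Type*} [Fintype α] [Fintype β] (R : α × β → Prop)
    [DecidablePred R] :
    (univ.filter R).card = ∑ a, (univ.filter (fun b => R (a, b))).card := by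
  simp only [Finset.card_filter]
  rw [Fintype.sum_prod_type]

/-- Distance from `A` to its row-sorted matrix. -/
theorem allR2_numDiff {n : ℕ} (A : Fin n → Fin n → Bool) :
    numDiff A (allR2_B A) = 2 * ∑ r : Fin n, allR2_d A r := by
  classical
  unfold numDiff
  rw [allR2_card_filter_prod_fst, Finset.mul_sum]
  refine Finset.sum_congr rfl fun r _ => ?_
  have h : (univ.filter (fun c : Fin n => A r c ≠ allR2_B A r c)).card
      = allR2_d A r
        + (univ.filter (fun c : Fin n => allR2_o A r ≤ c.val ∧ A r c = true)).card := by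
    unfold allR2_d allR2_B
    simp only [Finset.card_filter]
    rw [← Finset.sum_add_distrib]
    refine Finset.sum_congr rfl fun c _ => ?_
    cases A r c <;> by_cases h : c.val < allR2_o A r <;> simp [h]
  rw [h, allR2_w_eq]
  ring

theorem allR2_P_card_le (n : ℕ) : (allR2_P n).card ≤ n ^ 2 := by
  unfold allR2_P
  refine (Finset.card_filter_le _ _).trans ?_
  simp [sq]

/-- The zeros on the left times the ones on the right are inversions. -/
theorem allR2_d_sq_le {n : ℕ} (A : Fin n → Fin n → Bool) (r : Fin n) :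
    allR2_d A r ^ 2 ≤ allR2_inv A r := by
  have hsub : (univ.filter (fun c : Fin n => c.val < allR2_o A r ∧ A r c = false)) ×ˢ
      (univ.filter (fun c : Fin n => allR2_o A r ≤ c.val ∧ A r c = true))
      ⊆ (allR2_P n).filter (fun cc => A r cc.1 = false ∧ A r cc.2 = true) := by
    intro cc hcc
    rw [Finset.mem_product, Finset.mem_filter, Finset.mem_filter] at hcc
    obtain ⟨⟨-, h1, h2⟩, -, h3, h4⟩ := hcc
    unfold allR2_P
    rw [Finset.mem_filter, Finset.mem_filter]
    exact ⟨⟨Finset.mem_univ _, Fin.lt_def.mpr (by omega)⟩, h2, h4⟩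
  have h := Finset.card_le_card hsub
  rw [Finset.card_product, allR2_w_eq] at h
  unfold allR2_inv
  calc allR2_d A r ^ 2 = allR2_d A r * allR2_d A r := sq _
    _ ≤ _ := h

theorem allR2_inv_le {n : ℕ} (A : Fin n → Fin n → Bool) (r : Fin n) : allR2_inv A r ≤ n ^ 2 := by
  unfold allR2_inv
  exact (Finset.card_filter_le _ _).trans (allR2_P_card_le n)

/-- Double counting of the inversions. -/
theorem allR2_sum_inv {n : ℕ} (A : Fin n → Fin n → Bool) :
    ∑ r : Fin n, allR2_inv A r = ∑ cc ∈ allR2_P n, allR2_m A cc := by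
  unfold allR2_inv allR2_m
  simp only [Finset.card_filter]
  rw [Finset.sum_comm]

/-- The squares of the row counts are controlled by the increasing pairs of rows. -/
theorem allR2_m_sq_le {n : ℕ} (A : Fin n → Fin n → Bool) (cc : Fin n × Fin n) :
    allR2_m A cc ^ 2 ≤ allR2_m A cc + 2 * (allR2_L A cc).card := by
  classical
  set M : Finset (Fin n) := univ.filter (fun r : Fin n => A r cc.1 = false ∧ A r cc.2 = true)
    with hM
  have hm : allR2_m A cc = M.card := rfl
  have hcover : M ×ˢ M ⊆ ((M ×ˢ M).filter (fun rr => rr.1 = rr.2) ∪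
      (M ×ˢ M).filter (fun rr => rr.1 < rr.2)) ∪ (M ×ˢ M).filter (fun rr => rr.2 < rr.1) := by
    intro rr hrr
    rw [Finset.mem_union, Finset.mem_union, Finset.mem_filter, Finset.mem_filter,
      Finset.mem_filter]
    rcases lt_trichotomy rr.1 rr.2 with h | h | h
    · exact Or.inl (Or.inr ⟨hrr, h⟩)
    · exact Or.inl (Or.inl ⟨hrr, h⟩)
    · exact Or.inr ⟨hrr, h⟩
  have h1 : ((M ×ˢ M).filter (fun rr => rr.1 = rr.2)).card ≤ M.card := by
    refine Finset.card_le_card_of_injOn Prod.fst ?_ ?_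
    · intro rr hrr
      have := (Finset.mem_filter.mp (Finset.mem_coe.mp hrr)).1
      exact Finset.mem_coe.mpr (Finset.mem_product.mp this).1
    · intro a ha b hb hab
      have ha' := (Finset.mem_filter.mp (Finset.mem_coe.mp ha)).2
      have hb' := (Finset.mem_filter.mp (Finset.mem_coe.mp hb)).2
      exact Prod.ext hab (by rw [← ha', ← hb', hab])
  have h2 : ((M ×ˢ M).filter (fun rr => rr.1 < rr.2)).card ≤ (allR2_L A cc).card := by
    refine Finset.card_le_card ?_
    intro rr hrr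
    rw [Finset.mem_filter, Finset.mem_product, hM, Finset.mem_filter, Finset.mem_filter] at hrr
    obtain ⟨⟨⟨-, a1, a2⟩, -, a3, a4⟩, hlt⟩ := hrr
    unfold allR2_L
    rw [Finset.mem_filter]
    exact ⟨Finset.mem_univ _, hlt, a1, a2, a3, a4⟩
  have h3 : ((M ×ˢ M).filter (fun rr => rr.2 < rr.1)).card ≤ (allR2_L A cc).card := by
    refine Finset.card_le_card_of_injOn Prod.swap ?_ ?_
    · intro rr hrr
      have hrr' := Finset.mem_coe.mp hrr
      rw [Finset.mem_filter, Finset.mem_product, hM, Finset.mem_filter, Finset.mem_filter] at hrr'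
      obtain ⟨⟨⟨-, a1, a2⟩, -, a3, a4⟩, hlt⟩ := hrr'
      unfold allR2_L
      refine Finset.mem_coe.mpr (Finset.mem_filter.mpr ⟨Finset.mem_univ _, ?_⟩)
      exact ⟨hlt, a3, a4, a1, a2⟩
    · intro a _ b _ hab
      exact Prod.swap_injective hab
  have hcard := (Finset.card_le_card hcover).trans
    ((Finset.card_union_le _ _).trans (Nat.add_le_add_right (Finset.card_union_le _ _) _))
  rw [Finset.card_product] at hcard
  rw [hm, sq]
  omega

/-- The increasing pairs of rows and columns with a `0 1` pattern are copies of `R2`. -/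
theorem allR2_sum_L_le {n : ℕ} (A : Fin n → Fin n → Bool) :
    ∑ cc ∈ allR2_P n, (allR2_L A cc).card ≤ copyCount R2 A := by
  classical
  rw [← Finset.card_sigma]
  unfold copyCount
  refine Finset.card_le_card_of_injOn
    (fun x : (_ : Fin n × Fin n) × (Fin n × Fin n) =>
      ((![x.2.1, x.2.2] : Fin 2 → Fin n), (![x.1.1, x.1.2] : Fin 2 → Fin n))) ?_ ?_
  · intro x hx
    have hx' := Finset.mem_sigma.mp (Finset.mem_coe.mp hx)
    obtain ⟨hP, hL⟩ := hx'
    unfold allR2_P at hP
    unfold allR2_L at hL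
    rw [Finset.mem_filter] at hP hL
    obtain ⟨-, hc⟩ := hP
    obtain ⟨-, hr, a1, a2, a3, a4⟩ := hL
    unfold copies
    refine Finset.mem_coe.mpr (Finset.mem_filter.mpr ⟨Finset.mem_univ _, ?_, ?_, ?_⟩)
    · exact allR2_strictMono_pair _ _ hr
    · exact allR2_strictMono_pair _ _ hc
    · intro i j
      fin_cases i <;> fin_cases j <;> simp [R2, a1, a2, a3, a4]
  · intro x1 _ x2 _ heq
    simp only [Prod.mk.injEq] at heq
    obtain ⟨e1, e2⟩ := heq
    have b1 := congrFun e1 0
    have b2 := congrFun e1 1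
    have b3 := congrFun e2 0
    have b4 := congrFun e2 1
    simp only [Matrix.cons_val_zero, Matrix.cons_val_one] at b1 b2 b3 b4
    obtain ⟨c1, r1⟩ := x1
    obtain ⟨c2, r2⟩ := x2
    have hc : c1 = c2 := Prod.ext b3 b4
    have hr : r1 = r2 := Prod.ext b1 b2
    subst hc
    subst hr
    rfl

/-- The combinatorial core: the fourth power of the total defect is controlled by the copies. -/
theorem allR2_core {n : ℕ} (A : Fin n → Fin n → Bool) :
    (∑ r : Fin n, allR2_d A r) ^ 4 ≤ n ^ 4 * (n ^ 3 + 2 * copyCount R2 A) := by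
  set S := ∑ r : Fin n, allR2_d A r with hS
  set T := ∑ r : Fin n, allR2_inv A r with hT
  set N := copyCount R2 A with hN
  have hb : S ^ 2 ≤ n * T := by
    have h1 := sq_sum_le_card_mul_sum_sq (s := (univ : Finset (Fin n))) (f := fun r => allR2_d A r)
    rw [Finset.card_univ, Fintype.card_fin] at h1
    refine h1.trans (Nat.mul_le_mul_left _ ?_)
    exact Finset.sum_le_sum fun r _ => allR2_d_sq_le A r
  have hd : T ≤ n ^ 3 := by
    have h1 : T ≤ ∑ _r : Fin n, n ^ 2 := Finset.sum_le_sum fun r _ => allR2_inv_le A r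
    rw [Finset.sum_const, Finset.card_univ, Fintype.card_fin, smul_eq_mul] at h1
    calc T ≤ n * n ^ 2 := h1
      _ = n ^ 3 := by ring
  have hc : T ^ 2 ≤ n ^ 2 * (T + 2 * N) := by
    have e : T = ∑ cc ∈ allR2_P n, allR2_m A cc := allR2_sum_inv A
    have h1 := sq_sum_le_card_mul_sum_sq (s := allR2_P n) (f := fun cc => allR2_m A cc)
    rw [← e] at h1
    have h2 : ∑ cc ∈ allR2_P n, allR2_m A cc ^ 2 ≤ T + 2 * N := by
      calc ∑ cc ∈ allR2_P n, allR2_m A cc ^ 2
          ≤ ∑ cc ∈ allR2_P n, (allR2_m A cc + 2 * (allR2_L A cc).card) :=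
            Finset.sum_le_sum fun cc _ => allR2_m_sq_le A cc
        _ = T + 2 * ∑ cc ∈ allR2_P n, (allR2_L A cc).card := by
            rw [Finset.sum_add_distrib, ← e, Finset.mul_sum]
        _ ≤ T + 2 * N := by
            have := allR2_sum_L_le A
            omega
    calc T ^ 2 ≤ (allR2_P n).card * ∑ cc ∈ allR2_P n, allR2_m A cc ^ 2 := h1
      _ ≤ n ^ 2 * (T + 2 * N) := Nat.mul_le_mul (allR2_P_card_le n) h2
  calc S ^ 4 = (S ^ 2) ^ 2 := by ring
    _ ≤ (n * T) ^ 2 := Nat.pow_le_pow_left hb 2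
    _ = n ^ 2 * T ^ 2 := by ring
    _ ≤ n ^ 2 * (n ^ 2 * (T + 2 * N)) := Nat.mul_le_mul_left _ hc
    _ ≤ n ^ 2 * (n ^ 2 * (n ^ 3 + 2 * N)) :=
        Nat.mul_le_mul_left _ (Nat.mul_le_mul_left _ (by omega))
    _ = n ^ 4 * (n ^ 3 + 2 * N) := by ring

theorem polyRemoval_R2 : PolyRemoval R2 := by
  refine ⟨1 / 2 ^ 20, by positivity, 16, ?_⟩
  intro n A ε hε hε1 hfar
  rcases Nat.eq_zero_or_pos n with hn0 | hnpos
  · subst hn0
    simp
  have hn1 : (1 : ℝ) ≤ (n : ℝ) := by exact_mod_cast hnpos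
  have hN1 : (1 : ℝ) ≤ (copyCount R2 A : ℝ) := by
    exact_mod_cast copyCount_pos_of_isFar R2 A ε hε hnpos hfar
  have hfarB := hfar (allR2_B A) (allR2_B_free A)
  rw [allR2_numDiff] at hfarB
  have hcore := allR2_core A
  set S := ∑ r : Fin n, allR2_d A r with hS
  set N := copyCount R2 A with hN
  have hcoreR : (S : ℝ) ^ 4 ≤ (n : ℝ) ^ 4 * ((n : ℝ) ^ 3 + 2 * (N : ℝ)) := by
    exact_mod_cast hcore
  have hS2 : ε * (n : ℝ) ^ 2 ≤ 2 * (S : ℝ) := by
    have : ((2 * S : ℕ) : ℝ) = 2 * (S : ℝ) := by push_cast; ring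
    rw [← this]
    exact hfarB
  have hn4 : (0 : ℝ) < (n : ℝ) ^ 4 := by positivity
  have hS0 : (0 : ℝ) ≤ (S : ℝ) := Nat.cast_nonneg S
  have h4 : (ε * (n : ℝ) ^ 2) ^ 4 ≤ (2 * (S : ℝ)) ^ 4 :=
    pow_le_pow_left₀ (by positivity) hS2 4
  have hmain : ε ^ 4 * (n : ℝ) ^ 4 ≤ 16 * ((n : ℝ) ^ 3 + 2 * (N : ℝ)) := by
    have h5 : ε ^ 4 * (n : ℝ) ^ 4 * (n : ℝ) ^ 4
        ≤ 16 * ((n : ℝ) ^ 3 + 2 * (N : ℝ)) * (n : ℝ) ^ 4 := by
      calc ε ^ 4 * (n : ℝ) ^ 4 * (n : ℝ) ^ 4 = (ε * (n : ℝ) ^ 2) ^ 4 := by ring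
        _ ≤ (2 * (S : ℝ)) ^ 4 := h4
        _ = 16 * (S : ℝ) ^ 4 := by ring
        _ ≤ 16 * ((n : ℝ) ^ 4 * ((n : ℝ) ^ 3 + 2 * (N : ℝ))) := by linarith
        _ = 16 * ((n : ℝ) ^ 3 + 2 * (N : ℝ)) * (n : ℝ) ^ 4 := by ring
    exact le_of_mul_le_mul_right h5 hn4
  have hε4 : 0 < ε ^ 4 := by positivity
  have hε16 : ε ^ 16 ≤ ε ^ 4 := pow_le_pow_of_le_one hε.le hε1.le (by norm_num)
  have hn3 : (0 : ℝ) < (n : ℝ) ^ 3 := by positivity
  by_cases hcase : 32 ≤ ε ^ 4 * (n : ℝ)
  · have h6 : 32 * (n : ℝ) ^ 3 ≤ ε ^ 4 * (n : ℝ) ^ 4 := by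
      have := mul_le_mul_of_nonneg_right hcase hn3.le
      calc 32 * (n : ℝ) ^ 3 ≤ ε ^ 4 * (n : ℝ) * (n : ℝ) ^ 3 := this
        _ = ε ^ 4 * (n : ℝ) ^ 4 := by ring
    have h7 : ε ^ 4 * (n : ℝ) ^ 4 / 64 ≤ (N : ℝ) := by linarith
    have h8 : 1 / 2 ^ 20 * ε ^ 16 * (n : ℝ) ^ 4 ≤ ε ^ 4 * (n : ℝ) ^ 4 / 64 := by
      have h9 : ε ^ 16 * (n : ℝ) ^ 4 ≤ ε ^ 4 * (n : ℝ) ^ 4 :=
        mul_le_mul_of_nonneg_right hε16 hn4.le
      have h10 : (0 : ℝ) ≤ ε ^ 16 * (n : ℝ) ^ 4 := by positivity
      norm_num at h9 h10 ⊢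
      nlinarith
    exact h8.trans h7
  · rw [not_le] at hcase
    have h0 : 0 ≤ ε ^ 4 * (n : ℝ) := by positivity
    have h6 : (ε ^ 4 * (n : ℝ)) ^ 4 < 32 ^ 4 := pow_lt_pow_left₀ hcase h0 (by norm_num)
    have h7 : ε ^ 16 * (n : ℝ) ^ 4 < 2 ^ 20 := by
      calc ε ^ 16 * (n : ℝ) ^ 4 = (ε ^ 4 * (n : ℝ)) ^ 4 := by ring
        _ < 32 ^ 4 := h6
        _ = 2 ^ 20 := by norm_num
    have h8 : 1 / 2 ^ 20 * ε ^ 16 * (n : ℝ) ^ 4 < 1 := by
      have : 1 / 2 ^ 20 * ε ^ 16 * (n : ℝ) ^ 4 = (ε ^ 16 * (n : ℝ) ^ 4) / 2 ^ 20 := by ring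
      rw [this, div_lt_one (by positivity)]
      exact h7
    linarith

end Vale.Agent.Lib.P037
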