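import Mathlib
import Vale.Agent.Lib.P037.Defs
import Vale.Agent.Lib.P037.Basic
import Vale.Agent.Lib.P037.I2Defs
import Vale.Agent.Lib.P037.I2Rev
import Vale.Agent.Lib.P037.AllDefs
namespace Vale.Agent.Lib.P037
open Finset

theorem allSym_isFree_iff {k n : ℕ} (H : Fin k → Fin k → Bool) (A : Fin n → Fin n → Bool) :
    IsFree H A ↔ copyCount H A = 0 := by
  rw [isFree_iff_copies_eq_empty]
  unfold copyCount
  rw [Finset.card_eq_zero]

/-- Generic transfer of the polynomial removal property along an involution of matrices that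
matches copies of `H'` in `A` with copies of `H` in the transformed matrix and preserves the
number of differing entries. -/
theorem allSym_transfer (H H' : Fin 2 → Fin 2 → Bool)
    (σ : ∀ n : ℕ, (Fin n → Fin n → Bool) → (Fin n → Fin n → Bool))
    (hinv : ∀ (n : ℕ) (A : Fin n → Fin n → Bool), σ n (σ n A) = A)
    (hcount : ∀ (n : ℕ) (A : Fin n → Fin n → Bool), copyCount H (σ n A) = copyCount H' A)
    (hdiff : ∀ (n : ℕ) (A B : Fin n → Fin n → Bool), numDiff (σ n A) (σ n B) = numDiff A B)
    (h : PolyRemoval H) : PolyRemoval H' := by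
  obtain ⟨c, hc, C, hC⟩ := h
  refine ⟨c, hc, C, fun n A ε hε0 hε1 hfar => ?_⟩
  have hfar' : IsFar H (σ n A) ε := by
    intro B hB
    have hfree : IsFree H' (σ n B) := by
      rw [allSym_isFree_iff, ← hcount, hinv, ← allSym_isFree_iff]
      exact hB
    have h1 := hfar (σ n B) hfree
    rw [← hdiff n A (σ n B), hinv] at h1
    exact h1
  have h2 := hC n (σ n A) ε hε0 hε1 hfar'
  rw [hcount] at h2
  exact h2

/-! ### Complement -/

theorem allSym_complM_complM {n : ℕ} (A : Fin n → Fin n → Bool) : complM (complM A) = A := by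
  funext r c
  simp only [complM, Bool.not_not]

theorem allSym_copyCount_complM {n : ℕ} (H : Fin 2 → Fin 2 → Bool) (A : Fin n → Fin n → Bool) :
    copyCount H (complM A) = copyCount (complM H) A := by
  unfold copyCount
  congr 1
  ext p
  rw [mem_copies, mem_copies]
  refine and_congr Iff.rfl (and_congr Iff.rfl (forall_congr' fun i => forall_congr' fun j => ?_))
  show (!A (p.1 i) (p.2 j)) = H i j ↔ A (p.1 i) (p.2 j) = !H i j
  cases A (p.1 i) (p.2 j) <;> cases H i j <;> simp

theorem allSym_numDiff_complM {n : ℕ} (A B : Fin n → Fin n → Bool) :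
    numDiff (complM A) (complM B) = numDiff A B := by
  unfold numDiff
  congr 1
  ext p
  rw [Finset.mem_filter, Finset.mem_filter]
  refine and_congr Iff.rfl ?_
  show (!A p.1 p.2) ≠ (!B p.1 p.2) ↔ A p.1 p.2 ≠ B p.1 p.2
  cases A p.1 p.2 <;> cases B p.1 p.2 <;> simp

theorem polyRemoval_complM (H : Fin 2 → Fin 2 → Bool) (h : PolyRemoval H) :
    PolyRemoval (complM H) :=
  allSym_transfer H (complM H) (fun _ A => complM A)
    (fun _ A => allSym_complM_complM A) (fun _ A => allSym_copyCount_complM H A)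
    (fun _ A B => allSym_numDiff_complM A B) h

/-! ### Transpose -/

theorem allSym_transpM_transpM {n : ℕ} (A : Fin n → Fin n → Bool) : transpM (transpM A) = A := by
  funext r c
  rfl

theorem allSym_copyCount_transpM {n : ℕ} (H : Fin 2 → Fin 2 → Bool) (A : Fin n → Fin n → Bool) :
    copyCount H (transpM A) = copyCount (transpM H) A := by
  unfold copyCount
  refine Finset.card_nbij' (fun p => (p.2, p.1)) (fun p => (p.2, p.1)) ?_ ?_ ?_ ?_
  · intro p hp
    rw [Finset.mem_coe, mem_copies] at hp ⊢
    obtain ⟨h1, h2, h3⟩ := hp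
    exact ⟨h2, h1, fun i j => h3 j i⟩
  · intro p hp
    rw [Finset.mem_coe, mem_copies] at hp ⊢
    obtain ⟨h1, h2, h3⟩ := hp
    exact ⟨h2, h1, fun i j => h3 j i⟩
  · intro p _
    rfl
  · intro p _
    rfl

theorem allSym_numDiff_transpM {n : ℕ} (A B : Fin n → Fin n → Bool) :
    numDiff (transpM A) (transpM B) = numDiff A B := by
  unfold numDiff
  refine Finset.card_nbij' (fun p => (p.2, p.1)) (fun p => (p.2, p.1)) ?_ ?_ ?_ ?_
  · intro p hp
    rw [Finset.mem_coe, Finset.mem_filter] at hp ⊢
    exact ⟨Finset.mem_univ _, hp.2⟩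
  · intro p hp
    rw [Finset.mem_coe, Finset.mem_filter] at hp ⊢
    exact ⟨Finset.mem_univ _, hp.2⟩
  · intro p _
    rfl
  · intro p _
    rfl

theorem polyRemoval_transpM (H : Fin 2 → Fin 2 → Bool) (h : PolyRemoval H) :
    PolyRemoval (transpM H) :=
  allSym_transfer H (transpM H) (fun _ A => transpM A)
    (fun _ A => allSym_transpM_transpM A) (fun _ A => allSym_copyCount_transpM H A)
    (fun _ A B => allSym_numDiff_transpM A B) h

/-! ### Column reversal -/

theorem allSym_copyCount_revCols {n : ℕ} (H : Fin 2 → Fin 2 → Bool) (A : Fin n → Fin n → Bool) :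
    copyCount H (revCols A) = copyCount (revCols H) A := by
  unfold copyCount
  refine Finset.card_nbij' (fun p => (p.1, revMap p.2)) (fun p => (p.1, revMap p.2)) ?_ ?_ ?_ ?_
  · intro p hp
    rw [Finset.mem_coe, mem_copies] at hp ⊢
    obtain ⟨h1, h2, h3⟩ := hp
    refine ⟨h1, strictMono_revMap h2, fun i j => ?_⟩
    exact h3 i (Fin.rev j)
  · intro p hp
    rw [Finset.mem_coe, mem_copies] at hp ⊢
    obtain ⟨h1, h2, h3⟩ := hp
    refine ⟨h1, strictMono_revMap h2, fun i j => ?_⟩
    have h4 := h3 i (Fin.rev j)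
    show A (p.1 i) (Fin.rev (Fin.rev (p.2 (Fin.rev j)))) = H i j
    rw [Fin.rev_rev, h4]
    show H i (Fin.rev (Fin.rev j)) = H i j
    rw [Fin.rev_rev]
  · intro p _
    show (p.1, revMap (revMap p.2)) = p
    rw [revMap_revMap]
  · intro p _
    show (p.1, revMap (revMap p.2)) = p
    rw [revMap_revMap]

theorem allSym_numDiff_revCols {n : ℕ} (A B : Fin n → Fin n → Bool) :
    numDiff (revCols A) (revCols B) = numDiff A B := by
  rw [numDiff_revCols, revCols_revCols]

theorem polyRemoval_revCols (H : Fin 2 → Fin 2 → Bool) (h : PolyRemoval H) :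
    PolyRemoval (revCols H) :=
  allSym_transfer H (revCols H) (fun _ A => revCols A)
    (fun _ A => revCols_revCols A) (fun _ A => allSym_copyCount_revCols H A)
    (fun _ A B => allSym_numDiff_revCols A B) h

/-! ### Row reversal -/

theorem allSym_revRows_eq {n : ℕ} (A : Fin n → Fin n → Bool) :
    revRows A = transpM (revCols (transpM A)) := by
  funext r c
  rfl

theorem polyRemoval_revRows (H : Fin 2 → Fin 2 → Bool) (h : PolyRemoval H) :
    PolyRemoval (revRows H) := by
  rw [allSym_revRows_eq]
  exact polyRemoval_transpM _ (polyRemoval_revCols _ (polyRemoval_transpM _ h))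

end Vale.Agent.Lib.P037
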