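import Mathlib
import Vale.Agent.Lib.P037.Defs
import Vale.Agent.Lib.P037.Basic
import Vale.Agent.Lib.P037.I2Defs
import Vale.Agent.Lib.P037.I2Rev
import Vale.Agent.Lib.P037.AllDefs
namespace Vale.Agent.Lib.P037
open Finset

/-- The zero entries of row `r`. -/
def allZ2_row {n : ℕ} (A : Fin n → Fin n → Bool) (r : Fin n) : Finset (Fin n) :=
  univ.filter (fun c => A r c = false)

/-- The rows with a zero entry in both columns `c` and `c'`. -/
def allZ2_col {n : ℕ} (A : Fin n → Fin n → Bool) (c c' : Fin n) : Finset (Fin n) :=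
  univ.filter (fun r => A r c = false ∧ A r c' = false)

/-- Quadruples of two distinct columns and two distinct rows spanning four zero entries. -/
def allZ2_Qoff {n : ℕ} (A : Fin n → Fin n → Bool) : Finset ((Fin n × Fin n) × (Fin n × Fin n)) :=
  univ.filter (fun q => q.1.1 ≠ q.1.2 ∧ q.2.1 ≠ q.2.2 ∧ A q.2.1 q.1.1 = false ∧
    A q.2.1 q.1.2 = false ∧ A q.2.2 q.1.1 = false ∧ A q.2.2 q.1.2 = false)

theorem allZ2_card_fst {α β : Type*} [Fintype α] [Fintype β] (R : α × β → Prop)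
    [DecidablePred R] :
    (univ.filter R).card = ∑ a, (univ.filter (fun b => R (a, b))).card := by
  simp only [Finset.card_filter]
  rw [Fintype.sum_prod_type]

theorem allZ2_card_snd {α β : Type*} [Fintype α] [Fintype β] (R : α × β → Prop)
    [DecidablePred R] :
    (univ.filter R).card = ∑ b, (univ.filter (fun a => R (a, b))).card := by
  simp only [Finset.card_filter]
  rw [Fintype.sum_prod_type_right]

theorem allZ2_numDiff {n : ℕ} (A : Fin n → Fin n → Bool) :
    numDiff A (fun _ _ => true) = ∑ r, (allZ2_row A r).card := by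
  unfold numDiff allZ2_row
  simp only [Finset.card_filter]
  rw [Fintype.sum_prod_type]
  simp

theorem allZ2_step0 {n : ℕ} (A : Fin n → Fin n → Bool) (ε : ℝ) (hfar : IsFar Z2 A ε) :
    ε * (n : ℝ) ^ 2 ≤ ((∑ r, (allZ2_row A r).card : ℕ) : ℝ) := by
  have hfree : IsFree Z2 (fun (_ _ : Fin n) => true) := by
    intro r c _ _ h
    have h00 := h 0 0
    simp [Z2] at h00
  have h := hfar _ hfree
  rw [allZ2_numDiff] at h
  exact h

theorem allZ2_step1 {n : ℕ} (A : Fin n → Fin n → Bool) :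
    (∑ r, (allZ2_row A r).card) ^ 2
      ≤ n * ∑ p : Fin n × Fin n, (allZ2_col A p.1 p.2).card := by
  have hcs := sq_sum_le_card_mul_sum_sq (s := (univ : Finset (Fin n)))
    (f := fun r => (allZ2_row A r).card)
  rw [Finset.card_univ, Fintype.card_fin] at hcs
  have h1 : ∀ r, (allZ2_row A r).card ^ 2
      = (univ.filter (fun p : Fin n × Fin n => A r p.1 = false ∧ A r p.2 = false)).card := by
    intro r
    rw [sq, ← Finset.card_product]
    congr 1
    ext p
    simp [allZ2_row]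
  have e1 := allZ2_card_fst
    (fun q : Fin n × (Fin n × Fin n) => A q.1 q.2.1 = false ∧ A q.1 q.2.2 = false)
  have e2 := allZ2_card_snd
    (fun q : Fin n × (Fin n × Fin n) => A q.1 q.2.1 = false ∧ A q.1 q.2.2 = false)
  have hT : ∑ r, (allZ2_row A r).card ^ 2
      = ∑ p : Fin n × Fin n, (allZ2_col A p.1 p.2).card := by
    calc ∑ r, (allZ2_row A r).card ^ 2
        = ∑ r, (univ.filter
            (fun p : Fin n × Fin n => A r p.1 = false ∧ A r p.2 = false)).card :=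
          Finset.sum_congr rfl (fun r _ => h1 r)
      _ = _ := e1.symm
      _ = _ := e2
      _ = ∑ p : Fin n × Fin n, (allZ2_col A p.1 p.2).card := rfl
  rw [hT] at hcs
  simpa using hcs

theorem allZ2_step2 {n : ℕ} (A : Fin n → Fin n → Bool) :
    (∑ p : Fin n × Fin n, (allZ2_col A p.1 p.2).card) ^ 2
      ≤ n ^ 2 * ∑ p : Fin n × Fin n, (allZ2_col A p.1 p.2).card ^ 2 := by
  have hcs := sq_sum_le_card_mul_sum_sq (s := (univ : Finset (Fin n × Fin n)))
    (f := fun p => (allZ2_col A p.1 p.2).card)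
  rw [Finset.card_univ, Fintype.card_prod, Fintype.card_fin] at hcs
  rw [sq n]
  simpa using hcs

theorem allZ2_step3a {n : ℕ} (A : Fin n → Fin n → Bool) :
    ∑ p : Fin n × Fin n, (allZ2_col A p.1 p.2).card ^ 2
      ≤ (allZ2_Qoff A).card + 2 * n ^ 3 := by
  have hm : ∀ c c', (allZ2_col A c c').card ≤ n := by
    intro c c'
    have := Finset.card_le_univ (allZ2_col A c c')
    simpa using this
  have hterm : ∀ p : Fin n × Fin n, (allZ2_col A p.1 p.2).card ^ 2 ≤
      (univ.filter (fun rr : Fin n × Fin n => p.1 ≠ p.2 ∧ rr.1 ≠ rr.2 ∧ A rr.1 p.1 = false ∧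
        A rr.1 p.2 = false ∧ A rr.2 p.1 = false ∧ A rr.2 p.2 = false)).card
        + (n + if p.1 = p.2 then n * n else 0) := by
    intro p
    by_cases hp : p.1 = p.2
    · rw [if_pos hp, sq]
      have := Nat.mul_le_mul (hm p.1 p.2) (hm p.1 p.2)
      omega
    · rw [if_neg hp]
      have hoff : (univ.filter (fun rr : Fin n × Fin n => p.1 ≠ p.2 ∧ rr.1 ≠ rr.2 ∧
          A rr.1 p.1 = false ∧ A rr.1 p.2 = false ∧ A rr.2 p.1 = false ∧ A rr.2 p.2 = false))
          = (allZ2_col A p.1 p.2).offDiag := by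
        ext rr
        simp only [Finset.mem_filter, Finset.mem_univ, true_and, Finset.mem_offDiag, allZ2_col]
        tauto
      rw [hoff, Finset.offDiag_card, sq]
      have h1 := hm p.1 p.2
      have h2 : (allZ2_col A p.1 p.2).card
          ≤ (allZ2_col A p.1 p.2).card * (allZ2_col A p.1 p.2).card := Nat.le_mul_self _
      omega
  have e1 := allZ2_card_fst (fun q : (Fin n × Fin n) × (Fin n × Fin n) =>
    q.1.1 ≠ q.1.2 ∧ q.2.1 ≠ q.2.2 ∧ A q.2.1 q.1.1 = false ∧
    A q.2.1 q.1.2 = false ∧ A q.2.2 q.1.1 = false ∧ A q.2.2 q.1.2 = false)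
  have e2 : ∑ p : Fin n × Fin n, (n + if p.1 = p.2 then n * n else 0) = 2 * n ^ 3 := by
    rw [Finset.sum_add_distrib, Fintype.sum_prod_type (fun p : Fin n × Fin n =>
      if p.1 = p.2 then n * n else 0)]
    simp
    ring
  calc ∑ p : Fin n × Fin n, (allZ2_col A p.1 p.2).card ^ 2
      ≤ ∑ p : Fin n × Fin n, ((univ.filter (fun rr : Fin n × Fin n => p.1 ≠ p.2 ∧
          rr.1 ≠ rr.2 ∧ A rr.1 p.1 = false ∧
          A rr.1 p.2 = false ∧ A rr.2 p.1 = false ∧ A rr.2 p.2 = false)).card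
          + (n + if p.1 = p.2 then n * n else 0)) := Finset.sum_le_sum (fun p _ => hterm p)
    _ = (allZ2_Qoff A).card + 2 * n ^ 3 := by
      rw [Finset.sum_add_distrib, e2]
      congr 1
      exact e1.symm

theorem allZ2_strictMono {n : ℕ} {a b : Fin n} (h : a < b) : StrictMono ![a, b] := by
  intro i j hij
  fin_cases i <;> fin_cases j
  · exact absurd hij (lt_irrefl _)
  · exact h
  · exact absurd hij (by decide)
  · exact absurd hij (lt_irrefl _)

theorem allZ2_entries {n : ℕ} (A : Fin n → Fin n → Bool) (r r' c c' : Fin n)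
    (h1 : A r c = false) (h2 : A r c' = false) (h3 : A r' c = false) (h4 : A r' c' = false) :
    ∀ i j : Fin 2, A (![min r r', max r r'] i) (![min c c', max c c'] j) = Z2 i j := by
  rcases le_total r r' with h | h <;> rcases le_total c c' with h' | h' <;>
  · simp only [min_eq_left, min_eq_right, max_eq_left, max_eq_right, h, h']
    intro i j
    fin_cases i <;> fin_cases j <;> simp [Z2, h1, h2, h3, h4]

theorem allZ2_pair_inj {n : ℕ} {a b a' b' : Fin n} (hab : a ≠ b) (hab' : a' ≠ b')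
    (hv : (![min a b, max a b] : Fin 2 → Fin n) = ![min a' b', max a' b'])
    (hd : decide (a < b) = decide (a' < b')) : a = a' ∧ b = b' := by
  have h0 : min a b = min a' b' := congrFun hv 0
  have h1 : max a b = max a' b' := congrFun hv 1
  rcases lt_or_gt_of_ne hab with h | h <;> rcases lt_or_gt_of_ne hab' with h' | h'
  · rw [min_eq_left h.le, min_eq_left h'.le] at h0
    rw [max_eq_right h.le, max_eq_right h'.le] at h1
    exact ⟨h0, h1⟩
  · simp [h, not_lt.mpr h'.le] at hd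
  · simp [h', not_lt.mpr h.le] at hd
  · rw [min_eq_right h.le, min_eq_right h'.le] at h0
    rw [max_eq_left h.le, max_eq_left h'.le] at h1
    exact ⟨h1, h0⟩

theorem allZ2_step3b {n : ℕ} (A : Fin n → Fin n → Bool) :
    (allZ2_Qoff A).card ≤ 4 * copyCount Z2 A := by
  have hcard : ((copies Z2 A) ×ˢ (univ : Finset (Bool × Bool))).card = 4 * copyCount Z2 A := by
    rw [Finset.card_product, Finset.card_univ, Fintype.card_prod, Fintype.card_bool, copyCount]
    ring
  rw [← hcard]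
  apply Finset.card_le_card_of_injOn (fun q : (Fin n × Fin n) × (Fin n × Fin n) =>
    ((![min q.2.1 q.2.2, max q.2.1 q.2.2], ![min q.1.1 q.1.2, max q.1.1 q.1.2]),
      (decide (q.2.1 < q.2.2), decide (q.1.1 < q.1.2))))
  · intro q hq
    have hq' := Finset.mem_filter.mp (Finset.mem_coe.mp hq)
    obtain ⟨-, hc, hr, h1, h2, h3, h4⟩ := hq'
    refine Finset.mem_coe.mpr (Finset.mem_product.mpr ⟨?_, Finset.mem_univ _⟩)
    rw [mem_copies]
    exact ⟨allZ2_strictMono (min_lt_max.mpr hr), allZ2_strictMono (min_lt_max.mpr hc),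
      allZ2_entries A _ _ _ _ h1 h2 h3 h4⟩
  · intro q1 hq1 q2 hq2 heq
    have hq1' := Finset.mem_filter.mp (Finset.mem_coe.mp hq1)
    have hq2' := Finset.mem_filter.mp (Finset.mem_coe.mp hq2)
    have hA := congrArg (fun x => x.1.1) heq
    have hB := congrArg (fun x => x.1.2) heq
    have hC := congrArg (fun x => x.2.1) heq
    have hD := congrArg (fun x => x.2.2) heq
    simp only at hA hB hC hD
    obtain ⟨hr1, hr2⟩ := allZ2_pair_inj hq1'.2.2.1 hq2'.2.2.1 hA hC
    obtain ⟨hc1, hc2⟩ := allZ2_pair_inj hq1'.2.1 hq2'.2.1 hB hD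
    exact Prod.ext (Prod.ext hc1 hc2) (Prod.ext hr1 hr2)

theorem polyRemoval_Z2 : PolyRemoval Z2 := by
  refine ⟨1 / 256, by norm_num, 16, ?_⟩
  intro n A ε hε0 hε1 hfar
  rcases Nat.eq_zero_or_pos n with hn | hn
  · subst hn
    simp
  have hN1 : 1 ≤ copyCount Z2 A := copyCount_pos_of_isFar Z2 A ε hε0 hn hfar
  have h0 := allZ2_step0 A ε hfar
  have h1 := allZ2_step1 A
  have h2 := allZ2_step2 A
  have h3a := allZ2_step3a A
  have h3b := allZ2_step3b A
  generalize (∑ r, (allZ2_row A r).card) = z at h0 h1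
  generalize (∑ p : Fin n × Fin n, (allZ2_col A p.1 p.2).card) = T at h1 h2
  generalize (∑ p : Fin n × Fin n, (allZ2_col A p.1 p.2).card ^ 2) = Q at h2 h3a
  generalize (allZ2_Qoff A).card = Qo at h3a h3b
  generalize copyCount Z2 A = N at hN1 h3b ⊢
  have hQ' : Q ≤ 4 * N + 2 * n ^ 3 := by omega
  have h4 : z ^ 4 ≤ n ^ 4 * (4 * N + 2 * n ^ 3) := by
    calc z ^ 4 = (z ^ 2) ^ 2 := by ring
      _ ≤ (n * T) ^ 2 := Nat.pow_le_pow_left h1 2
      _ = n ^ 2 * T ^ 2 := by ring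
      _ ≤ n ^ 2 * (n ^ 2 * Q) := Nat.mul_le_mul_left _ h2
      _ = n ^ 4 * Q := by ring
      _ ≤ n ^ 4 * (4 * N + 2 * n ^ 3) := Nat.mul_le_mul_left _ hQ'
  have hnR : (1 : ℝ) ≤ n := by exact_mod_cast hn
  have h4R : (z : ℝ) ^ 4 ≤ (n : ℝ) ^ 4 * (4 * N + 2 * (n : ℝ) ^ 3) := by exact_mod_cast h4
  have hz4 : (ε * (n : ℝ) ^ 2) ^ 4 ≤ (z : ℝ) ^ 4 := pow_le_pow_left₀ (by positivity) h0 4
  have h5 : ε ^ 4 * (n : ℝ) ^ 4 ≤ 4 * N + 2 * (n : ℝ) ^ 3 := by
    have hn4 : (0 : ℝ) < (n : ℝ) ^ 4 := by positivity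
    have hmul : (n : ℝ) ^ 4 * (ε ^ 4 * (n : ℝ) ^ 4)
        ≤ (n : ℝ) ^ 4 * (4 * N + 2 * (n : ℝ) ^ 3) := by
      calc (n : ℝ) ^ 4 * (ε ^ 4 * (n : ℝ) ^ 4) = (ε * (n : ℝ) ^ 2) ^ 4 := by ring
        _ ≤ _ := le_trans hz4 h4R
    exact le_of_mul_le_mul_left hmul hn4
  have hN1R : (1 : ℝ) ≤ N := by exact_mod_cast hN1
  have hε4 : 0 < ε ^ 4 := by positivity
  by_cases hbig : 4 ≤ ε ^ 4 * n
  · have h6 : 2 * (n : ℝ) ^ 3 ≤ ε ^ 4 * (n : ℝ) ^ 4 / 2 := by
      have hmul : (n : ℝ) ^ 3 * 4 ≤ (n : ℝ) ^ 3 * (ε ^ 4 * n) :=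
        mul_le_mul_of_nonneg_left hbig (by positivity)
      nlinarith
    have h7 : ε ^ 4 * (n : ℝ) ^ 4 / 8 ≤ N := by linarith
    have h8 : ε ^ 16 ≤ ε ^ 4 := pow_le_pow_of_le_one hε0.le hε1.le (by norm_num)
    have h9 : ε ^ 16 * (n : ℝ) ^ 4 ≤ ε ^ 4 * (n : ℝ) ^ 4 :=
      mul_le_mul_of_nonneg_right h8 (by positivity)
    linarith
  · push Not at hbig
    have h6 : ε ^ 16 * (n : ℝ) ^ 4 ≤ 256 := by
      have hpow : (ε ^ 4 * n) ^ 4 ≤ 4 ^ 4 := pow_le_pow_left₀ (by positivity) hbig.le 4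
      calc ε ^ 16 * (n : ℝ) ^ 4 = (ε ^ 4 * n) ^ 4 := by ring
        _ ≤ 4 ^ 4 := hpow
        _ = 256 := by norm_num
    linarith

end Vale.Agent.Lib.P037
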