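import Mathlib
import Vale.Agent.Lib.P037.Defs
import Vale.Agent.Lib.P037.I2Defs

namespace Vale.Agent.Lib.P037

open Finset

theorem sum_pow_four_le (K : ℕ) (f : ℕ → ℕ) :
    (∑ j ∈ range K, f j) ^ 4 ≤ K ^ 3 * ∑ j ∈ range K, (f j) ^ 4 := by
  have h1 : (∑ j ∈ range K, f j) ^ 2 ≤ K * ∑ j ∈ range K, (f j) ^ 2 := by
    have := sq_sum_le_card_mul_sum_sq (s := range K) (f := f)
    simpa using this
  have h2 : (∑ j ∈ range K, (f j) ^ 2) ^ 2 ≤ K * ∑ j ∈ range K, (f j) ^ 4 := by
    have := sq_sum_le_card_mul_sum_sq (s := range K) (f := fun j => (f j) ^ 2)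
    simp only [card_range] at this
    have h3 : ∀ j, ((f j) ^ 2) ^ 2 = (f j) ^ 4 := fun j => by ring
    simpa [h3] using this
  calc (∑ j ∈ range K, f j) ^ 4 = ((∑ j ∈ range K, f j) ^ 2) ^ 2 := by ring
    _ ≤ (K * ∑ j ∈ range K, (f j) ^ 2) ^ 2 := Nat.pow_le_pow_left h1 2
    _ = K ^ 2 * (∑ j ∈ range K, (f j) ^ 2) ^ 2 := by ring
    _ ≤ K ^ 2 * (K * ∑ j ∈ range K, (f j) ^ 4) := Nat.mul_le_mul_left _ h2
    _ = K ^ 3 * ∑ j ∈ range K, (f j) ^ 4 := by ring

/-- For a fixed shift `a`, at most `2 d` offsets `o < g` put `a + o` within `d` of a multiple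
of `g` (in the one-sided sense of the statement). -/
theorem card_bad_offsets_le (g d a : ℕ) :
    ((range g).filter (fun o => (a + o) % g < d ∨ g - d ≤ (a + o) % g)).card ≤ 2 * d := by
  have hinj : Set.InjOn (fun o => (a + o) % g)
      ((range g).filter (fun o => (a + o) % g < d ∨ g - d ≤ (a + o) % g) : Set ℕ) := by
    intro o1 h1 o2 h2 h
    have ho1 : o1 < g := by
      have := (Finset.mem_filter.mp (Finset.mem_coe.mp h1)).1
      exact Finset.mem_range.mp this
    have ho2 : o2 < g := by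
      have := (Finset.mem_filter.mp (Finset.mem_coe.mp h2)).1
      exact Finset.mem_range.mp this
    have hmod : a + o1 ≡ a + o2 [MOD g] := h
    have h3 : o1 ≡ o2 [MOD g] := Nat.ModEq.add_left_cancel' a hmod
    have h4 : o1 % g = o2 % g := h3
    rw [Nat.mod_eq_of_lt ho1, Nat.mod_eq_of_lt ho2] at h4
    exact h4
  rw [← Finset.card_image_of_injOn hinj]
  have hsub : ((range g).filter (fun o => (a + o) % g < d ∨ g - d ≤ (a + o) % g)).image
      (fun o => (a + o) % g) ⊆ range d ∪ Ico (g - d) g := by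
    intro x hx
    rw [Finset.mem_image] at hx
    obtain ⟨o, ho, rfl⟩ := hx
    have ho' := Finset.mem_filter.mp ho
    have hog : o < g := Finset.mem_range.mp ho'.1
    have hlt : (a + o) % g < g := Nat.mod_lt _ (by omega)
    rw [Finset.mem_union, Finset.mem_range, Finset.mem_Ico]
    rcases ho'.2 with h | h
    · exact Or.inl h
    · exact Or.inr ⟨h, hlt⟩
  calc _ ≤ (range d ∪ Ico (g - d) g).card := Finset.card_le_card hsub
    _ ≤ (range d).card + (Ico (g - d) g).card := Finset.card_union_le _ _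
    _ ≤ 2 * d := by
        rw [Finset.card_range, Nat.card_Ico]
        omega

theorem exists_offset (n g d : ℕ) (hg : 1 ≤ g) (hd : 2 * d ≤ g) (f : Fin n → ℕ) :
    ∃ o, o < g ∧
      (univ.filter (fun r : Fin n => (f r + o) % g < d ∨ g - d ≤ (f r + o) % g)).card * g ≤
        2 * d * n := by
  by_contra hcon
  push Not at hcon
  have hsum : ∑ o ∈ range g,
      (univ.filter (fun r : Fin n => (f r + o) % g < d ∨ g - d ≤ (f r + o) % g)).card
        ≤ 2 * d * n := by
    have hswap : ∑ o ∈ range g,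
        (univ.filter (fun r : Fin n => (f r + o) % g < d ∨ g - d ≤ (f r + o) % g)).card
        = ∑ r : Fin n,
          ((range g).filter (fun o => (f r + o) % g < d ∨ g - d ≤ (f r + o) % g)).card := by
      simp only [Finset.card_filter]
      rw [Finset.sum_comm]
    rw [hswap]
    calc ∑ r : Fin n,
          ((range g).filter (fun o => (f r + o) % g < d ∨ g - d ≤ (f r + o) % g)).card
        ≤ ∑ _r : Fin n, 2 * d := Finset.sum_le_sum (fun r _ => card_bad_offsets_le g d (f r))
      _ = 2 * d * n := by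
        rw [Finset.sum_const, Finset.card_univ, Fintype.card_fin, smul_eq_mul]
        ring
  have hlt : ∑ _o ∈ range g, 2 * d * n <
      ∑ o ∈ range g,
        (univ.filter (fun r : Fin n => (f r + o) % g < d ∨ g - d ≤ (f r + o) % g)).card * g := by
    apply Finset.sum_lt_sum_of_nonempty
    · exact Finset.nonempty_range_iff.mpr (by omega)
    · intro o ho
      exact hcon o (Finset.mem_range.mp ho)
  rw [Finset.sum_const, Finset.card_range, smul_eq_mul, ← Finset.sum_mul] at hlt
  have : (∑ o ∈ range g,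
      (univ.filter (fun r : Fin n => (f r + o) % g < d ∨ g - d ≤ (f r + o) % g)).card) * g
        ≤ 2 * d * n * g := Nat.mul_le_mul_right g hsum
  nlinarith

end Vale.Agent.Lib.P037
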