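import Mathlib
import Vale.Agent.Lib.P037.Defs
import Vale.Agent.Lib.P037.I2Defs

namespace Vale.Agent.Lib.P037

open Finset

theorem i2b_strictMono_pair {n : ℕ} (a b : Fin n) (h : a < b) :
    StrictMono (![a, b] : Fin 2 → Fin n) := by
  intro i j hij
  fin_cases i <;> fin_cases j
  · exact absurd hij (lt_irrefl _)
  · simpa using h
  · exact absurd hij (by decide)
  · exact absurd hij (lt_irrefl _)

theorem Ncross_le_copyCount {n : ℕ} (A : Fin n → Fin n → Bool) (w : ℕ) :
    Ncross A w ≤ copyCount I2 A := by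
  classical
  unfold Ncross copyCount
  refine Finset.card_le_card_of_injOn
    (fun q : (Fin n × Fin n) × (Fin n × Fin n) =>
      ((![q.1.1, q.1.2] : Fin 2 → Fin n), (![q.2.1, q.2.2] : Fin 2 → Fin n))) ?_ ?_
  · intro q hq
    have hq' := (Finset.mem_filter.mp (Finset.mem_coe.mp hq)).2
    obtain ⟨h1, h2, h3, h4, h5, h6⟩ := hq'
    have hc : q.2.1 < q.2.2 := by
      by_contra hcon
      have hle : q.2.2 ≤ q.2.1 := not_lt.mp hcon
      have : q.2.2.val / w ≤ q.2.1.val / w := Nat.div_le_div_right hle
      omega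
    unfold copies
    refine Finset.mem_coe.mpr (Finset.mem_filter.mpr ⟨Finset.mem_univ _, ?_, ?_, ?_⟩)
    · exact i2b_strictMono_pair _ _ h1
    · exact i2b_strictMono_pair _ _ hc
    · intro i j
      fin_cases i <;> fin_cases j <;> simp [I2, h3, h4, h5, h6]
  · intro q1 _ q2 _ heq
    simp only [Prod.mk.injEq] at heq
    obtain ⟨e1, e2⟩ := heq
    have a1 := congrFun e1 0
    have a2 := congrFun e1 1
    have a3 := congrFun e2 0
    have a4 := congrFun e2 1
    simp only [Matrix.cons_val_zero, Matrix.cons_val_one] at a1 a2 a3 a4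
    exact Prod.ext (Prod.ext a1 a2) (Prod.ext a3 a4)

theorem thr_free {n : ℕ} (ρ : Fin n → ℕ) (w : ℕ) (L : Fin n → ℕ → ℕ)
    (h : NoViol L (n / w + 1)) : IsFree I2 (thr ρ w L) := by
  intro r c hr hc hall
  have hr01 : r 0 < r 1 := hr (by decide)
  have hc01 : c 0 < c 1 := hc (by decide)
  have e00 := hall 0 0
  have e01 := hall 0 1
  have e10 := hall 1 0
  have e11 := hall 1 1
  simp only [thr, I2] at e00 e01 e10 e11
  have f00 : ρ (c 0) < L (r 0) ((c 0).val / w) := by simpa using e00
  have f01 : ¬ ρ (c 1) < L (r 0) ((c 1).val / w) := by simpa using e01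
  have f10 : ¬ ρ (c 0) < L (r 1) ((c 0).val / w) := by simpa using e10
  have f11 : ρ (c 1) < L (r 1) ((c 1).val / w) := by simpa using e11
  have hdiv : (c 0).val / w ≤ (c 1).val / w := Nat.div_le_div_right (le_of_lt hc01)
  rcases Nat.eq_or_lt_of_le hdiv with heq | hlt
  · rw [← heq] at f01 f11
    omega
  · have hK : (c 1).val / w < n / w + 1 := by
      have : (c 1).val / w ≤ n / w := Nat.div_le_div_right (le_of_lt (c 1).isLt)
      omega
    exact h (r 0) (r 1) hr01 _ _ hlt hK ⟨by omega, by omega⟩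

theorem numDiff_triangle {n : ℕ} (A B C : Fin n → Fin n → Bool) :
    numDiff A C ≤ numDiff A B + numDiff B C := by
  classical
  unfold numDiff
  refine le_trans (Finset.card_le_card ?_) (Finset.card_union_le _ _)
  intro p hp
  have hp' := (Finset.mem_filter.mp hp).2
  rw [Finset.mem_union, Finset.mem_filter, Finset.mem_filter]
  by_cases hAB : A p.1 p.2 = B p.1 p.2
  · right
    refine ⟨Finset.mem_univ _, ?_⟩
    rw [← hAB]
    exact hp'
  · left
    exact ⟨Finset.mem_univ _, hAB⟩

theorem numDiff_eq_sum_strip {n : ℕ} (A B : Fin n → Fin n → Bool) (w : ℕ) :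
    numDiff A B = ∑ j ∈ range (n / w + 1), stripDiff A B w j := by
  classical
  unfold numDiff
  rw [Finset.card_eq_sum_card_fiberwise (f := fun p : Fin n × Fin n => p.2.val / w)
    (t := range (n / w + 1))]
  · refine Finset.sum_congr rfl ?_
    intro j _
    unfold stripDiff
    rw [Finset.filter_filter]
    congr 1
    ext p
    simp only [Finset.mem_filter, Finset.mem_univ, true_and]
    exact and_comm
  · intro p _
    have : p.2.val / w ≤ n / w := Nat.div_le_div_right (le_of_lt p.2.isLt)
    have h2 : p.2.val / w < n / w + 1 := by omega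
    exact Finset.mem_coe.mpr (Finset.mem_range.mpr h2)

end Vale.Agent.Lib.P037
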