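import Mathlib
import Vale.Agent.Lib.P037.Defs
import Vale.Agent.Lib.P037.I2Defs

namespace Vale.Agent.Lib.P037

open Finset

/-- Number of rows with a one in column `c` and a zero in column `c'`. -/
def pcnt {n : ℕ} (A : Fin n → Fin n → Bool) (c c' : Fin n) : ℕ :=
  (univ.filter (fun r : Fin n => A r c = true ∧ A r c' = false)).card

theorem pcnt_le_of_cdeg_le {n : ℕ} (A : Fin n → Fin n → Bool) (c c' : Fin n)
    (h : cdeg A c ≤ cdeg A c') : pcnt A c c' ≤ pcnt A c' c := by
  have h1 : cdeg A c = pcnt A c c' +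
      (univ.filter (fun r : Fin n => A r c = true ∧ A r c' = true)).card := by
    unfold cdeg pcnt
    simp only [Finset.card_filter]
    rw [← Finset.sum_add_distrib]
    apply Finset.sum_congr rfl
    intro r _
    cases A r c <;> cases A r c' <;> simp
  have h2 : cdeg A c' = pcnt A c' c +
      (univ.filter (fun r : Fin n => A r c = true ∧ A r c' = true)).card := by
    unfold cdeg pcnt
    simp only [Finset.card_filter]
    rw [← Finset.sum_add_distrib]
    apply Finset.sum_congr rfl
    intro r _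
    cases A r c <;> cases A r c' <;> simp
  omega

/-- `Qs` as a sum over pairs of columns of the strip. -/
theorem Qs_eq_sum {n : ℕ} (A : Fin n → Fin n → Bool) (w j : ℕ) :
    Qs A w j = ∑ c ∈ univ.filter (fun c : Fin n => c.val / w = j),
      ∑ c' ∈ univ.filter (fun c : Fin n => c.val / w = j), pcnt A c c' * pcnt A c' c := by
  unfold Qs pcnt
  rw [Finset.card_filter, Fintype.sum_prod_type, Finset.sum_comm]
  simp only [Fintype.sum_prod_type, Finset.sum_filter, Finset.card_filter, Finset.sum_mul_sum]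
  apply Finset.sum_congr rfl
  intro c _
  by_cases hc : c.val / w = j
  · rw [if_pos hc]
    apply Finset.sum_congr rfl
    intro c' _
    by_cases hc' : c'.val / w = j
    · rw [if_pos hc']
      apply Finset.sum_congr rfl
      intro r _
      apply Finset.sum_congr rfl
      intro r'' _
      cases A r c <;> cases A r c' <;> cases A r'' c <;> cases A r'' c' <;> simp [hc, hc']
    · rw [if_neg hc']
      apply Finset.sum_eq_zero
      intro r _
      apply Finset.sum_eq_zero
      intro r'' _
      simp [hc']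
  · rw [if_neg hc]
    apply Finset.sum_eq_zero
    intro c' _
    apply Finset.sum_eq_zero
    intro r _
    apply Finset.sum_eq_zero
    intro r'' _
    simp [hc]

/-- In one row, the ones to the right of the threshold are as many as the zeros to its left. -/
theorem row_m_eq {n : ℕ} (A : Fin n → Fin n → Bool) (w j : ℕ) (ρ : Fin n → ℕ)
    (hcard : ∀ x, x ≤ (univ.filter (fun c : Fin n => c.val / w = j)).card →
      (univ.filter (fun c : Fin n => c.val / w = j ∧ ρ c < x)).card = x) (r : Fin n) :
    (univ.filter (fun c : Fin n => c.val / w = j ∧ A r c = true ∧ ¬ ρ c < lev A w r j)).card =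
      (univ.filter (fun c : Fin n => c.val / w = j ∧ A r c = false ∧ ρ c < lev A w r j)).card := by
  have hl : lev A w r j ≤ (univ.filter (fun c : Fin n => c.val / w = j)).card := by
    unfold lev
    apply Finset.card_le_card
    intro c hc
    simp only [Finset.mem_filter, Finset.mem_univ, true_and] at hc ⊢
    exact hc.1
  have h1 := hcard _ hl
  have hA : (univ.filter (fun c : Fin n => c.val / w = j ∧ A r c = true)).card = lev A w r j :=
    rfl
  have e1 : (univ.filter (fun c : Fin n => c.val / w = j ∧ ρ c < lev A w r j)).card =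
      (univ.filter (fun c : Fin n => c.val / w = j ∧ ρ c < lev A w r j ∧ A r c = true)).card +
      (univ.filter (fun c : Fin n => c.val / w = j ∧ A r c = false ∧ ρ c < lev A w r j)).card := by
    simp only [Finset.card_filter]
    rw [← Finset.sum_add_distrib]
    apply Finset.sum_congr rfl
    intro c _
    by_cases h1 : c.val / w = j <;> by_cases h2 : ρ c < lev A w r j <;> cases A r c <;>
      simp [h1, h2]
  have e2 : (univ.filter (fun c : Fin n => c.val / w = j ∧ A r c = true)).card =
      (univ.filter (fun c : Fin n => c.val / w = j ∧ ρ c < lev A w r j ∧ A r c = true)).card +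
      (univ.filter (fun c : Fin n => c.val / w = j ∧ A r c = true ∧ ¬ ρ c < lev A w r j)).card := by
    simp only [Finset.card_filter]
    rw [← Finset.sum_add_distrib]
    apply Finset.sum_congr rfl
    intro c _
    by_cases h1 : c.val / w = j <;> by_cases h2 : ρ c < lev A w r j <;> cases A r c <;>
      simp [h1, h2]
  omega

theorem row_diff_eq {n : ℕ} (A : Fin n → Fin n → Bool) (w j : ℕ) (ρ : Fin n → ℕ)
    (hcard : ∀ x, x ≤ (univ.filter (fun c : Fin n => c.val / w = j)).card →
      (univ.filter (fun c : Fin n => c.val / w = j ∧ ρ c < x)).card = x) (r : Fin n) :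
    (univ.filter (fun c : Fin n => c.val / w = j ∧ A r c ≠ thr ρ w (lev A w) r c)).card =
      2 * (univ.filter
        (fun c : Fin n => c.val / w = j ∧ A r c = true ∧ ¬ ρ c < lev A w r j)).card := by
  have e3 : (univ.filter (fun c : Fin n => c.val / w = j ∧ A r c ≠ thr ρ w (lev A w) r c)).card =
      (univ.filter (fun c : Fin n => c.val / w = j ∧ A r c = true ∧ ¬ ρ c < lev A w r j)).card +
      (univ.filter (fun c : Fin n => c.val / w = j ∧ A r c = false ∧ ρ c < lev A w r j)).card := by
    simp only [Finset.card_filter]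
    rw [← Finset.sum_add_distrib]
    apply Finset.sum_congr rfl
    intro c _
    by_cases h1 : c.val / w = j
    · have ht : thr ρ w (lev A w) r c = decide (ρ c < lev A w r j) := by
        unfold thr
        rw [h1]
      rw [ht]
      by_cases h2 : ρ c < lev A w r j <;> cases A r c <;> simp [h1, h2]
    · simp [h1]
  have := row_m_eq A w j ρ hcard r
  omega

theorem row_sq_le {n : ℕ} (A : Fin n → Fin n → Bool) (w j : ℕ) (ρ : Fin n → ℕ)
    (hcard : ∀ x, x ≤ (univ.filter (fun c : Fin n => c.val / w = j)).card →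
      (univ.filter (fun c : Fin n => c.val / w = j ∧ ρ c < x)).card = x) (r : Fin n) :
    (univ.filter
        (fun c : Fin n => c.val / w = j ∧ A r c = true ∧ ¬ ρ c < lev A w r j)).card ^ 2 ≤
      ((univ.filter (fun cc : Fin n × Fin n =>
        cc.1.val / w = j ∧ cc.2.val / w = j ∧ ρ cc.2 < ρ cc.1)).filter
          (fun cc => A r cc.1 = true ∧ A r cc.2 = false)).card := by
  have hm := row_m_eq A w j ρ hcard r
  rw [sq]
  nth_rewrite 2 [hm]
  rw [← Finset.card_product]
  apply Finset.card_le_card
  intro cc hcc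
  simp only [Finset.mem_product, Finset.mem_filter, Finset.mem_univ, true_and] at hcc ⊢
  obtain ⟨⟨h1, h2, h3⟩, h4, h5, h6⟩ := hcc
  exact ⟨⟨h1, h4, by omega⟩, h2, h5⟩

theorem sum_rows_eq {n : ℕ} (A : Fin n → Fin n → Bool) (P : Finset (Fin n × Fin n)) :
    ∑ r : Fin n, (P.filter (fun cc => A r cc.1 = true ∧ A r cc.2 = false)).card =
      ∑ cc ∈ P, pcnt A cc.1 cc.2 := by
  unfold pcnt
  simp only [Finset.card_filter]
  rw [Finset.sum_comm]

theorem chain_strip_gen {n : ℕ} (A : Fin n → Fin n → Bool) (w j : ℕ) (ρ : Fin n → ℕ)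
    (hsz : (univ.filter (fun c : Fin n => c.val / w = j)).card ≤ w)
    (hdeg : ∀ c c' : Fin n, c.val / w = j → c'.val / w = j → ρ c' < ρ c → cdeg A c ≤ cdeg A c')
    (hcard : ∀ x, x ≤ (univ.filter (fun c : Fin n => c.val / w = j)).card →
      (univ.filter (fun c : Fin n => c.val / w = j ∧ ρ c < x)).card = x) :
    (stripDiff A (thr ρ w (lev A w)) w j) ^ 4 ≤ 16 * n ^ 2 * w ^ 2 * Qs A w j := by
  have hS : stripDiff A (thr ρ w (lev A w)) w j = 2 * ∑ r : Fin n, (univ.filter
      (fun c : Fin n => c.val / w = j ∧ A r c = true ∧ ¬ ρ c < lev A w r j)).card := by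
    unfold stripDiff
    rw [Finset.mul_sum, Finset.card_filter, Fintype.sum_prod_type]
    apply Finset.sum_congr rfl
    intro r _
    rw [← row_diff_eq A w j ρ hcard r, Finset.card_filter]
  have hT : ∑ r : Fin n, (univ.filter
      (fun c : Fin n => c.val / w = j ∧ A r c = true ∧ ¬ ρ c < lev A w r j)).card ^ 2 ≤
      ∑ cc ∈ univ.filter (fun cc : Fin n × Fin n =>
        cc.1.val / w = j ∧ cc.2.val / w = j ∧ ρ cc.2 < ρ cc.1), pcnt A cc.1 cc.2 := by
    rw [← sum_rows_eq]
    exact Finset.sum_le_sum (fun r _ => row_sq_le A w j ρ hcard r)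
  have hsub : univ.filter (fun cc : Fin n × Fin n =>
        cc.1.val / w = j ∧ cc.2.val / w = j ∧ ρ cc.2 < ρ cc.1) ⊆
      (univ.filter (fun c : Fin n => c.val / w = j)) ×ˢ
        (univ.filter (fun c : Fin n => c.val / w = j)) := by
    intro cc hcc
    simp only [Finset.mem_product, Finset.mem_filter, Finset.mem_univ, true_and] at hcc ⊢
    exact ⟨hcc.1, hcc.2.1⟩
  have hPcard : (univ.filter (fun cc : Fin n × Fin n =>
        cc.1.val / w = j ∧ cc.2.val / w = j ∧ ρ cc.2 < ρ cc.1)).card ≤ w ^ 2 := by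
    calc _ ≤ ((univ.filter (fun c : Fin n => c.val / w = j)) ×ˢ
        (univ.filter (fun c : Fin n => c.val / w = j))).card := Finset.card_le_card hsub
      _ = (univ.filter (fun c : Fin n => c.val / w = j)).card *
          (univ.filter (fun c : Fin n => c.val / w = j)).card := Finset.card_product _ _
      _ ≤ w * w := Nat.mul_le_mul hsz hsz
      _ = w ^ 2 := by ring
  have hU : (∑ cc ∈ univ.filter (fun cc : Fin n × Fin n =>
        cc.1.val / w = j ∧ cc.2.val / w = j ∧ ρ cc.2 < ρ cc.1), pcnt A cc.1 cc.2) ^ 2 ≤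
      w ^ 2 * Qs A w j := by
    calc _ ≤ (univ.filter (fun cc : Fin n × Fin n =>
          cc.1.val / w = j ∧ cc.2.val / w = j ∧ ρ cc.2 < ρ cc.1)).card *
          ∑ cc ∈ univ.filter (fun cc : Fin n × Fin n =>
            cc.1.val / w = j ∧ cc.2.val / w = j ∧ ρ cc.2 < ρ cc.1), pcnt A cc.1 cc.2 ^ 2 :=
        sq_sum_le_card_mul_sum_sq
      _ ≤ w ^ 2 * ∑ cc ∈ univ.filter (fun cc : Fin n × Fin n =>
            cc.1.val / w = j ∧ cc.2.val / w = j ∧ ρ cc.2 < ρ cc.1),
              pcnt A cc.1 cc.2 * pcnt A cc.2 cc.1 := by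
        apply Nat.mul_le_mul hPcard
        apply Finset.sum_le_sum
        intro cc hcc
        simp only [Finset.mem_filter, Finset.mem_univ, true_and] at hcc
        have hle := pcnt_le_of_cdeg_le A cc.1 cc.2 (hdeg cc.1 cc.2 hcc.1 hcc.2.1 hcc.2.2)
        rw [sq]
        exact Nat.mul_le_mul_left _ hle
      _ ≤ w ^ 2 * Qs A w j := by
        apply Nat.mul_le_mul_left
        rw [Qs_eq_sum, ← Finset.sum_product']
        exact Finset.sum_le_sum_of_subset hsub
  have hS2 : (∑ r : Fin n, (univ.filter
      (fun c : Fin n => c.val / w = j ∧ A r c = true ∧ ¬ ρ c < lev A w r j)).card) ^ 2 ≤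
      n * ∑ r : Fin n, (univ.filter
        (fun c : Fin n => c.val / w = j ∧ A r c = true ∧ ¬ ρ c < lev A w r j)).card ^ 2 := by
    have h := sq_sum_le_card_mul_sum_sq (s := (univ : Finset (Fin n)))
      (f := fun r : Fin n => (univ.filter
        (fun c : Fin n => c.val / w = j ∧ A r c = true ∧ ¬ ρ c < lev A w r j)).card)
    simpa using h
  rw [hS]
  generalize (∑ r : Fin n, (univ.filter
      (fun c : Fin n => c.val / w = j ∧ A r c = true ∧ ¬ ρ c < lev A w r j)).card) = S at hS2 ⊢
  generalize (∑ r : Fin n, (univ.filter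
      (fun c : Fin n => c.val / w = j ∧ A r c = true ∧ ¬ ρ c < lev A w r j)).card ^ 2) = T
    at hS2 hT
  generalize (∑ cc ∈ univ.filter (fun cc : Fin n × Fin n =>
        cc.1.val / w = j ∧ cc.2.val / w = j ∧ ρ cc.2 < ρ cc.1), pcnt A cc.1 cc.2) = U at hT hU
  calc (2 * S) ^ 4 = 16 * (S ^ 2) ^ 2 := by ring
    _ ≤ 16 * (n * T) ^ 2 := by gcongr
    _ ≤ 16 * (n * U) ^ 2 := by gcongr
    _ = 16 * n ^ 2 * U ^ 2 := by ring
    _ ≤ 16 * n ^ 2 * (w ^ 2 * Qs A w j) := by gcongr
    _ = 16 * n ^ 2 * w ^ 2 * Qs A w j := by ring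

end Vale.Agent.Lib.P037
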