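import Mathlib
import Vale.Agent.Lib.P037.Defs
import Vale.Agent.Lib.P037.I2Defs

namespace Vale.Agent.Lib.P037

open Finset

theorem weak_turan_aux {n : ℕ} (R : Fin n → Fin n → Prop) [DecidableRel R] (s : ℕ) :
    ∀ m : ℕ, ∀ X : Finset (Fin n), X.card = m →
      (∀ I ⊆ X, (∀ a ∈ I, ∀ b ∈ I, a < b → ¬ R a b) → I.card ≤ s) →
      (X.card - s) ^ 2 ≤ 2 * s * ((X ×ˢ X).filter (fun p => p.1 < p.2 ∧ R p.1 p.2)).card := by
  classical
  intro m
  induction m using Nat.strong_induction_on with
  | _ m ih =>
    intro X hXm hind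
    by_cases hle : X.card ≤ s
    · rw [Nat.sub_eq_zero_of_le hle]
      simp
    · have hlt : s < X.card := Nat.lt_of_not_le hle
      have hne : (X.powerset.filter
          (fun I => ∀ a ∈ I, ∀ b ∈ I, a < b → ¬ R a b)).Nonempty :=
        ⟨∅, by simp⟩
      obtain ⟨I, hI, hmax⟩ := Finset.exists_max_image _ Finset.card hne
      rw [Finset.mem_filter, Finset.mem_powerset] at hI
      obtain ⟨hIX, hIind⟩ := hI
      have hIs : I.card ≤ s := hind I hIX hIind
      have hnb : ∀ x ∈ X \ I, ∃ a ∈ I, (a < x ∧ R a x) ∨ (x < a ∧ R x a) := by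
        intro x hx
        rw [Finset.mem_sdiff] at hx
        by_contra hcon
        have hins : ∀ a ∈ insert x I, ∀ b ∈ insert x I, a < b → ¬ R a b := by
          intro a ha b hb hab hR
          rw [Finset.mem_insert] at ha hb
          rcases ha with ha | ha
          · rcases hb with hb | hb
            · rw [ha, hb] at hab
              exact lt_irrefl _ hab
            · rw [ha] at hab hR
              exact hcon ⟨b, hb, Or.inr ⟨hab, hR⟩⟩
          · rcases hb with hb | hb
            · rw [hb] at hab hR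
              exact hcon ⟨a, ha, Or.inl ⟨hab, hR⟩⟩
            · exact hIind a ha b hb hab hR
        have hmem : insert x I ∈ X.powerset.filter
            (fun I => ∀ a ∈ I, ∀ b ∈ I, a < b → ¬ R a b) := by
          rw [Finset.mem_filter, Finset.mem_powerset]
          exact ⟨Finset.insert_subset hx.1 hIX, hins⟩
        have h1 := hmax _ hmem
        rw [Finset.card_insert_of_notMem hx.2] at h1
        omega
      obtain ⟨Y, hY⟩ : ∃ Y : Finset (Fin n), Y = X \ I := ⟨_, rfl⟩
      have hYX : Y ⊆ X := by
        rw [hY]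
        exact Finset.sdiff_subset
      have hIne : I.Nonempty := by
        obtain ⟨x, hx⟩ : X.Nonempty := Finset.card_pos.1 (by omega)
        by_cases hxI : x ∈ I
        · exact ⟨x, hxI⟩
        · obtain ⟨a, ha, _⟩ := hnb x (Finset.mem_sdiff.2 ⟨hx, hxI⟩)
          exact ⟨a, ha⟩
      have hYcard : Y.card = X.card - I.card := by
        rw [hY]
        exact Finset.card_sdiff_of_subset hIX
      have hIpos : 1 ≤ I.card := Finset.card_pos.2 hIne
      have hIleX : I.card ≤ X.card := Finset.card_le_card hIX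
      have hYlt : Y.card < m := by omega
      have ihY := ih Y.card hYlt Y rfl (fun J hJ hJind => hind J (hJ.trans hYX) hJind)
      obtain ⟨PX, hPX⟩ : ∃ PX : Finset (Fin n × Fin n),
          PX = (X ×ˢ X).filter (fun p => p.1 < p.2 ∧ R p.1 p.2) := ⟨_, rfl⟩
      obtain ⟨PY, hPY⟩ : ∃ PY : Finset (Fin n × Fin n),
          PY = (Y ×ˢ Y).filter (fun p => p.1 < p.2 ∧ R p.1 p.2) := ⟨_, rfl⟩
      obtain ⟨Pc, hPc⟩ : ∃ Pc : Finset (Fin n × Fin n),
          Pc = PX.filter (fun p => (p.1 ∈ I ∧ p.2 ∈ Y) ∨ (p.1 ∈ Y ∧ p.2 ∈ I)) := ⟨_, rfl⟩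
      rw [← hPX]
      rw [← hPY] at ihY
      have hYI : ∀ x, x ∈ Y → x ∉ I := by
        intro x hx
        rw [hY] at hx
        exact (Finset.mem_sdiff.1 hx).2
      have hdisj : Disjoint PY Pc := by
        rw [Finset.disjoint_left]
        intro p hp hp'
        rw [hPY, Finset.mem_filter, Finset.mem_product] at hp
        rw [hPc, Finset.mem_filter] at hp'
        rcases hp'.2 with h | h
        · exact hYI _ hp.1.1 h.1
        · exact hYI _ hp.1.2 h.2
      have hsub : PY ∪ Pc ⊆ PX := by
        apply Finset.union_subset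
        · intro p hp
          rw [hPY, Finset.mem_filter, Finset.mem_product] at hp
          rw [hPX, Finset.mem_filter, Finset.mem_product]
          exact ⟨⟨hYX hp.1.1, hYX hp.1.2⟩, hp.2⟩
        · rw [hPc]
          exact Finset.filter_subset _ _
      have hPcY : Y.card ≤ Pc.card := by
        apply Finset.card_le_card_of_surjOn (fun p => if p.1 ∈ Y then p.1 else p.2)
        intro x hx
        have hxY : x ∈ Y := Finset.mem_coe.1 hx
        have hx' : x ∈ X \ I := by
          rw [← hY]
          exact hxY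
        obtain ⟨a, ha, h | h⟩ := hnb x hx'
        · refine ⟨(a, x), ?_, ?_⟩
          · rw [Finset.mem_coe, hPc, Finset.mem_filter, hPX, Finset.mem_filter,
              Finset.mem_product]
            exact ⟨⟨⟨hIX ha, hYX hxY⟩, h⟩, Or.inl ⟨ha, hxY⟩⟩
          · have h1 : a ∉ Y := fun hh => hYI a hh ha
            simp [h1]
        · refine ⟨(x, a), ?_, ?_⟩
          · rw [Finset.mem_coe, hPc, Finset.mem_filter, hPX, Finset.mem_filter,
              Finset.mem_product]
            exact ⟨⟨⟨hYX hxY, hIX ha⟩, h⟩, Or.inr ⟨hxY, ha⟩⟩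
          · simp [hxY]
      have hcount : PY.card + Y.card ≤ PX.card := by
        calc PY.card + Y.card ≤ PY.card + Pc.card := by omega
          _ = (PY ∪ Pc).card := (Finset.card_union_of_disjoint hdisj).symm
          _ ≤ PX.card := Finset.card_le_card hsub
      have ht : X.card - s ≤ Y.card := by omega
      have ht2 : (X.card - s) ^ 2 ≤ Y.card ^ 2 := Nat.pow_le_pow_left ht 2
      rcases Nat.lt_or_ge Y.card s with hYs | hYs
      · calc (X.card - s) ^ 2 ≤ Y.card ^ 2 := ht2
          _ ≤ 2 * s * Y.card := by nlinarith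
          _ ≤ 2 * s * PX.card := by
            gcongr
            omega
      · obtain ⟨d, hd⟩ := Nat.exists_eq_add_of_le hYs
        rw [hd, Nat.add_sub_cancel_left] at ihY
        calc (X.card - s) ^ 2 ≤ Y.card ^ 2 := ht2
          _ ≤ d ^ 2 + 2 * s * Y.card := by
            rw [hd]
            nlinarith
          _ ≤ 2 * s * PY.card + 2 * s * Y.card := by omega
          _ = 2 * s * (PY.card + Y.card) := by ring
          _ ≤ 2 * s * PX.card := by gcongr

/-- A weak form of the Turan bound for a relation on ordered pairs: if every independent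
subset of `X` has at most `s` elements then `(|X| - s)^2 ≤ 2 s e(X)`. -/
theorem weak_turan {n : ℕ} (X : Finset (Fin n)) (R : Fin n → Fin n → Prop) [DecidableRel R]
    (s : ℕ) (hind : ∀ I ⊆ X, (∀ a ∈ I, ∀ b ∈ I, a < b → ¬ R a b) → I.card ≤ s) :
    (X.card - s) ^ 2 ≤ 2 * s * ((X ×ˢ X).filter (fun p => p.1 < p.2 ∧ R p.1 p.2)).card :=
  weak_turan_aux R s X.card X rfl hind

end Vale.Agent.Lib.P037
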