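import Mathlib
import Vale.Agent.Lib.P037.Defs
import Vale.Agent.Lib.P037.I2Defs
import Vale.Agent.Lib.P037.I2Turan

namespace Vale.Agent.Lib.P037

open Finset

/-- The class of a row: the rows of `G` with the same type. -/
def tcls {n : ℕ} {T : Type} [DecidableEq T] (G : Finset (Fin n)) (τ : Fin n → T) (r : Fin n) :
    Finset (Fin n) := G.filter (fun r' => τ r' = τ r)

/-- Number of rows of `G` of the same type before `r`. -/
def tbef {n : ℕ} {T : Type} [DecidableEq T] (G : Finset (Fin n)) (τ : Fin n → T) (r : Fin n) :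
    ℕ := (G.filter (fun r' => τ r' = τ r ∧ r' < r)).card

/-- Number of rows of `G` of the same type after `r`. -/
def taft {n : ℕ} {T : Type} [DecidableEq T] (G : Finset (Fin n)) (τ : Fin n → T) (r : Fin n) :
    ℕ := (G.filter (fun r' => τ r' = τ r ∧ r < r')).card

theorem tbef_lt {n : ℕ} {T : Type} [DecidableEq T] (G : Finset (Fin n)) (τ : Fin n → T)
    {r1 r2 : Fin n} (h1 : r1 ∈ G) (hτ : τ r1 = τ r2) (hlt : r1 < r2) :
    tbef G τ r1 < tbef G τ r2 := by
  unfold tbef
  apply Finset.card_lt_card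
  rw [Finset.ssubset_iff_of_subset]
  · refine ⟨r1, ?_, ?_⟩
    · rw [Finset.mem_filter]
      exact ⟨h1, hτ, hlt⟩
    · rw [Finset.mem_filter]
      intro h
      exact lt_irrefl _ h.2.2
  · intro x hx
    rw [Finset.mem_filter] at hx ⊢
    exact ⟨hx.1, hx.2.1.trans hτ, hx.2.2.trans hlt⟩

theorem taft_lt {n : ℕ} {T : Type} [DecidableEq T] (G : Finset (Fin n)) (τ : Fin n → T)
    {r1 r2 : Fin n} (h2 : r2 ∈ G) (hτ : τ r1 = τ r2) (hlt : r1 < r2) :
    taft G τ r2 < taft G τ r1 := by
  unfold taft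
  apply Finset.card_lt_card
  rw [Finset.ssubset_iff_of_subset]
  · refine ⟨r2, ?_, ?_⟩
    · rw [Finset.mem_filter]
      exact ⟨h2, hτ.symm, hlt⟩
    · rw [Finset.mem_filter]
      intro h
      exact lt_irrefl _ h.2.2
  · intro x hx
    rw [Finset.mem_filter] at hx ⊢
    exact ⟨hx.1, hx.2.1.trans hτ.symm, hlt.trans hx.2.2⟩

theorem tbef_few {n : ℕ} {T : Type} [DecidableEq T] (G : Finset (Fin n)) (τ : Fin n → T)
    (k : ℕ) (t : T) : (G.filter (fun r => τ r = t ∧ tbef G τ r < k)).card ≤ k := by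
  have h := Finset.card_le_card_of_injOn
    (s := G.filter (fun r => τ r = t ∧ tbef G τ r < k)) (t := Finset.range k) (tbef G τ) ?_ ?_
  · simpa using h
  · intro r hr
    rw [Finset.mem_coe, Finset.mem_filter] at hr
    exact Finset.mem_coe.2 (Finset.mem_range.2 hr.2.2)
  · intro a ha b hb hab
    rw [Finset.mem_coe, Finset.mem_filter] at ha hb
    by_contra hne
    rcases lt_or_gt_of_ne hne with h | h
    · have h1 := tbef_lt G τ ha.1 (ha.2.1.trans hb.2.1.symm) h
      omega
    · have h1 := tbef_lt G τ hb.1 (hb.2.1.trans ha.2.1.symm) h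
      omega

theorem taft_few {n : ℕ} {T : Type} [DecidableEq T] (G : Finset (Fin n)) (τ : Fin n → T)
    (k : ℕ) (t : T) : (G.filter (fun r => τ r = t ∧ taft G τ r < k)).card ≤ k := by
  have h := Finset.card_le_card_of_injOn
    (s := G.filter (fun r => τ r = t ∧ taft G τ r < k)) (t := Finset.range k) (taft G τ) ?_ ?_
  · simpa using h
  · intro r hr
    rw [Finset.mem_coe, Finset.mem_filter] at hr
    exact Finset.mem_coe.2 (Finset.mem_range.2 hr.2.2)
  · intro a ha b hb hab
    rw [Finset.mem_coe, Finset.mem_filter] at ha hb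
    by_contra hne
    rcases lt_or_gt_of_ne hne with h | h
    · have h1 := taft_lt G τ hb.1 (ha.2.1.trans hb.2.1.symm) h
      omega
    · have h1 := taft_lt G τ ha.1 (hb.2.1.trans ha.2.1.symm) h
      omega

theorem big_class_count {n : ℕ} {T : Type} [DecidableEq T] (G : Finset (Fin n))
    (τ : Fin n → T) (k p : ℕ) (f : Fin n → ℕ)
    (hf : ∀ t : T, (G.filter (fun r => τ r = t ∧ f r < k)).card ≤ k) :
    (G.filter (fun r => p ≤ (tcls G τ r).card ∧ f r < k)).card * p ≤ n * k := by
  obtain ⟨F, hF⟩ : ∃ F : Finset (Fin n),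
      F = G.filter (fun r => p ≤ (tcls G τ r).card ∧ f r < k) := ⟨_, rfl⟩
  rw [← hF]
  have h1 : F.card * p ≤ ∑ r ∈ F, (tcls G τ r).card := by
    rw [Finset.card_eq_sum_ones, Finset.sum_mul]
    apply Finset.sum_le_sum
    intro r hr
    rw [hF, Finset.mem_filter] at hr
    rw [one_mul]
    exact hr.2.1
  have h2 : ∑ r ∈ F, (tcls G τ r).card = ∑ b ∈ G, (F.filter (fun a => τ b = τ a)).card :=
    Finset.sum_card_bipartiteAbove_eq_sum_card_bipartiteBelow (fun a b => τ b = τ a)
  have h3 : ∑ b ∈ G, (F.filter (fun a => τ b = τ a)).card ≤ ∑ b ∈ G, k := by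
    apply Finset.sum_le_sum
    intro b hb
    refine le_trans (Finset.card_le_card ?_) (hf (τ b))
    intro a ha
    rw [Finset.mem_filter, hF, Finset.mem_filter] at ha
    rw [Finset.mem_filter]
    exact ⟨ha.1.1, ha.2.symm, ha.1.2.2⟩
  have h4 : ∑ b ∈ G, k = G.card * k := by simp
  have h5 : G.card ≤ n := by simpa using Finset.card_le_univ G
  calc F.card * p ≤ G.card * k := by omega
    _ ≤ n * k := Nat.mul_le_mul_right k h5

/-- The type lemma: removing the first `k` and the last `k` rows of every type class leaves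
no related pair; the number of removed rows is small. -/
theorem type_lemma {n : ℕ} {T : Type} [DecidableEq T] (G : Finset (Fin n)) (τ : Fin n → T)
    (Rt : T → T → Prop) [DecidableRel Rt] (s k p x₀ : ℕ) (hk : 1 ≤ k) (hp : 1 ≤ p)
    (hs : ∀ I ⊆ G, (∀ a ∈ I, ∀ b ∈ I, a < b → τ a ≠ τ b ∧ ¬ Rt (τ a) (τ b)) → I.card ≤ s)
    (hE : ((G ×ˢ G).filter (fun q => q.1 < q.2 ∧ Rt (τ q.1) (τ q.2))).card < k ^ 2)
    (hX : 2 * s * (k ^ 2 + (x₀ + 1) * p) < (x₀ + 1 - s) ^ 2) :
    ∃ Z ⊆ G, Z.card ≤ x₀ + 2 * k * n / p ∧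
      ∀ r ∈ G \ Z, ∀ r' ∈ G \ Z, r < r' → ¬ Rt (τ r) (τ r') := by
  have _hk := hk
  obtain ⟨Z, hZ⟩ : ∃ Z : Finset (Fin n),
      Z = G.filter (fun r => tbef G τ r < k ∨ taft G τ r < k) := ⟨_, rfl⟩
  refine ⟨Z, by rw [hZ]; exact Finset.filter_subset _ _, ?_, ?_⟩
  · obtain ⟨Xs, hXs⟩ : ∃ Xs : Finset (Fin n),
        Xs = G.filter (fun r => (tcls G τ r).card < p) := ⟨_, rfl⟩
    have hXs_le : Xs.card ≤ x₀ := by
      by_contra hcon
      have hgt : x₀ + 1 ≤ Xs.card := by omega
      obtain ⟨X', hX'sub, hX'card⟩ := Finset.exists_subset_card_eq hgt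
      have hX'G : X' ⊆ G := hX'sub.trans (by rw [hXs]; exact Finset.filter_subset _ _)
      have hwt := weak_turan X' (fun a b => τ a = τ b ∨ Rt (τ a) (τ b)) s ?_
      · rw [hX'card] at hwt
        have he : ((X' ×ˢ X').filter
            (fun q => q.1 < q.2 ∧ (τ q.1 = τ q.2 ∨ Rt (τ q.1) (τ q.2)))).card
            ≤ (x₀ + 1) * p + k ^ 2 := by
          have hsub : (X' ×ˢ X').filter
              (fun q => q.1 < q.2 ∧ (τ q.1 = τ q.2 ∨ Rt (τ q.1) (τ q.2)))
              ⊆ (X' ×ˢ X').filter (fun q => q.1 < q.2 ∧ τ q.1 = τ q.2) ∪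
                (G ×ˢ G).filter (fun q => q.1 < q.2 ∧ Rt (τ q.1) (τ q.2)) := by
            intro q hq
            rw [Finset.mem_filter, Finset.mem_product] at hq
            rw [Finset.mem_union, Finset.mem_filter, Finset.mem_filter, Finset.mem_product,
              Finset.mem_product]
            rcases hq.2.2 with h | h
            · exact Or.inl ⟨hq.1, hq.2.1, h⟩
            · exact Or.inr ⟨⟨hX'G hq.1.1, hX'G hq.1.2⟩, hq.2.1, h⟩
          have he1 : ((X' ×ˢ X').filter (fun q => q.1 < q.2 ∧ τ q.1 = τ q.2)).card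
              ≤ (x₀ + 1) * p := by
            calc ((X' ×ˢ X').filter (fun q => q.1 < q.2 ∧ τ q.1 = τ q.2)).card
                ≤ (X'.biUnion (fun a => (tcls G τ a).image (fun b => (a, b)))).card := by
                  apply Finset.card_le_card
                  intro q hq
                  rw [Finset.mem_filter, Finset.mem_product] at hq
                  rw [Finset.mem_biUnion]
                  refine ⟨q.1, hq.1.1, ?_⟩
                  rw [Finset.mem_image]
                  refine ⟨q.2, ?_, rfl⟩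
                  unfold tcls
                  rw [Finset.mem_filter]
                  exact ⟨hX'G hq.1.2, hq.2.2.symm⟩
              _ ≤ ∑ a ∈ X', ((tcls G τ a).image (fun b => (a, b))).card :=
                  Finset.card_biUnion_le
              _ ≤ ∑ a ∈ X', p := by
                  apply Finset.sum_le_sum
                  intro a ha
                  refine le_trans Finset.card_image_le ?_
                  have h1 := hX'sub ha
                  rw [hXs, Finset.mem_filter] at h1
                  exact h1.2.le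
              _ = (x₀ + 1) * p := by rw [Finset.sum_const, hX'card, smul_eq_mul]
          calc ((X' ×ˢ X').filter
                (fun q => q.1 < q.2 ∧ (τ q.1 = τ q.2 ∨ Rt (τ q.1) (τ q.2)))).card
              ≤ ((X' ×ˢ X').filter (fun q => q.1 < q.2 ∧ τ q.1 = τ q.2) ∪
                (G ×ˢ G).filter (fun q => q.1 < q.2 ∧ Rt (τ q.1) (τ q.2))).card :=
                Finset.card_le_card hsub
            _ ≤ ((X' ×ˢ X').filter (fun q => q.1 < q.2 ∧ τ q.1 = τ q.2)).card +
                ((G ×ˢ G).filter (fun q => q.1 < q.2 ∧ Rt (τ q.1) (τ q.2))).card :=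
                Finset.card_union_le _ _
            _ ≤ (x₀ + 1) * p + k ^ 2 := Nat.add_le_add he1 hE.le
        have h2 : 2 * s * ((X' ×ˢ X').filter
            (fun q => q.1 < q.2 ∧ (τ q.1 = τ q.2 ∨ Rt (τ q.1) (τ q.2)))).card
            ≤ 2 * s * (k ^ 2 + (x₀ + 1) * p) := by
          apply Nat.mul_le_mul_left
          rw [Nat.add_comm]
          exact he
        exact absurd (lt_of_lt_of_le hX (hwt.trans h2)) (lt_irrefl _)
      · intro I hI hIind
        apply hs I (hI.trans hX'G)
        intro a ha b hb hab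
        have h1 := hIind a ha b hb hab
        exact ⟨fun h => h1 (Or.inl h), fun h => h1 (Or.inr h)⟩
    have hFb := big_class_count G τ k p (tbef G τ) (tbef_few G τ k)
    have hFa := big_class_count G τ k p (taft G τ) (taft_few G τ k)
    have hZsub : Z ⊆ Xs ∪ (G.filter (fun r => p ≤ (tcls G τ r).card ∧ tbef G τ r < k) ∪
        G.filter (fun r => p ≤ (tcls G τ r).card ∧ taft G τ r < k)) := by
      intro r hr
      rw [hZ, Finset.mem_filter] at hr
      rw [Finset.mem_union, Finset.mem_union, hXs, Finset.mem_filter, Finset.mem_filter,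
        Finset.mem_filter]
      by_cases hc : (tcls G τ r).card < p
      · exact Or.inl ⟨hr.1, hc⟩
      · rcases hr.2 with h | h
        · exact Or.inr (Or.inl ⟨hr.1, not_lt.1 hc, h⟩)
        · exact Or.inr (Or.inr ⟨hr.1, not_lt.1 hc, h⟩)
    have hFab : (G.filter (fun r => p ≤ (tcls G τ r).card ∧ tbef G τ r < k) ∪
        G.filter (fun r => p ≤ (tcls G τ r).card ∧ taft G τ r < k)).card ≤ 2 * k * n / p := by
      rw [Nat.le_div_iff_mul_le (by omega)]
      calc (G.filter (fun r => p ≤ (tcls G τ r).card ∧ tbef G τ r < k) ∪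
            G.filter (fun r => p ≤ (tcls G τ r).card ∧ taft G τ r < k)).card * p
          ≤ ((G.filter (fun r => p ≤ (tcls G τ r).card ∧ tbef G τ r < k)).card +
            (G.filter (fun r => p ≤ (tcls G τ r).card ∧ taft G τ r < k)).card) * p :=
            Nat.mul_le_mul_right p (Finset.card_union_le _ _)
        _ = (G.filter (fun r => p ≤ (tcls G τ r).card ∧ tbef G τ r < k)).card * p +
            (G.filter (fun r => p ≤ (tcls G τ r).card ∧ taft G τ r < k)).card * p := by ring
        _ ≤ n * k + n * k := Nat.add_le_add hFb hFa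
        _ = 2 * k * n := by ring
    calc Z.card ≤ (Xs ∪ (G.filter (fun r => p ≤ (tcls G τ r).card ∧ tbef G τ r < k) ∪
          G.filter (fun r => p ≤ (tcls G τ r).card ∧ taft G τ r < k))).card :=
          Finset.card_le_card hZsub
      _ ≤ Xs.card + (G.filter (fun r => p ≤ (tcls G τ r).card ∧ tbef G τ r < k) ∪
          G.filter (fun r => p ≤ (tcls G τ r).card ∧ taft G τ r < k)).card :=
          Finset.card_union_le _ _
      _ ≤ x₀ + 2 * k * n / p := Nat.add_le_add hXs_le hFab
  · intro r hr r' hr' hlt hR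
    rw [Finset.mem_sdiff] at hr hr'
    have hrZ : k ≤ tbef G τ r := by
      by_contra hcon
      apply hr.2
      rw [hZ, Finset.mem_filter]
      exact ⟨hr.1, Or.inl (by omega)⟩
    have hr'Z : k ≤ taft G τ r' := by
      by_contra hcon
      apply hr'.2
      rw [hZ, Finset.mem_filter]
      exact ⟨hr'.1, Or.inr (by omega)⟩
    have hsub : (G.filter (fun r1 => τ r1 = τ r ∧ r1 < r)) ×ˢ
        (G.filter (fun r2 => τ r2 = τ r' ∧ r' < r2)) ⊆
        (G ×ˢ G).filter (fun q => q.1 < q.2 ∧ Rt (τ q.1) (τ q.2)) := by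
      intro q hq
      rw [Finset.mem_product, Finset.mem_filter, Finset.mem_filter] at hq
      rw [Finset.mem_filter, Finset.mem_product]
      refine ⟨⟨hq.1.1, hq.2.1⟩, (hq.1.2.2.trans hlt).trans hq.2.2.2, ?_⟩
      rw [hq.1.2.1, hq.2.2.1]
      exact hR
    have hcard := Finset.card_le_card hsub
    rw [Finset.card_product] at hcard
    have h1 : k * k ≤ tbef G τ r * taft G τ r' := Nat.mul_le_mul hrZ hr'Z
    have hk2 : k ^ 2 = k * k := by ring
    rw [hk2] at hE
    exact absurd (lt_of_le_of_lt (le_trans h1 hcard) hE) (lt_irrefl _)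

end Vale.Agent.Lib.P037
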