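import Mathlib
import Vale.Agent.Lib.P037.Defs
import Vale.Agent.Lib.P037.I2Defs

namespace Vale.Agent.Lib.P037

open Finset

/-- Encoding of a level vector as a subset of `Fin K × Fin M`: the staircase below the levels. -/
def vcEnc {n : ℕ} (K M : ℕ) (q : Fin n → ℕ → ℕ) (a : Fin n) : Finset (Fin K × Fin M) :=
  univ.filter (fun e : Fin K × Fin M => e.2.val < q a e.1.val)

theorem mem_vcEnc {n : ℕ} (K M : ℕ) (q : Fin n → ℕ → ℕ) (a : Fin n) (e : Fin K × Fin M) :
    e ∈ vcEnc K M q a ↔ e.2.val < q a e.1.val := by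
  simp [vcEnc]

/-- The encoding separates two rows whose level vectors differ somewhere below `K`. -/
theorem vcEnc_ne {n : ℕ} (K M : ℕ) (q : Fin n → ℕ → ℕ) (hM : ∀ r j, j < K → q r j ≤ M)
    (a b : Fin n) (h : ∃ j, j < K ∧ q a j ≠ q b j) : vcEnc K M q a ≠ vcEnc K M q b := by
  obtain ⟨j, hj, hne⟩ := h
  intro heq
  rcases lt_or_gt_of_ne hne with hlt | hlt
  · have hmem : ((⟨j, hj⟩, ⟨q a j, lt_of_lt_of_le hlt (hM b j hj)⟩) : Fin K × Fin M)
        ∈ vcEnc K M q b := by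
      rw [mem_vcEnc]; exact hlt
    rw [← heq, mem_vcEnc] at hmem
    exact lt_irrefl _ hmem
  · have hmem : ((⟨j, hj⟩, ⟨q b j, lt_of_lt_of_le hlt (hM a j hj)⟩) : Fin K × Fin M)
        ∈ vcEnc K M q a := by
      rw [mem_vcEnc]; exact hlt
    rw [heq, mem_vcEnc] at hmem
    exact lt_irrefl _ hmem

/-- A shattered set contains no three elements `e1, e2, e3` with `e2` different from the other
two and first coordinates in weakly increasing order. -/
theorem vc_no_sorted_triple {n : ℕ} (K M : ℕ) (q : Fin n → ℕ → ℕ) (I : Finset (Fin n))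
    (hcompat : ∀ a ∈ I, ∀ b ∈ I, a < b → ∀ j j', j < j' → j' < K →
      ¬ (q b j < q a j ∧ q a j' < q b j'))
    (s : Finset (Fin K × Fin M)) (hs : (I.image (vcEnc K M q)).Shatters s)
    (e1 e2 e3 : Fin K × Fin M) (h1 : e1 ∈ s) (h2 : e2 ∈ s) (h3 : e3 ∈ s)
    (h12 : e1 ≠ e2) (h23 : e2 ≠ e3) (hj12 : e1.1 ≤ e2.1) (hj23 : e2.1 ≤ e3.1) : False := by
  have ht : ({e1, e3} : Finset (Fin K × Fin M)) ⊆ s := by
    intro x hx
    rcases mem_insert.1 hx with rfl | hx
    · exact h1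
    · rw [mem_singleton.1 hx]; exact h3
  have ht' : ({e2} : Finset (Fin K × Fin M)) ⊆ s := by
    intro x hx
    rw [mem_singleton.1 hx]; exact h2
  obtain ⟨u, hu, hsu⟩ := hs ht
  obtain ⟨u', hu', hsu'⟩ := hs ht'
  obtain ⟨P, hP, rfl⟩ := mem_image.1 hu
  obtain ⟨Q, hQ, rfl⟩ := mem_image.1 hu'
  have m1P : e1 ∈ vcEnc K M q P := by
    have : e1 ∈ s ∩ vcEnc K M q P := by rw [hsu]; simp
    exact (mem_inter.1 this).2
  have m3P : e3 ∈ vcEnc K M q P := by
    have : e3 ∈ s ∩ vcEnc K M q P := by rw [hsu]; simp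
    exact (mem_inter.1 this).2
  have m2P : e2 ∉ vcEnc K M q P := by
    intro h
    have : e2 ∈ s ∩ vcEnc K M q P := mem_inter.2 ⟨h2, h⟩
    rw [hsu] at this
    rcases mem_insert.1 this with h' | h'
    · exact h12 h'.symm
    · exact h23 (mem_singleton.1 h')
  have m2Q : e2 ∈ vcEnc K M q Q := by
    have : e2 ∈ s ∩ vcEnc K M q Q := by rw [hsu']; simp
    exact (mem_inter.1 this).2
  have m1Q : e1 ∉ vcEnc K M q Q := by
    intro h
    have : e1 ∈ s ∩ vcEnc K M q Q := mem_inter.2 ⟨h1, h⟩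
    rw [hsu'] at this
    exact h12 (mem_singleton.1 this)
  have m3Q : e3 ∉ vcEnc K M q Q := by
    intro h
    have : e3 ∈ s ∩ vcEnc K M q Q := mem_inter.2 ⟨h3, h⟩
    rw [hsu'] at this
    exact h23 (mem_singleton.1 this).symm
  rw [mem_vcEnc] at m1P m3P m2P m2Q m1Q m3Q
  have a1 : q Q e1.1.val < q P e1.1.val := lt_of_le_of_lt (not_lt.1 m1Q) m1P
  have a2 : q P e2.1.val < q Q e2.1.val := lt_of_le_of_lt (not_lt.1 m2P) m2Q
  have a3 : q Q e3.1.val < q P e3.1.val := lt_of_le_of_lt (not_lt.1 m3Q) m3P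
  have hPQ : P ≠ Q := by
    rintro rfl
    exact lt_irrefl _ a1
  rcases lt_or_gt_of_ne hPQ with hlt | hlt
  · rcases lt_or_eq_of_le hj12 with hj | hj
    · exact hcompat P hP Q hQ hlt e1.1.val e2.1.val hj e2.1.isLt ⟨a1, a2⟩
    · rw [hj] at a1
      exact lt_irrefl _ (lt_trans a1 a2)
  · rcases lt_or_eq_of_le hj23 with hj | hj
    · exact hcompat Q hQ P hP hlt e2.1.val e3.1.val hj e3.1.isLt ⟨a2, a3⟩
    · rw [← hj] at a3
      exact lt_irrefl _ (lt_trans a3 a2)

/-- A shattered set has at most two elements. -/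
theorem vc_shattered_card_le {n : ℕ} (K M : ℕ) (q : Fin n → ℕ → ℕ) (I : Finset (Fin n))
    (hcompat : ∀ a ∈ I, ∀ b ∈ I, a < b → ∀ j j', j < j' → j' < K →
      ¬ (q b j < q a j ∧ q a j' < q b j'))
    (s : Finset (Fin K × Fin M)) (hs : (I.image (vcEnc K M q)).Shatters s) : s.card ≤ 2 := by
  by_contra hcon
  have h3 : 2 < s.card := by omega
  obtain ⟨a, b, c, ha, hb, hc, hab, hac, hbc⟩ := Finset.two_lt_card_iff.1 h3
  have key := vc_no_sorted_triple K M q I hcompat s hs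
  rcases le_total a.1 b.1 with h1 | h1 <;> rcases le_total b.1 c.1 with h2 | h2 <;>
    rcases le_total a.1 c.1 with h3 | h3
  · exact key a b c ha hb hc hab hbc h1 h2
  · exact key a b c ha hb hc hab hbc h1 h2
  · exact key a c b ha hc hb hac hbc.symm h3 h2
  · exact key c a b hc ha hb hac.symm hab h3 h1
  · exact key b a c hb ha hc hab.symm hac h1 h3
  · exact key b c a hb hc ha hbc hac.symm h2 h3
  · exact key c b a hc hb ha hbc.symm hab.symm h2 h1
  · exact key c b a hc hb ha hbc.symm hab.symm h2 h1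

theorem vc_bound {n : ℕ} (K M : ℕ) (q : Fin n → ℕ → ℕ) (hM : ∀ r j, j < K → q r j ≤ M)
    (I : Finset (Fin n))
    (hdist : ∀ a ∈ I, ∀ b ∈ I, a < b → ∃ j, j < K ∧ q a j ≠ q b j)
    (hcompat : ∀ a ∈ I, ∀ b ∈ I, a < b → ∀ j j', j < j' → j' < K →
      ¬ (q b j < q a j ∧ q a j' < q b j')) :
    I.card ≤ 1 + K * M + (K * M).choose 2 := by
  have hinj : Set.InjOn (vcEnc K M q) (I : Set (Fin n)) := by
    intro a ha b hb heq
    by_contra hne
    rcases lt_or_gt_of_ne hne with hlt | hlt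
    · exact vcEnc_ne K M q hM a b (hdist a ha b hb hlt) heq
    · obtain ⟨j, hj, hq⟩ := hdist b hb a ha hlt
      exact vcEnc_ne K M q hM a b ⟨j, hj, hq.symm⟩ heq
  have hcard : (I.image (vcEnc K M q)).card = I.card := card_image_of_injOn hinj
  have hvc : (I.image (vcEnc K M q)).vcDim ≤ 2 := by
    unfold Finset.vcDim
    refine Finset.sup_le (fun s hs => ?_)
    exact vc_shattered_card_le K M q I hcompat s (mem_shatterer.1 hs)
  have h1 := card_le_card_shatterer (I.image (vcEnc K M q))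
  have h2 := card_shatterer_le_sum_vcDim (𝒜 := I.image (vcEnc K M q))
  have h3 : ∑ k ∈ Iic (I.image (vcEnc K M q)).vcDim, (Fintype.card (Fin K × Fin M)).choose k
      ≤ ∑ k ∈ Iic 2, (Fintype.card (Fin K × Fin M)).choose k :=
    Finset.sum_le_sum_of_subset (Finset.Iic_subset_Iic.2 hvc)
  have h4 : ∑ k ∈ Iic 2, (Fintype.card (Fin K × Fin M)).choose k
      = 1 + K * M + (K * M).choose 2 := by
    have e : (Iic 2 : Finset ℕ) = {0, 1, 2} := by decide
    rw [e]
    simp [Fintype.card_prod]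
    omega
  rw [← hcard]
  calc (I.image (vcEnc K M q)).card ≤ (I.image (vcEnc K M q)).shatterer.card := h1
    _ ≤ _ := h2
    _ ≤ _ := h3
    _ = _ := h4

end Vale.Agent.Lib.P037
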