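import Mathlib
import Vale.Agent.Lib.P037.Defs
import Vale.Agent.Lib.P037.Basic
import Vale.Agent.Lib.P037.I2Defs
import Vale.Agent.Lib.P037.I2Arith
import Vale.Agent.Lib.P037.I2VC
import Vale.Agent.Lib.P037.I2Types

namespace Vale.Agent.Lib.P037

open Finset

/-- Snapping arithmetic: residues away from the cell boundaries force a gap of `2 d`. -/
theorem snap_gap (g d a b : ℕ) (hg : 1 ≤ g)
    (ha : ¬ (a % g < d ∨ g - d ≤ a % g)) (hb : ¬ (b % g < d ∨ g - d ≤ b % g))
    (hq : b / g < a / g) : b + 2 * d ≤ a := by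
  have h1 := Nat.div_add_mod a g
  have h2 := Nat.div_add_mod b g
  have h3 : b / g + 1 ≤ a / g := hq
  have h4 : g * (b / g + 1) ≤ g * (a / g) := Nat.mul_le_mul_left g h3
  have h5 : a % g < g := Nat.mod_lt _ (by omega)
  have h6 : b % g < g := Nat.mod_lt _ (by omega)
  push Not at ha hb
  have h7 : g * (b / g + 1) = g * (b / g) + g := by ring
  omega

theorem snap_le (g x o : ℕ) : (x + o) / g * g - o ≤ x := by
  have h1 := Nat.div_mul_le_self (x + o) g
  omega

theorem snap_ge (g x o : ℕ) (hg : 1 ≤ g) (_ho : o < g) : x - ((x + o) / g * g - o) ≤ g := by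
  have h1 := Nat.div_add_mod (x + o) g
  have h5 : (x + o) % g < g := Nat.mod_lt _ (by omega)
  have h6 : (x + o) / g * g = g * ((x + o) / g) := by ring
  omega

theorem snap_mono (g o a b : ℕ) (h : a ≤ b) : a * g - o ≤ b * g - o := by
  have : a * g ≤ b * g := Nat.mul_le_mul_right g h
  omega

theorem level_lemma (n K W g d p k x₀ b₀ M : ℕ) (ℓ : Fin n → ℕ → ℕ)
    (hg : 1 ≤ g) (hdg : 2 * d ≤ g) (hd : 1 ≤ d) (hk : 1 ≤ k) (hp : 1 ≤ p)
    (hM : ∀ r j, j < K → ℓ r j + g ≤ M * g)
    (hW : ∀ r, ∑ j ∈ range K, ℓ r j ≤ W)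
    (hb : 2 * d * K * n ≤ b₀ * g)
    (hV : Vlev ℓ K < 4 * d ^ 2 * k ^ 2)
    (hX : 2 * (1 + K * M + (K * M).choose 2) * (k ^ 2 + (x₀ + 1) * p) <
      (x₀ + 1 - (1 + K * M + (K * M).choose 2)) ^ 2) :
    ∃ L : Fin n → ℕ → ℕ, (∀ r j, L r j ≤ ℓ r j) ∧ NoViol L K ∧
      ∑ r : Fin n, ∑ j ∈ range K, (ℓ r j - L r j) ≤
        n * K * g + (b₀ + x₀ + 2 * k * n / p) * W := by
  classical
  have hoff : ∀ j, ∃ o, o < g ∧
      (univ.filter (fun r : Fin n => (ℓ r j + o) % g < d ∨ g - d ≤ (ℓ r j + o) % g)).card * g ≤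
        2 * d * n := fun j => exists_offset n g d hg hdg (fun r => ℓ r j)
  choose o ho1 ho2 using hoff
  set q : Fin n → ℕ → ℕ := fun r j => (ℓ r j + o j) / g with hq
  set badj : ℕ → Fin n → Prop :=
    fun j r => (ℓ r j + o j) % g < d ∨ g - d ≤ (ℓ r j + o j) % g with hbadj
  set Bd : Finset (Fin n) := univ.filter (fun r => ∃ j, j < K ∧ badj j r) with hBd
  set G : Finset (Fin n) := univ.filter (fun r => ¬ ∃ j, j < K ∧ badj j r) with hG
  -- card of bad rows
  have hBdcard : Bd.card ≤ b₀ := by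
    have h1 : Bd ⊆ (range K).biUnion (fun j => univ.filter (fun r : Fin n => badj j r)) := by
      intro r hr
      rw [hBd, mem_filter] at hr
      obtain ⟨j, hj, hbj⟩ := hr.2
      rw [mem_biUnion]
      exact ⟨j, mem_range.mpr hj, by simp [hbj]⟩
    have h2 : Bd.card ≤ ∑ j ∈ range K, (univ.filter (fun r : Fin n => badj j r)).card :=
      (card_le_card h1).trans card_biUnion_le
    have h3 : Bd.card * g ≤ ∑ j ∈ range K, 2 * d * n := by
      calc Bd.card * g ≤ (∑ j ∈ range K, (univ.filter (fun r : Fin n => badj j r)).card) * g :=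
            Nat.mul_le_mul_right g h2
        _ = ∑ j ∈ range K, (univ.filter (fun r : Fin n => badj j r)).card * g := by
            rw [Finset.sum_mul]
        _ ≤ ∑ j ∈ range K, 2 * d * n := Finset.sum_le_sum (fun j _ => ho2 j)
    rw [Finset.sum_const, card_range, smul_eq_mul] at h3
    have h4 : Bd.card * g ≤ b₀ * g := by
      calc Bd.card * g ≤ K * (2 * d * n) := h3
        _ = 2 * d * K * n := by ring
        _ ≤ b₀ * g := hb
    exact Nat.le_of_mul_le_mul_right h4 (by omega)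
  -- types
  set τ : Fin n → (Fin K → ℕ) := fun r j => q r j with hτ
  set Rt : (Fin K → ℕ) → (Fin K → ℕ) → Prop :=
    fun u u' => ∃ j j' : Fin K, j < j' ∧ u' j < u j ∧ u j' < u' j' with hRt
  have hqM : ∀ r j, j < K → q r j ≤ M := by
    intro r j hj
    have h1 := hM r j hj
    have h2 := ho1 j
    have h3 : (ℓ r j + o j) / g < M := by
      apply Nat.div_lt_of_lt_mul
      calc ℓ r j + o j < ℓ r j + g := by omega
        _ ≤ M * g := h1
        _ = g * M := by ring
    exact le_of_lt h3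
  set s := 1 + K * M + (K * M).choose 2 with hs_def
  have hs : ∀ I ⊆ G, (∀ a ∈ I, ∀ b ∈ I, a < b → τ a ≠ τ b ∧ ¬ Rt (τ a) (τ b)) → I.card ≤ s := by
    intro I _ hI
    apply vc_bound K M q hqM I
    · intro a ha b hb' hab
      have h1 := (hI a ha b hb' hab).1
      by_contra hcon
      push Not at hcon
      apply h1
      funext j
      exact hcon j.val j.isLt
    · intro a ha b hb' hab j j' hjj' hj'K hcon
      have h1 := (hI a ha b hb' hab).2
      apply h1
      exact ⟨⟨j, by omega⟩, ⟨j', hj'K⟩, hjj', hcon.1, hcon.2⟩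
  -- the number of violating good pairs
  have hE : ((G ×ˢ G).filter (fun x => x.1 < x.2 ∧ Rt (τ x.1) (τ x.2))).card < k ^ 2 := by
    set Es := (G ×ˢ G).filter (fun x => x.1 < x.2 ∧ Rt (τ x.1) (τ x.2)) with hEs
    have h1 : Es.card * (4 * d ^ 2) ≤ Vlev ℓ K := by
      unfold Vlev
      rw [← Finset.sum_product' (s := univ) (t := univ)
        (f := fun r r' => if r < r' then
          ∑ j' ∈ range K, ∑ j ∈ range j', (ℓ r j - ℓ r' j) * (ℓ r' j' - ℓ r j') else 0)]
      have h2 : Es ⊆ (univ : Finset (Fin n)) ×ˢ (univ : Finset (Fin n)) := by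
        intro x _
        simp
      refine le_trans ?_ (Finset.sum_le_sum_of_subset h2)
      rw [Finset.card_eq_sum_ones, Finset.sum_mul]
      apply Finset.sum_le_sum
      intro x hx
      rw [hEs, mem_filter, mem_product] at hx
      obtain ⟨⟨hx1, hx2⟩, hlt, j, j', hjj', h3, h4⟩ := hx
      rw [if_pos hlt, one_mul]
      rw [hG, mem_filter] at hx1 hx2
      have hg1 : ¬ badj j x.1 := fun h => hx1.2 ⟨j, j.isLt, h⟩
      have hg2 : ¬ badj j x.2 := fun h => hx2.2 ⟨j, j.isLt, h⟩
      have hg3 : ¬ badj j' x.1 := fun h => hx1.2 ⟨j', j'.isLt, h⟩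
      have hg4 : ¬ badj j' x.2 := fun h => hx2.2 ⟨j', j'.isLt, h⟩
      have h5 : ℓ x.2 j + 2 * d ≤ ℓ x.1 j := by
        have := snap_gap g d (ℓ x.1 j + o j) (ℓ x.2 j + o j) hg hg1 hg2 h3
        omega
      have h6 : ℓ x.1 j' + 2 * d ≤ ℓ x.2 j' := by
        have := snap_gap g d (ℓ x.2 j' + o j') (ℓ x.1 j' + o j') hg hg4 hg3 h4
        omega
      have h7 : (2 * d) * (2 * d) ≤ (ℓ x.1 j - ℓ x.2 j) * (ℓ x.2 j' - ℓ x.1 j') :=
        Nat.mul_le_mul (by omega) (by omega)
      have h8 : (ℓ x.1 j - ℓ x.2 j) * (ℓ x.2 j' - ℓ x.1 j') ≤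
          ∑ i ∈ range j', (ℓ x.1 i - ℓ x.2 i) * (ℓ x.2 j' - ℓ x.1 j') :=
        Finset.single_le_sum (f := fun i => (ℓ x.1 i - ℓ x.2 i) * (ℓ x.2 j' - ℓ x.1 j'))
          (fun i _ => Nat.zero_le _) (mem_range.mpr hjj')
      have h9 : ∑ i ∈ range j', (ℓ x.1 i - ℓ x.2 i) * (ℓ x.2 j' - ℓ x.1 j') ≤
          ∑ i' ∈ range K, ∑ i ∈ range i', (ℓ x.1 i - ℓ x.2 i) * (ℓ x.2 i' - ℓ x.1 i') :=
        Finset.single_le_sum
          (f := fun i' => ∑ i ∈ range i', (ℓ x.1 i - ℓ x.2 i) * (ℓ x.2 i' - ℓ x.1 i'))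
          (fun i _ => Nat.zero_le _) (mem_range.mpr j'.isLt)
      calc 4 * d ^ 2 = (2 * d) * (2 * d) := by ring
        _ ≤ _ := h7
        _ ≤ _ := h8
        _ ≤ _ := h9
    by_contra hcon
    push Not at hcon
    have h2 : 4 * d ^ 2 * k ^ 2 ≤ Es.card * (4 * d ^ 2) := by
      calc 4 * d ^ 2 * k ^ 2 = k ^ 2 * (4 * d ^ 2) := by ring
        _ ≤ Es.card * (4 * d ^ 2) := Nat.mul_le_mul_right _ hcon
    omega
  obtain ⟨Z, hZG, hZcard, hZ⟩ := type_lemma G τ Rt s k p x₀ hk hp hs hE hX
  refine ⟨fun r j => if r ∈ G \ Z then q r j * g - o j else 0, ?_, ?_, ?_⟩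
  · intro r j
    by_cases hr : r ∈ G \ Z
    · simp only [if_pos hr]
      exact snap_le g (ℓ r j) (o j)
    · simp only [if_neg hr]
      exact Nat.zero_le _
  · intro r r' hrr' j j' hjj' hj'K hcon
    obtain ⟨h1, h2⟩ := hcon
    by_cases hr : r ∈ G \ Z
    · by_cases hr' : r' ∈ G \ Z
      · simp only [if_pos hr, if_pos hr'] at h1 h2
        apply hZ r hr r' hr' hrr'
        refine ⟨⟨j, by omega⟩, ⟨j', hj'K⟩, hjj', ?_, ?_⟩
        · by_contra hc
          push Not at hc
          have := snap_mono g (o j) _ _ hc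
          simp only [hτ] at this
          omega
        · by_contra hc
          push Not at hc
          have := snap_mono g (o j') _ _ hc
          simp only [hτ] at this
          omega
      · simp only [if_neg hr'] at h2
        omega
    · simp only [if_neg hr] at h1
      omega
  · have hrow : ∀ r : Fin n, ∑ j ∈ range K,
        (ℓ r j - (if r ∈ G \ Z then q r j * g - o j else 0)) ≤
          K * g + (if r ∈ Bd ∪ Z then W else 0) := by
      intro r
      by_cases hr : r ∈ G \ Z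
      · simp only [if_pos hr]
        have h1 : ∑ j ∈ range K, (ℓ r j - (q r j * g - o j)) ≤ ∑ j ∈ range K, g :=
          Finset.sum_le_sum (fun j _ => snap_ge g (ℓ r j) (o j) hg (ho1 j))
        rw [Finset.sum_const, card_range, smul_eq_mul] at h1
        omega
      · simp only [if_neg hr]
        have h1 : r ∈ Bd ∪ Z := by
          rw [mem_union]
          by_contra hcon
          push Not at hcon
          apply hr
          rw [mem_sdiff]
          refine ⟨?_, hcon.2⟩
          rw [hG, mem_filter]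
          refine ⟨mem_univ _, ?_⟩
          intro hbad
          apply hcon.1
          rw [hBd, mem_filter]
          exact ⟨mem_univ _, hbad⟩
        rw [if_pos h1]
        have h2 : ∑ j ∈ range K, (ℓ r j - 0) ≤ W := by
          simpa using hW r
        omega
    calc ∑ r : Fin n, ∑ j ∈ range K, (ℓ r j - (if r ∈ G \ Z then q r j * g - o j else 0))
        ≤ ∑ r : Fin n, (K * g + (if r ∈ Bd ∪ Z then W else 0)) :=
          Finset.sum_le_sum (fun r _ => hrow r)
      _ = n * K * g + (Bd ∪ Z).card * W := by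
          rw [Finset.sum_add_distrib, Finset.sum_const, card_univ, Fintype.card_fin,
            smul_eq_mul, ← Finset.sum_filter, Finset.sum_const, smul_eq_mul]
          congr 1
          · ring
          · congr 2
            ext r
            simp
      _ ≤ n * K * g + (b₀ + x₀ + 2 * k * n / p) * W := by
          have h1 : (Bd ∪ Z).card ≤ b₀ + x₀ + 2 * k * n / p := by
            calc (Bd ∪ Z).card ≤ Bd.card + Z.card := card_union_le _ _
              _ ≤ b₀ + (x₀ + 2 * k * n / p) := Nat.add_le_add hBdcard hZcard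
              _ = b₀ + x₀ + 2 * k * n / p := by ring
          have := Nat.mul_le_mul_right W h1
          omega

end Vale.Agent.Lib.P037
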