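import Mathlib
import Vale.Agent.Lib.P037.Defs
import Vale.Agent.Lib.P037.I2Defs

namespace Vale.Agent.Lib.P037

open Finset

/-- pairwise disjoint subsets of a finite set: the sizes add up to at most the size of the set -/
lemma sum_card_le_of_disjoint {ι α : Type} [DecidableEq α] (s : Finset ι) (t : ι → Finset α)
    (u : Finset α) (hd : ∀ i ∈ s, ∀ j ∈ s, i ≠ j → Disjoint (t i) (t j))
    (hsub : ∀ i ∈ s, t i ⊆ u) : ∑ i ∈ s, (t i).card ≤ u.card := by
  rw [← Finset.card_biUnion hd]
  exact Finset.card_le_card (Finset.biUnion_subset.2 hsub)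

theorem lev_le {n : ℕ} (A : Fin n → Fin n → Bool) (w : ℕ) (hw : 1 ≤ w) (r : Fin n) (j : ℕ) :
    lev A w r j ≤ w := by
  unfold lev
  have h := Finset.card_le_card_of_injOn
    (s := univ.filter (fun c : Fin n => c.val / w = j ∧ A r c = true))
    (t := range w) (fun c : Fin n => c.val % w) ?_ ?_
  · simpa using h
  · intro c _
    simpa using Nat.mod_lt c.val hw
  · intro c hc c' hc' h
    have e1 := Nat.div_add_mod c.val w
    have e2 := Nat.div_add_mod c'.val w
    have hj : c.val / w = j := (Finset.mem_filter.1 (Finset.mem_coe.1 hc)).2.1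
    have hj' : c'.val / w = j := (Finset.mem_filter.1 (Finset.mem_coe.1 hc')).2.1
    have hm : c.val % w = c'.val % w := h
    apply Fin.ext
    rw [← e1, ← e2, hj, hj', hm]

theorem lev_sum_le {n : ℕ} (A : Fin n → Fin n → Bool) (w : ℕ) (r : Fin n) :
    ∑ j ∈ range (n / w + 1), lev A w r j ≤ n := by
  have h := sum_card_le_of_disjoint (range (n / w + 1))
    (fun j => univ.filter (fun c : Fin n => c.val / w = j ∧ A r c = true)) univ ?_ ?_
  · rw [Finset.card_univ, Fintype.card_fin] at h
    exact h
  · intro i _ j _ hij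
    rw [Finset.disjoint_left]
    intro c hi hj
    exact hij ((Finset.mem_filter.1 hi).2.1.symm.trans (Finset.mem_filter.1 hj).2.1)
  · intro i _
    exact Finset.subset_univ _

/-- columns of strip `j` in which row `r` has a one and row `r'` a zero -/
def xcol {n : ℕ} (A : Fin n → Fin n → Bool) (w : ℕ) (r r' : Fin n) (j : ℕ) : Finset (Fin n) :=
  univ.filter (fun c : Fin n => c.val / w = j ∧ A r c = true ∧ A r' c = false)

/-- pairs of columns in increasing strips which form an identity pattern with the rows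
`r`, `r'` -/
def crossPairs {n : ℕ} (A : Fin n → Fin n → Bool) (w : ℕ) (r r' : Fin n) :
    Finset (Fin n × Fin n) :=
  univ.filter (fun p : Fin n × Fin n => p.1.val / w < p.2.val / w ∧ A r p.1 = true ∧
    A r p.2 = false ∧ A r' p.1 = false ∧ A r' p.2 = true)

lemma lev_sub_le {n : ℕ} (A : Fin n → Fin n → Bool) (w : ℕ) (r r' : Fin n) (j : ℕ) :
    lev A w r j - lev A w r' j ≤ (xcol A w r r' j).card := by
  rw [Nat.sub_le_iff_le_add]
  have hsub : univ.filter (fun c : Fin n => c.val / w = j ∧ A r c = true) ⊆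
      xcol A w r r' j ∪ univ.filter (fun c : Fin n => c.val / w = j ∧ A r' c = true) := by
    intro c hc
    obtain ⟨_, hj, hr⟩ := Finset.mem_filter.1 hc
    rw [Finset.mem_union]
    by_cases h' : A r' c = true
    · exact Or.inr (Finset.mem_filter.2 ⟨Finset.mem_univ _, hj, h'⟩)
    · exact Or.inl (Finset.mem_filter.2 ⟨Finset.mem_univ _, hj, hr, by simpa using h'⟩)
  exact (Finset.card_le_card hsub).trans (Finset.card_union_le _ _)

lemma sum_xcol_le {n : ℕ} (A : Fin n → Fin n → Bool) (w : ℕ) (r r' : Fin n) (j' : ℕ) :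
    ∑ j ∈ range j', (xcol A w r r' j).card ≤
      (univ.filter (fun c : Fin n => c.val / w < j' ∧ A r c = true ∧ A r' c = false)).card := by
  apply sum_card_le_of_disjoint
  · intro i _ j _ hij
    rw [Finset.disjoint_left]
    intro c hi hj
    exact hij ((Finset.mem_filter.1 hi).2.1.symm.trans (Finset.mem_filter.1 hj).2.1)
  · intro i hi c hc
    obtain ⟨_, hj, h1, h2⟩ := Finset.mem_filter.1 hc
    exact Finset.mem_filter.2 ⟨Finset.mem_univ _, by rw [hj]; exact Finset.mem_range.1 hi, h1, h2⟩

lemma sum_cross_le {n : ℕ} (A : Fin n → Fin n → Bool) (w : ℕ) (r r' : Fin n) (K : ℕ) :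
    ∑ j' ∈ range K,
      (univ.filter (fun c : Fin n => c.val / w < j' ∧ A r c = true ∧ A r' c = false)).card
        * (xcol A w r' r j').card ≤ (crossPairs A w r r').card := by
  have h := sum_card_le_of_disjoint (range K)
    (fun j' => (univ.filter (fun c : Fin n => c.val / w < j' ∧ A r c = true ∧ A r' c = false)) ×ˢ
      (xcol A w r' r j')) (crossPairs A w r r') ?_ ?_
  · refine le_trans (le_of_eq ?_) h
    refine Finset.sum_congr rfl fun j' _ => ?_
    rw [Finset.card_product]
  · intro i _ j _ hij
    rw [Finset.disjoint_left]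
    intro p hi hj
    have h1 := (Finset.mem_filter.1 (Finset.mem_product.1 hi).2).2.1
    have h2 := (Finset.mem_filter.1 (Finset.mem_product.1 hj).2).2.1
    exact hij (h1.symm.trans h2)
  · intro i _ p hp
    obtain ⟨hp1, hp2⟩ := Finset.mem_product.1 hp
    obtain ⟨_, ha, hb, hc⟩ := Finset.mem_filter.1 hp1
    obtain ⟨_, hd, he, hf⟩ := Finset.mem_filter.1 hp2
    exact Finset.mem_filter.2 ⟨Finset.mem_univ _, by rw [hd]; exact ha, hb, hf, hc, he⟩

lemma Ncross_eq {n : ℕ} (A : Fin n → Fin n → Bool) (w : ℕ) :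
    Ncross A w = ∑ r : Fin n, ∑ r' : Fin n, if r < r' then (crossPairs A w r r').card else 0 := by
  unfold Ncross crossPairs
  rw [Finset.card_filter, Fintype.sum_prod_type, Fintype.sum_prod_type]
  refine Finset.sum_congr rfl fun r _ => Finset.sum_congr rfl fun r' _ => ?_
  by_cases h : r < r'
  · rw [if_pos h, Finset.card_filter]
    refine Finset.sum_congr rfl fun p _ => ?_
    simp only [h, true_and]
  · rw [if_neg h]
    apply Finset.sum_eq_zero
    intro p _
    simp only [h, false_and, if_false]

theorem Vlev_le_Ncross {n : ℕ} (A : Fin n → Fin n → Bool) (w : ℕ) :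
    Vlev (lev A w) (n / w + 1) ≤ Ncross A w := by
  rw [Ncross_eq]
  unfold Vlev
  refine Finset.sum_le_sum fun r _ => Finset.sum_le_sum fun r' _ => ?_
  by_cases h : r < r'
  · rw [if_pos h, if_pos h]
    calc ∑ j' ∈ range (n / w + 1), ∑ j ∈ range j',
          (lev A w r j - lev A w r' j) * (lev A w r' j' - lev A w r j')
        ≤ ∑ j' ∈ range (n / w + 1), ∑ j ∈ range j',
          (xcol A w r r' j).card * (xcol A w r' r j').card := by
          refine Finset.sum_le_sum fun j' _ => Finset.sum_le_sum fun j _ => ?_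
          exact Nat.mul_le_mul (lev_sub_le A w r r' j) (lev_sub_le A w r' r j')
      _ = ∑ j' ∈ range (n / w + 1),
          (∑ j ∈ range j', (xcol A w r r' j).card) * (xcol A w r' r j').card := by
          refine Finset.sum_congr rfl fun j' _ => ?_
          rw [Finset.sum_mul]
      _ ≤ ∑ j' ∈ range (n / w + 1),
          (univ.filter (fun c : Fin n => c.val / w < j' ∧ A r c = true ∧ A r' c = false)).card
            * (xcol A w r' r j').card := by
          refine Finset.sum_le_sum fun j' _ => ?_
          exact Nat.mul_le_mul_right _ (sum_xcol_le A w r r' j')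
      _ ≤ (crossPairs A w r r').card := sum_cross_le A w r r' _
  · rw [if_neg h, if_neg h]

end Vale.Agent.Lib.P037
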