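import Mathlib
import Vale.Agent.Lib.P037.Defs
import Vale.Agent.Lib.P037.I2Defs

namespace Vale.Agent.Lib.P037

open Finset

/-- Auxiliary form of `pair_bound` with `a = b + 1`, proved by induction on `K` with a
two-regime invariant. -/
theorem pairs_pair_bound_aux (w b : ℕ) (x y : ℕ → ℕ) (hxy : ∀ j, x j + y j ≤ w) (K : ℕ) :
    (∑ j ∈ range K, x j * y j ≤ w * ∑ j ∈ range K, x j) ∧
    (b + 1 ≤ ∑ j ∈ range K, x j →
      (b + 1) * (4 * ∑ j ∈ range K, x j * y j) ≤
        (b + 1) * w ^ 2 + 4 * (b + 1) * b * w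
          + 4 * w * ∑ j' ∈ range K, ∑ j ∈ range j', x j * y j') := by
  induction K with
  | zero => simp
  | succ K ih =>
    obtain ⟨ih1, ih2⟩ := ih
    have hxK : x K ≤ w := le_trans (Nat.le_add_right _ _) (hxy K)
    have hyK : y K ≤ w := le_trans (Nat.le_add_left _ _) (hxy K)
    have hprod : x K * y K ≤ w * x K := by
      calc x K * y K ≤ x K * w := Nat.mul_le_mul_left _ hyK
        _ = w * x K := Nat.mul_comm _ _
    have h1 : ∑ j ∈ range (K + 1), x j * y j ≤ w * ∑ j ∈ range (K + 1), x j := by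
      rw [Finset.sum_range_succ, Finset.sum_range_succ, Nat.mul_add]
      exact Nat.add_le_add ih1 hprod
    refine ⟨h1, ?_⟩
    intro hge
    rw [Finset.sum_range_succ] at hge
    have hinner : ∑ j ∈ range K, x j * y K = (∑ j ∈ range K, x j) * y K := by
      rw [Finset.sum_mul]
    rw [Finset.sum_range_succ (fun j => x j * y j), Finset.sum_range_succ
      (fun j' => ∑ j ∈ range j', x j * y j'), hinner]
    by_cases hX : b + 1 ≤ ∑ j ∈ range K, x j
    · have h2 := ih2 hX
      have h3 : (b + 1) * (x K * y K) ≤ w * ((∑ j ∈ range K, x j) * y K) := by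
        calc (b + 1) * (x K * y K) ≤ (∑ j ∈ range K, x j) * (w * y K) :=
              Nat.mul_le_mul hX (Nat.mul_le_mul_right _ hxK)
          _ = w * ((∑ j ∈ range K, x j) * y K) := by ring
      nlinarith
    · have hX' : ∑ j ∈ range K, x j ≤ b := by omega
      have h4 : 4 * (x K * y K) ≤ w ^ 2 := by
        have h5 : 4 * (x K * y K) ≤ (x K + y K) ^ 2 := by nlinarith [sq_nonneg ((x K : ℤ) - y K)]
        exact le_trans h5 (Nat.pow_le_pow_left (hxy K) 2)
      have h6 : ∑ j ∈ range K, x j * y j ≤ w * b := le_trans ih1 (Nat.mul_le_mul_left _ hX')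
      have h7 : 0 ≤ 4 * w * (∑ j' ∈ range K, ∑ j ∈ range j', x j * y j'
          + (∑ j ∈ range K, x j) * y K) := Nat.zero_le _
      nlinarith

theorem pair_bound (K w a : ℕ) (ha : 1 ≤ a) (x y : ℕ → ℕ) (hxy : ∀ j, x j + y j ≤ w) :
    a * (4 * ∑ j ∈ range K, x j * y j) ≤
      a * w ^ 2 + 4 * a * (a - 1) * w + 4 * w * ∑ j' ∈ range K, ∑ j ∈ range j', x j * y j' := by
  obtain ⟨b, rfl⟩ : ∃ b, a = b + 1 := ⟨a - 1, by omega⟩
  rw [Nat.add_sub_cancel]
  obtain ⟨h1, h2⟩ := pairs_pair_bound_aux w b x y hxy K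
  by_cases hX : b + 1 ≤ ∑ j ∈ range K, x j
  · exact h2 hX
  · have hX' : ∑ j ∈ range K, x j ≤ b := by omega
    have h6 : ∑ j ∈ range K, x j * y j ≤ w * b := le_trans h1 (Nat.mul_le_mul_left _ hX')
    have h7 : 0 ≤ 4 * w * ∑ j' ∈ range K, ∑ j ∈ range j', x j * y j' := Nat.zero_le _
    nlinarith

/-- Number of columns `c` of strip `j` with `A r c = 1` and `A r' c = 0`. -/
def pairs_xcnt {n : ℕ} (A : Fin n → Fin n → Bool) (w : ℕ) (r r' : Fin n) (j : ℕ) : ℕ :=
  (univ.filter (fun c : Fin n => c.val / w = j ∧ A r c = true ∧ A r' c = false)).card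

theorem pairs_strip_card_le {n : ℕ} (w : ℕ) (hw : 1 ≤ w) (j : ℕ) :
    (univ.filter (fun c : Fin n => c.val / w = j)).card ≤ w := by
  have h : (univ.filter (fun c : Fin n => c.val / w = j)).card ≤ (range w).card := by
    apply Finset.card_le_card_of_injOn (fun c : Fin n => c.val % w)
    · intro c _
      exact Finset.mem_coe.mpr (Finset.mem_range.mpr (Nat.mod_lt _ hw))
    · intro c1 h1 c2 h2 h
      have d1 : c1.val / w = j := (Finset.mem_filter.mp (Finset.mem_coe.mp h1)).2
      have d2 : c2.val / w = j := (Finset.mem_filter.mp (Finset.mem_coe.mp h2)).2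
      have e1 := Nat.div_add_mod c1.val w
      have e2 := Nat.div_add_mod c2.val w
      have h' : c1.val % w = c2.val % w := h
      apply Fin.ext
      rw [← e1, ← e2, d1, d2, h']
  simpa using h

theorem pairs_xcnt_add_le {n : ℕ} (A : Fin n → Fin n → Bool) (w : ℕ) (hw : 1 ≤ w) (r r' : Fin n)
    (j : ℕ) : pairs_xcnt A w r r' j + pairs_xcnt A w r' r j ≤ w := by
  have h1 : pairs_xcnt A w r r' j ≤
      ((univ.filter (fun c : Fin n => c.val / w = j)).filter (fun c => A r c = true)).card := by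
    apply Finset.card_le_card
    intro c hc
    simp only [Finset.mem_filter, Finset.mem_univ, true_and] at hc ⊢
    exact ⟨hc.1, hc.2.1⟩
  have h2 : pairs_xcnt A w r' r j ≤
      ((univ.filter (fun c : Fin n => c.val / w = j)).filter
        (fun c => ¬ A r c = true)).card := by
    apply Finset.card_le_card
    intro c hc
    simp only [Finset.mem_filter, Finset.mem_univ, true_and] at hc ⊢
    refine ⟨hc.1, ?_⟩
    rw [hc.2.2]
    simp
  have h3 := Finset.card_filter_add_card_filter_not
    (s := univ.filter (fun c : Fin n => c.val / w = j)) (fun c => A r c = true)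
  have h4 := pairs_strip_card_le (n := n) w hw j
  omega

theorem pairs_card_filter_prod_fst {α β : Type*} [Fintype α] [Fintype β] (R : α × β → Prop)
    [DecidablePred R] :
    (univ.filter R).card = ∑ a, (univ.filter (fun b => R (a, b))).card := by
  simp only [Finset.card_filter]
  rw [Fintype.sum_prod_type]

theorem pairs_card_filter_prod_snd {α β : Type*} [Fintype α] [Fintype β] (R : α × β → Prop)
    [DecidablePred R] :
    (univ.filter R).card = ∑ b, (univ.filter (fun a => R (a, b))).card := by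
  simp only [Finset.card_filter]
  rw [Fintype.sum_prod_type_right]

theorem pairs_Qs_eq {n : ℕ} (A : Fin n → Fin n → Bool) (w j : ℕ) :
    Qs A w j = ∑ p : Fin n × Fin n, pairs_xcnt A w p.1 p.2 j * pairs_xcnt A w p.2 p.1 j := by
  unfold Qs
  rw [pairs_card_filter_prod_fst]
  apply Finset.sum_congr rfl
  intro p _
  unfold pairs_xcnt
  rw [← Finset.card_product]
  congr 1
  ext cc
  simp only [Finset.mem_filter, Finset.mem_univ, true_and, Finset.mem_product]
  tauto

theorem pairs_sum_pairs_symm {n : ℕ} (G : Fin n → Fin n → ℕ) (hdiag : ∀ r, G r r = 0)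
    (hsymm : ∀ r r', G r r' = G r' r) :
    ∑ p : Fin n × Fin n, G p.1 p.2 =
      2 * ∑ p : Fin n × Fin n, if p.1 < p.2 then G p.1 p.2 else 0 := by
  have h1 : ∀ p : Fin n × Fin n, G p.1 p.2 =
      (if p.1 < p.2 then G p.1 p.2 else 0) + (if p.2 < p.1 then G p.1 p.2 else 0) := by
    intro p
    rcases lt_trichotomy p.1 p.2 with h | h | h
    · rw [if_pos h, if_neg (not_lt.mpr (le_of_lt h))]
      simp
    · rw [if_neg (by rw [h]; exact lt_irrefl _), if_neg (by rw [h]; exact lt_irrefl _), h, hdiag]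
    · rw [if_neg (not_lt.mpr (le_of_lt h)), if_pos h]
      simp
  have h2 : ∑ p : Fin n × Fin n, (if p.2 < p.1 then G p.1 p.2 else 0) =
      ∑ p : Fin n × Fin n, if p.1 < p.2 then G p.1 p.2 else 0 := by
    apply Fintype.sum_equiv (Equiv.prodComm (Fin n) (Fin n))
    intro p
    show (if p.2 < p.1 then G p.1 p.2 else 0) = (if p.2 < p.1 then G p.2 p.1 else 0)
    rw [hsymm p.1 p.2]
  calc ∑ p : Fin n × Fin n, G p.1 p.2
      = ∑ p : Fin n × Fin n, ((if p.1 < p.2 then G p.1 p.2 else 0)
          + (if p.2 < p.1 then G p.1 p.2 else 0)) := Finset.sum_congr rfl (fun p _ => h1 p)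
    _ = 2 * ∑ p : Fin n × Fin n, if p.1 < p.2 then G p.1 p.2 else 0 := by
        rw [Finset.sum_add_distrib, h2]
        ring

theorem pairs_below_card {n : ℕ} (A : Fin n → Fin n → Bool) (w : ℕ) (r r' : Fin n) (j' : ℕ) :
    (univ.filter (fun c : Fin n => c.val / w < j' ∧ A r c = true ∧ A r' c = false)).card
      = ∑ j ∈ range j', pairs_xcnt A w r r' j := by
  rw [Finset.card_eq_sum_card_fiberwise (f := fun c : Fin n => c.val / w) (t := range j')]
  · apply Finset.sum_congr rfl
    intro j hj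
    unfold pairs_xcnt
    congr 1
    ext c
    simp only [Finset.mem_filter, Finset.mem_univ, true_and]
    have hj' := Finset.mem_range.mp hj
    constructor
    · rintro ⟨⟨_, h2⟩, h3⟩
      exact ⟨h3, h2⟩
    · rintro ⟨h1, h2⟩
      exact ⟨⟨by omega, h2⟩, h1⟩
  · intro c hc
    have hc' := Finset.mem_filter.mp (Finset.mem_coe.mp hc)
    exact Finset.mem_coe.mpr (Finset.mem_range.mpr hc'.2.1)

/-- Number of column pairs `(c, c')` in increasing strips forming an identity pattern with the
rows `r`, `r'` (no order condition on the rows). -/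
def pairs_crossCnt {n : ℕ} (A : Fin n → Fin n → Bool) (w : ℕ) (r r' : Fin n) : ℕ :=
  (univ.filter (fun cc : Fin n × Fin n => cc.1.val / w < cc.2.val / w ∧ A r cc.1 = true ∧
    A r cc.2 = false ∧ A r' cc.1 = false ∧ A r' cc.2 = true)).card

theorem pairs_cross_le {n : ℕ} (A : Fin n → Fin n → Bool) (w : ℕ) (r r' : Fin n) (K : ℕ) :
    ∑ j' ∈ range K, ∑ j ∈ range j', pairs_xcnt A w r r' j * pairs_xcnt A w r' r j' ≤ pairs_crossCnt A w r r' := by
  unfold pairs_crossCnt
  rw [pairs_card_filter_prod_snd]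
  have hR : ∀ c' : Fin n,
      (univ.filter (fun c : Fin n => ((c, c') : Fin n × Fin n).1.val / w
          < ((c, c') : Fin n × Fin n).2.val / w ∧ A r ((c, c') : Fin n × Fin n).1 = true ∧
        A r ((c, c') : Fin n × Fin n).2 = false ∧ A r' ((c, c') : Fin n × Fin n).1 = false ∧
        A r' ((c, c') : Fin n × Fin n).2 = true)).card
      = if (A r' c' = true ∧ A r c' = false) then ∑ j ∈ range (c'.val / w), pairs_xcnt A w r r' j
        else 0 := by
    intro c'
    split_ifs with h
    · rw [← pairs_below_card]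
      congr 1
      ext c
      simp only [Finset.mem_filter, Finset.mem_univ, true_and]
      tauto
    · rw [Finset.card_eq_zero]
      ext c
      simp only [Finset.mem_filter, Finset.mem_univ, true_and]
      constructor
      · intro hc
        exact absurd ⟨hc.2.2.2.2, hc.2.2.1⟩ h
      · intro hc
        exact absurd hc (Finset.notMem_empty c)
  rw [Finset.sum_congr rfl (fun c' _ => hR c'), ← Finset.sum_filter]
  have hL : ∀ j', ∑ j ∈ range j', pairs_xcnt A w r r' j * pairs_xcnt A w r' r j' =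
      ∑ _c' ∈ (univ.filter (fun c' : Fin n => A r' c' = true ∧ A r c' = false)).filter
        (fun c' => c'.val / w = j'), ∑ j ∈ range j', pairs_xcnt A w r r' j := by
    intro j'
    rw [← Finset.sum_mul, Finset.sum_const, smul_eq_mul, mul_comm]
    congr 1
    unfold pairs_xcnt
    congr 1
    ext c
    simp only [Finset.mem_filter, Finset.mem_univ, true_and]
    tauto
  rw [Finset.sum_congr rfl (fun j' _ => hL j')]
  rw [Finset.sum_fiberwise_eq_sum_filter'
    (univ.filter (fun c' : Fin n => A r' c' = true ∧ A r c' = false)) (range K)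
    (fun c' : Fin n => c'.val / w) (fun j' => ∑ j ∈ range j', pairs_xcnt A w r r' j)]
  exact Finset.sum_le_sum_of_subset (Finset.filter_subset _ _)

theorem pairs_Ncross_eq {n : ℕ} (A : Fin n → Fin n → Bool) (w : ℕ) :
    Ncross A w = ∑ p : Fin n × Fin n, if p.1 < p.2 then pairs_crossCnt A w p.1 p.2 else 0 := by
  unfold Ncross
  rw [pairs_card_filter_prod_fst]
  apply Finset.sum_congr rfl
  intro p _
  split_ifs with h
  · unfold pairs_crossCnt
    congr 1
    ext cc
    simp only [Finset.mem_filter, Finset.mem_univ, true_and]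
    tauto
  · rw [Finset.card_eq_zero]
    ext cc
    simp only [Finset.mem_filter, Finset.mem_univ, true_and]
    constructor
    · intro hc
      exact absurd hc.1 h
    · intro hc
      exact absurd hc (Finset.notMem_empty cc)

theorem pairs_two_mul_card_lt_le {n : ℕ} :
    2 * ∑ p : Fin n × Fin n, (if p.1 < p.2 then 1 else 0) ≤ n ^ 2 := by
  have h := pairs_sum_pairs_symm (n := n) (fun r r' => if r = r' then 0 else 1) (by simp)
    (by
      intro r r'
      by_cases h : r = r'
      · rw [if_pos h, if_pos h.symm]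
      · rw [if_neg h, if_neg (fun h' => h h'.symm)])
  have h2 : ∀ p : Fin n × Fin n,
      (if p.1 < p.2 then (if p.1 = p.2 then 0 else 1) else 0) = (if p.1 < p.2 then 1 else 0) := by
    intro p
    by_cases h1 : p.1 < p.2
    · rw [if_pos h1, if_pos h1, if_neg (ne_of_lt h1)]
    · rw [if_neg h1, if_neg h1]
  rw [Finset.sum_congr rfl (fun p _ => h2 p)] at h
  rw [← h]
  calc ∑ p : Fin n × Fin n, (if p.1 = p.2 then 0 else 1)
      ≤ ∑ _p : Fin n × Fin n, 1 := by
        apply Finset.sum_le_sum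
        intro p _
        split_ifs <;> omega
    _ = n ^ 2 := by
        rw [Finset.sum_const, Finset.card_univ, Fintype.card_prod, Fintype.card_fin, smul_eq_mul]
        ring

theorem Qs_sum_le {n : ℕ} (A : Fin n → Fin n → Bool) (w a : ℕ) (hw : 1 ≤ w) (ha : 1 ≤ a) :
    4 * a * ∑ j ∈ range (n / w + 1), Qs A w j ≤
      n ^ 2 * (a * w ^ 2 + 4 * a * (a - 1) * w) + 8 * w * Ncross A w := by
  let G : Fin n → Fin n → ℕ := fun r r' =>
    ∑ j ∈ range (n / w + 1), pairs_xcnt A w r r' j * pairs_xcnt A w r' r j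
  have hG_diag : ∀ r, G r r = 0 := by
    intro r
    apply Finset.sum_eq_zero
    intro j _
    have h0 : pairs_xcnt A w r r j = 0 := by
      unfold pairs_xcnt
      rw [Finset.card_eq_zero]
      ext c
      simp only [Finset.mem_filter, Finset.mem_univ, true_and]
      constructor
      · rintro ⟨_, h1, h2⟩
        rw [h1] at h2
        exact absurd h2 (by simp)
      · intro hc
        exact absurd hc (Finset.notMem_empty c)
    rw [h0, zero_mul]
  have hG_symm : ∀ r r', G r r' = G r' r := by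
    intro r r'
    apply Finset.sum_congr rfl
    intro j _
    exact mul_comm _ _
  have hsum : ∑ j ∈ range (n / w + 1), Qs A w j =
      2 * ∑ p : Fin n × Fin n, if p.1 < p.2 then G p.1 p.2 else 0 := by
    rw [← pairs_sum_pairs_symm G hG_diag hG_symm]
    rw [Finset.sum_congr rfl (fun j _ => pairs_Qs_eq A w j)]
    rw [Finset.sum_comm]
  have hpair : ∀ p : Fin n × Fin n, (if p.1 < p.2 then a * (4 * G p.1 p.2) else 0) ≤
      (if p.1 < p.2 then (a * w ^ 2 + 4 * a * (a - 1) * w) + 4 * w * pairs_crossCnt A w p.1 p.2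
        else 0) := by
    intro p
    by_cases h : p.1 < p.2
    · rw [if_pos h, if_pos h]
      have h1 := pair_bound (n / w + 1) w a ha (pairs_xcnt A w p.1 p.2) (pairs_xcnt A w p.2 p.1)
        (fun j => pairs_xcnt_add_le A w hw p.1 p.2 j)
      have h2 := pairs_cross_le A w p.1 p.2 (n / w + 1)
      calc a * (4 * G p.1 p.2) ≤ a * w ^ 2 + 4 * a * (a - 1) * w + 4 * w *
            ∑ j' ∈ range (n / w + 1), ∑ j ∈ range j',
              pairs_xcnt A w p.1 p.2 j * pairs_xcnt A w p.2 p.1 j' := h1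
        _ ≤ a * w ^ 2 + 4 * a * (a - 1) * w + 4 * w * pairs_crossCnt A w p.1 p.2 :=
            Nat.add_le_add_left (Nat.mul_le_mul_left _ h2) _
    · rw [if_neg h, if_neg h]
  have hcount := pairs_two_mul_card_lt_le (n := n)
  have e1 : 4 * a * ∑ j ∈ range (n / w + 1), Qs A w j =
      2 * ∑ p : Fin n × Fin n, (if p.1 < p.2 then a * (4 * G p.1 p.2) else 0) := by
    rw [hsum]
    have : ∀ p : Fin n × Fin n, (if p.1 < p.2 then a * (4 * G p.1 p.2) else 0) =
        4 * a * (if p.1 < p.2 then G p.1 p.2 else 0) := by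
      intro p
      split_ifs <;> ring
    rw [Finset.sum_congr rfl (fun p _ => this p), ← Finset.mul_sum]
    ring
  have e2 : ∑ p : Fin n × Fin n, (if p.1 < p.2 then (a * w ^ 2 + 4 * a * (a - 1) * w)
        + 4 * w * pairs_crossCnt A w p.1 p.2 else 0) =
      (a * w ^ 2 + 4 * a * (a - 1) * w) * ∑ p : Fin n × Fin n, (if p.1 < p.2 then 1 else 0)
        + 4 * w * Ncross A w := by
    rw [pairs_Ncross_eq, Finset.mul_sum, Finset.mul_sum, ← Finset.sum_add_distrib]
    apply Finset.sum_congr rfl
    intro p _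
    split_ifs <;> ring
  rw [e1]
  calc 2 * ∑ p : Fin n × Fin n, (if p.1 < p.2 then a * (4 * G p.1 p.2) else 0)
      ≤ 2 * ∑ p : Fin n × Fin n, (if p.1 < p.2 then (a * w ^ 2 + 4 * a * (a - 1) * w)
        + 4 * w * pairs_crossCnt A w p.1 p.2 else 0) :=
        Nat.mul_le_mul_left _ (Finset.sum_le_sum (fun p _ => hpair p))
    _ = (a * w ^ 2 + 4 * a * (a - 1) * w) *
          (2 * ∑ p : Fin n × Fin n, (if p.1 < p.2 then 1 else 0)) + 8 * w * Ncross A w := by
        rw [e2]
        ring
    _ ≤ (a * w ^ 2 + 4 * a * (a - 1) * w) * n ^ 2 + 8 * w * Ncross A w :=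
        Nat.add_le_add_right (Nat.mul_le_mul_left _ hcount) _
    _ = n ^ 2 * (a * w ^ 2 + 4 * a * (a - 1) * w) + 8 * w * Ncross A w := by ring

end Vale.Agent.Lib.P037
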