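import Mathlib

namespace Vale.Agent.Lib.P037

theorem div_facts (n c : ℕ) (hc : 1 ≤ c) :
    n / c * c ≤ n ∧ n < (n / c + 1) * c := by
  constructor
  · exact Nat.div_mul_le_self n c
  · have := Nat.lt_mul_div_succ n (show 0 < c by omega)
    calc n < c * (n / c + 1) := this
      _ = (n / c + 1) * c := by ring

theorem choose_bound (m : ℕ) : 1 + m + m.choose 2 ≤ (m + 1) ^ 2 := by
  have := Nat.choose_le_pow m 2
  nlinarith

theorem hX_core (s₁ p k y s : ℕ) (hp1 : 1 ≤ p) (hs₁1 : 1 ≤ s₁) (hs2 : s ≤ s₁) (hkp : k ≤ p)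
    (h16 : 16 * (s₁ * p) < y) : 2 * s * (k ^ 2 + y * p) < (y - s) ^ 2 := by
  set u := s₁ * p with hu
  have hsu : s ≤ u := by
    calc s ≤ s₁ := hs2
      _ = s₁ * 1 := (mul_one _).symm
      _ ≤ s₁ * p := Nat.mul_le_mul_left _ hp1
  have hpu : p ≤ u := by
    calc p = 1 * p := (one_mul p).symm
      _ ≤ s₁ * p := Nat.mul_le_mul_right _ hs₁1
  have L1 : 2 * s * (k ^ 2 + y * p) ≤ 2 * (u * u) + 2 * (u * y) := by
    have a1 : s * k ^ 2 ≤ u * u := by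
      calc s * k ^ 2 ≤ s₁ * p ^ 2 := Nat.mul_le_mul hs2 (Nat.pow_le_pow_left hkp 2)
        _ = u * p := by rw [hu]; ring
        _ ≤ u * u := Nat.mul_le_mul_left _ hpu
    have a2 : s * (y * p) ≤ u * y := by
      calc s * (y * p) ≤ s₁ * (y * p) := Nat.mul_le_mul_right _ hs2
        _ = u * y := by rw [hu]; ring
    have e : 2 * s * (k ^ 2 + y * p) = 2 * (s * k ^ 2) + 2 * (s * (y * p)) := by ring
    omega
  obtain ⟨z, hz⟩ := Nat.exists_eq_add_of_le (show u ≤ y by omega)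
  have hz15 : 15 * u + 1 ≤ z := by omega
  have R : z ^ 2 ≤ (y - s) ^ 2 := Nat.pow_le_pow_left (by omega) 2
  have b1 := Nat.mul_le_mul_right z hz15
  have b2 := Nat.mul_le_mul_left u hz15
  have L2 : 2 * (u * u) + 2 * (u * y) < z ^ 2 := by
    rw [hz]
    nlinarith
  omega

theorem params_ok (n t N : ℕ) (ht : 1 ≤ t) (hn : 2 ^ 45 * t ^ 12 ≤ n)
    (hN : N * (2 ^ 184 * t ^ 48) < n ^ 4) :
    ∃ w a g d p k x₀ b₀ M : ℕ, 1 ≤ w ∧ 1 ≤ a ∧ 1 ≤ g ∧ 2 * d ≤ g ∧ 1 ≤ d ∧ 1 ≤ k ∧ 1 ≤ p ∧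
      1536 * t ^ 4 * w ≤ n ∧ 6144 * t ^ 4 * (a - 1) ≤ n ∧ 12288 * t ^ 4 * N ≤ a * n ^ 3 ∧
      w + g ≤ M * g ∧ 2 * d * (n / w + 1) * n ≤ b₀ * g ∧ N < 4 * d ^ 2 * k ^ 2 ∧
      2 * (1 + (n / w + 1) * M + ((n / w + 1) * M).choose 2) * (k ^ 2 + (x₀ + 1) * p) <
        (x₀ + 1 - (1 + (n / w + 1) * M + ((n / w + 1) * M).choose 2)) ^ 2 ∧
      (n * (n / w + 1) * g + (b₀ + x₀ + 2 * k * n / p) * n) * (2 * t) ≤ n ^ 2 := by
  -- powers of t
  have ht4 : 1 ≤ t ^ 4 := Nat.one_le_pow _ _ ht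
  have ht5 : 1 ≤ t ^ 5 := Nat.one_le_pow _ _ ht
  have ht10 : 1 ≤ t ^ 10 := Nat.one_le_pow _ _ ht
  have ht11 : 1 ≤ t ^ 11 := Nat.one_le_pow _ _ ht
  have ht12 : 1 ≤ t ^ 12 := Nat.one_le_pow _ _ ht
  have e4 : t ^ 12 = t ^ 4 * t ^ 8 := by ring
  have e5 : t ^ 12 = t ^ 5 * t ^ 7 := by ring
  have e10 : t ^ 12 = t ^ 10 * t ^ 2 := by ring
  have e11 : t ^ 12 = t ^ 11 * t := by ring
  have e1 : t ^ 12 = t * t ^ 11 := by ring
  have ht8 : 1 ≤ t ^ 8 := Nat.one_le_pow _ _ ht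
  have ht7 : 1 ≤ t ^ 7 := Nat.one_le_pow _ _ ht
  have ht2 : 1 ≤ t ^ 2 := Nat.one_le_pow _ _ ht
  have l4 : t ^ 4 ≤ t ^ 12 := by rw [e4]; exact Nat.le_mul_of_pos_right _ (by omega)
  have l5 : t ^ 5 ≤ t ^ 12 := by rw [e5]; exact Nat.le_mul_of_pos_right _ (by omega)
  have l10 : t ^ 10 ≤ t ^ 12 := by rw [e10]; exact Nat.le_mul_of_pos_right _ (by omega)
  have l11 : t ^ 11 ≤ t ^ 12 := by rw [e11]; exact Nat.le_mul_of_pos_right _ (by omega)
  have l1 : t ≤ t ^ 12 := by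
    calc t = t * 1 := (mul_one t).symm
      _ ≤ t * t ^ 11 := Nat.mul_le_mul_left t ht11
      _ = t ^ 12 := e1.symm
  have hn1 : 1 ≤ n := by
    have : 0 < 2 ^ 45 * t ^ 12 := by positivity
    omega
  -- the parameters
  set c₁ := 1536 * t ^ 4 with hc₁
  set c₂ := 24576 * t ^ 5 with hc₂
  set c₃ := 98304 * t ^ 5 with hc₃
  set P := 2 ^ 41 * t ^ 11 with hP
  set w := n / c₁ with hw
  set a := n / (6144 * t ^ 4) + 1 with ha
  set g := n / c₂ with hg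
  set d := g / c₃ with hd
  set p := n / P with hp
  set k := p / (16 * t) with hk
  set x₀ := n / (8 * t) with hx₀
  have hc₁1 : 1 ≤ c₁ := by rw [hc₁]; omega
  have hc₂1 : 1 ≤ c₂ := by rw [hc₂]; omega
  have hc₃1 : 2 ≤ c₃ := by rw [hc₃]; omega
  have hP1 : 1 ≤ P := by
    have : 0 < 2 ^ 41 * t ^ 11 := by positivity
    rw [hP]; omega
  have h16t : 1 ≤ 16 * t := by omega
  have h8t : 1 ≤ 8 * t := by omega
  obtain ⟨w1, w2⟩ := div_facts n c₁ hc₁1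
  obtain ⟨g1, g2⟩ := div_facts n c₂ hc₂1
  obtain ⟨d1, d2⟩ := div_facts g c₃ (by omega)
  obtain ⟨p1, p2⟩ := div_facts n P hP1
  obtain ⟨k1, k2⟩ := div_facts p (16 * t) h16t
  obtain ⟨x1, x2⟩ := div_facts n (8 * t) h8t
  obtain ⟨a1, a2⟩ := div_facts n (6144 * t ^ 4) (by omega)
  rw [← hw] at w1 w2
  rw [← hg] at g1 g2
  rw [← hd] at d1 d2
  rw [← hp] at p1 p2
  rw [← hk] at k1 k2
  rw [← hx₀] at x1 x2
  rw [← ha] at a2
  -- lower bounds
  have hw1 : 1 ≤ w := by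
    rw [hw, Nat.le_div_iff_mul_le (by omega)]
    rw [hc₁]
    calc 1 * (1536 * t ^ 4) ≤ 2 ^ 45 * t ^ 12 := by
          have : 1536 * t ^ 4 ≤ 2 ^ 45 * t ^ 4 := Nat.mul_le_mul_right _ (by norm_num)
          have : 2 ^ 45 * t ^ 4 ≤ 2 ^ 45 * t ^ 12 := Nat.mul_le_mul_left _ l4
          omega
      _ ≤ n := hn
  have hgc₃ : c₃ ≤ g := by
    rw [hg, Nat.le_div_iff_mul_le (by omega)]
    calc c₃ * c₂ = 2415919104 * t ^ 10 := by rw [hc₃, hc₂]; ring
      _ ≤ 2 ^ 45 * t ^ 10 := Nat.mul_le_mul_right _ (by norm_num)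
      _ ≤ 2 ^ 45 * t ^ 12 := Nat.mul_le_mul_left _ l10
      _ ≤ n := hn
  have hg1 : 1 ≤ g := by omega
  have hd1 : 1 ≤ d := by
    rw [hd, Nat.le_div_iff_mul_le (by omega)]
    omega
  have hdg : 2 * d ≤ g := by
    have : d * 2 ≤ d * c₃ := Nat.mul_le_mul_left d hc₃1
    omega
  have hp16 : 16 * t ≤ p := by
    rw [hp, Nat.le_div_iff_mul_le (by omega)]
    calc 16 * t * P = 2 ^ 45 * t ^ 12 := by rw [hP]; ring
      _ ≤ n := hn
  have hp1 : 1 ≤ p := by omega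
  have hk1 : 1 ≤ k := by
    rw [hk, Nat.le_div_iff_mul_le (by omega)]
    omega
  have ha1 : 1 ≤ a := by rw [ha]; exact Nat.le_add_left 1 _
  have hx₀1 : 1 ≤ x₀ := by
    rw [hx₀, Nat.le_div_iff_mul_le (by omega)]
    calc 1 * (8 * t) ≤ 2 ^ 45 * t := by omega
      _ ≤ 2 ^ 45 * t ^ 12 := Nat.mul_le_mul_left _ l1
      _ ≤ n := hn
  -- the number of strips
  have hK : n / w + 1 ≤ 2 * c₁ := by
    have s1 : n < w * (2 * c₁) := by
      calc n < (w + 1) * c₁ := w2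
        _ ≤ (2 * w) * c₁ := Nat.mul_le_mul_right _ (by omega)
        _ = w * (2 * c₁) := by ring
    have := Nat.div_lt_of_lt_mul s1
    omega
  refine ⟨w, a, g, d, p, k, x₀, x₀, 32 * t + 1, hw1, ha1, hg1, hdg, hd1, hk1, hp1, ?_, ?_, ?_,
    ?_, ?_, ?_, ?_, ?_⟩
  · -- 1536 t^4 w ≤ n
    calc 1536 * t ^ 4 * w = w * c₁ := by rw [hc₁]; ring
      _ ≤ n := w1
  · -- 6144 t^4 (a-1) ≤ n
    have : a - 1 = n / (6144 * t ^ 4) := by rw [ha]; omega
    rw [this]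
    calc 6144 * t ^ 4 * (n / (6144 * t ^ 4)) = n / (6144 * t ^ 4) * (6144 * t ^ 4) := by ring
      _ ≤ n := a1
  · -- 12288 t^4 N ≤ a n^3
    by_contra hcon
    push Not at hcon
    have hn3 : 0 < n ^ 3 := by positivity
    have s1 : n ^ 4 < a * (6144 * t ^ 4) * n ^ 3 := by
      calc n ^ 4 = n * n ^ 3 := by ring
        _ < a * (6144 * t ^ 4) * n ^ 3 := Nat.mul_lt_mul_of_pos_right a2 hn3
    have s2 : a * (6144 * t ^ 4) * n ^ 3 ≤ 12288 * t ^ 4 * N * (6144 * t ^ 4) := by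
      calc a * (6144 * t ^ 4) * n ^ 3 = a * n ^ 3 * (6144 * t ^ 4) := by ring
        _ ≤ 12288 * t ^ 4 * N * (6144 * t ^ 4) := Nat.mul_le_mul_right _ (le_of_lt hcon)
    have s3 : 12288 * t ^ 4 * N * (6144 * t ^ 4) ≤ N * (2 ^ 184 * t ^ 48) := by
      calc 12288 * t ^ 4 * N * (6144 * t ^ 4) = N * (75497472 * t ^ 8) := by ring
        _ ≤ N * (2 ^ 184 * t ^ 48) := by
            apply Nat.mul_le_mul_left
            have e48 : t ^ 48 = t ^ 8 * t ^ 40 := by ring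
            have : 1 ≤ t ^ 40 := Nat.one_le_pow _ _ ht
            calc 75497472 * t ^ 8 ≤ 2 ^ 184 * t ^ 8 := Nat.mul_le_mul_right _ (by norm_num)
              _ = 2 ^ 184 * (t ^ 8 * 1) := by ring
              _ ≤ 2 ^ 184 * (t ^ 8 * t ^ 40) :=
                  Nat.mul_le_mul_left _ (Nat.mul_le_mul_left _ this)
              _ = 2 ^ 184 * t ^ 48 := by rw [e48]
    omega
  · -- w + g ≤ M g
    have s1 : w * c₁ < (32 * t * g) * c₁ := by
      calc w * c₁ ≤ n := w1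
        _ < (g + 1) * c₂ := g2
        _ ≤ (2 * g) * c₂ := Nat.mul_le_mul_right _ (by omega)
        _ = (32 * t * g) * c₁ := by rw [hc₂, hc₁]; ring
    have s2 : w < 32 * t * g := lt_of_mul_lt_mul_right s1 (Nat.zero_le _)
    calc w + g ≤ 32 * t * g + g := by omega
      _ = (32 * t + 1) * g := by ring
  · -- hb
    have s1 : n ≤ 16 * t * x₀ := by
      have : (x₀ + 1) * (8 * t) ≤ (2 * x₀) * (8 * t) := Nat.mul_le_mul_right _ (by omega)
      have e : (2 * x₀) * (8 * t) = 16 * t * x₀ := by ring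
      omega
    have s2 : 16 * t * (2 * d * (n / w + 1) * n) ≤ 16 * t * (x₀ * g) := by
      calc 16 * t * (2 * d * (n / w + 1) * n) = 32 * t * d * n * (n / w + 1) := by ring
        _ ≤ 32 * t * d * n * (2 * c₁) := Nat.mul_le_mul_left _ hK
        _ = (d * c₃) * n := by rw [hc₃, hc₁]; ring
        _ ≤ g * n := Nat.mul_le_mul_right _ d1
        _ ≤ g * (16 * t * x₀) := Nat.mul_le_mul_left _ s1
        _ = 16 * t * (x₀ * g) := by ring
    exact Nat.le_of_mul_le_mul_left s2 (by omega)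
  · -- hV
    have q1 : n < 4 * c₂ * c₃ * d := by
      have s1 : (g + 1) * c₂ ≤ (2 * g) * c₂ := Nat.mul_le_mul_right _ (by omega)
      have s2 : g ≤ 2 * d * c₃ := by
        have : (d + 1) * c₃ ≤ (2 * d) * c₃ := Nat.mul_le_mul_right _ (by omega)
        omega
      have s3 : (2 * g) * c₂ ≤ (2 * (2 * d * c₃)) * c₂ :=
        Nat.mul_le_mul_right _ (Nat.mul_le_mul_left _ s2)
      have e : (2 * (2 * d * c₃)) * c₂ = 4 * c₂ * c₃ * d := by ring
      omega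
    have q2 : n < 64 * t * P * k := by
      have s1 : (p + 1) * P ≤ (2 * p) * P := Nat.mul_le_mul_right _ (by omega)
      have s2 : p ≤ 2 * k * (16 * t) := by
        have : (k + 1) * (16 * t) ≤ (2 * k) * (16 * t) := Nat.mul_le_mul_right _ (by omega)
        omega
      have s3 : (2 * p) * P ≤ (2 * (2 * k * (16 * t))) * P :=
        Nat.mul_le_mul_right _ (Nat.mul_le_mul_left _ s2)
      have e : (2 * (2 * k * (16 * t))) * P = 64 * t * P * k := by ring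
      omega
    have q3 : n * n < (4 * c₂ * c₃ * d) * (64 * t * P * k) := Nat.mul_lt_mul'' q1 q2
    have q4 : (n * n) ^ 2 < ((4 * c₂ * c₃ * d) * (64 * t * P * k)) ^ 2 :=
      Nat.pow_lt_pow_left q3 (by norm_num)
    have q5 : ((4 * c₂ * c₃ * d) * (64 * t * P * k)) ^ 2 =
        (81 * 2 ^ 154 * t ^ 44) * (d ^ 2 * k ^ 2) := by
      rw [hc₂, hc₃, hP]; ring
    have q6 : 81 * 2 ^ 154 * t ^ 44 ≤ 4 * (2 ^ 184 * t ^ 48) := by
      have e48 : t ^ 48 = t ^ 44 * t ^ 4 := by ring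
      calc 81 * 2 ^ 154 * t ^ 44 ≤ 4 * 2 ^ 184 * t ^ 44 := Nat.mul_le_mul_right _ (by norm_num)
        _ = 4 * 2 ^ 184 * (t ^ 44 * 1) := by ring
        _ ≤ 4 * 2 ^ 184 * (t ^ 44 * t ^ 4) :=
            Nat.mul_le_mul_left _ (Nat.mul_le_mul_left _ ht4)
        _ = 4 * (2 ^ 184 * t ^ 48) := by rw [e48]; ring
    have q7 : N * (2 ^ 184 * t ^ 48) < (4 * d ^ 2 * k ^ 2) * (2 ^ 184 * t ^ 48) := by
      calc N * (2 ^ 184 * t ^ 48) < n ^ 4 := hN
        _ = (n * n) ^ 2 := by ring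
        _ < ((4 * c₂ * c₃ * d) * (64 * t * P * k)) ^ 2 := q4
        _ = (81 * 2 ^ 154 * t ^ 44) * (d ^ 2 * k ^ 2) := q5
        _ ≤ (4 * (2 ^ 184 * t ^ 48)) * (d ^ 2 * k ^ 2) := Nat.mul_le_mul_right _ q6
        _ = (4 * d ^ 2 * k ^ 2) * (2 ^ 184 * t ^ 48) := by ring
    exact lt_of_mul_lt_mul_right q7 (Nat.zero_le _)
  · -- hX
    have hm1 : (n / w + 1) * (32 * t + 1) + 1 ≤ 101377 * t ^ 5 := by
      have h1 : (n / w + 1) * (32 * t + 1) ≤ (2 * c₁) * (33 * t) :=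
        Nat.mul_le_mul hK (by omega)
      have e : (2 * c₁) * (33 * t) = 101376 * t ^ 5 := by rw [hc₁]; ring
      omega
    have hs2 : 1 + (n / w + 1) * (32 * t + 1) + ((n / w + 1) * (32 * t + 1)).choose 2 ≤
        2 ^ 34 * t ^ 10 := by
      calc 1 + (n / w + 1) * (32 * t + 1) + ((n / w + 1) * (32 * t + 1)).choose 2
          ≤ ((n / w + 1) * (32 * t + 1) + 1) ^ 2 := choose_bound _
        _ ≤ (101377 * t ^ 5) ^ 2 := Nat.pow_le_pow_left hm1 2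
        _ = 10277296129 * t ^ 10 := by ring
        _ ≤ 2 ^ 34 * t ^ 10 := Nat.mul_le_mul_right _ (by norm_num)
    have hs₁1 : 1 ≤ 2 ^ 34 * t ^ 10 := by
      have : 0 < 2 ^ 34 * t ^ 10 := by positivity
      omega
    have h16 : 16 * (2 ^ 34 * t ^ 10 * p) < x₀ + 1 := by
      have s1 : (16 * (2 ^ 34 * t ^ 10 * p)) * (8 * t) < (x₀ + 1) * (8 * t) := by
        calc (16 * (2 ^ 34 * t ^ 10 * p)) * (8 * t) = p * P := by rw [hP]; ring
          _ ≤ n := p1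
          _ < (x₀ + 1) * (8 * t) := x2
      exact lt_of_mul_lt_mul_right s1 (Nat.zero_le _)
    have hkp : k ≤ p := by
      calc k = k * 1 := (mul_one k).symm
        _ ≤ k * (16 * t) := Nat.mul_le_mul_left _ h16t
        _ ≤ p := k1
    exact hX_core (2 ^ 34 * t ^ 10) p k (x₀ + 1) _ hp1 hs₁1 hs2 hkp h16
  · -- cost
    have r1 : (n / w + 1) * g * (8 * t) ≤ n := by
      calc (n / w + 1) * g * (8 * t) ≤ (2 * c₁) * g * (8 * t) :=
            Nat.mul_le_mul_right _ (Nat.mul_le_mul_right _ hK)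
        _ = g * c₂ := by rw [hc₁, hc₂]; ring
        _ ≤ n := g1
    have r3 : (2 * k * n / p) * (8 * t) ≤ n := by
      have s1 : (2 * k * n / p) * p ≤ 2 * k * n := Nat.div_mul_le_self _ _
      have s2 : ((2 * k * n / p) * (8 * t)) * p ≤ n * p := by
        calc ((2 * k * n / p) * (8 * t)) * p = ((2 * k * n / p) * p) * (8 * t) := by ring
          _ ≤ (2 * k * n) * (8 * t) := Nat.mul_le_mul_right _ s1
          _ = (k * (16 * t)) * n := by ring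
          _ ≤ p * n := Nat.mul_le_mul_right _ k1
          _ = n * p := by ring
      exact Nat.le_of_mul_le_mul_right s2 (by omega)
    have m1 := Nat.mul_le_mul_left n r1
    have m2 := Nat.mul_le_mul_left n x1
    have m3 := Nat.mul_le_mul_left n r3
    have e : 4 * ((n * (n / w + 1) * g + (x₀ + x₀ + 2 * k * n / p) * n) * (2 * t)) =
        n * ((n / w + 1) * g * (8 * t)) + n * (x₀ * (8 * t)) + n * (x₀ * (8 * t)) +
          n * ((2 * k * n / p) * (8 * t)) := by ring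
    have e' : n ^ 2 = n * n := by ring
    omega

end Vale.Agent.Lib.P037
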