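import Mathlib
import Vale.Agent.Lib.P037.Defs
import Vale.Agent.Lib.P037.I2Defs

namespace Vale.Agent.Lib.P037

open Finset

/-- The strict order used to sort a strip: decreasing column degree, ties by index. -/
abbrev rkPrec {n : ℕ} (A : Fin n → Fin n → Bool) (c' c : Fin n) : Prop :=
  cdeg A c < cdeg A c' ∨ (cdeg A c' = cdeg A c ∧ c' < c)

theorem rkPrec_irrefl {n : ℕ} (A : Fin n → Fin n → Bool) (c : Fin n) : ¬ rkPrec A c c := by
  unfold rkPrec
  rintro (h | ⟨-, h⟩)
  · exact lt_irrefl _ h
  · exact lt_irrefl _ h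

theorem rkPrec_trans {n : ℕ} (A : Fin n → Fin n → Bool) {a b c : Fin n}
    (hab : rkPrec A a b) (hbc : rkPrec A b c) : rkPrec A a c := by
  unfold rkPrec at *
  rcases hab with h1 | ⟨h1, h1'⟩ <;> rcases hbc with h2 | ⟨h2, h2'⟩
  · left; omega
  · left; omega
  · left; omega
  · right; exact ⟨by omega, lt_trans h1' h2'⟩

theorem rkPrec_total {n : ℕ} (A : Fin n → Fin n → Bool) {a b : Fin n} (hab : a ≠ b) :
    rkPrec A a b ∨ rkPrec A b a := by
  unfold rkPrec
  rcases lt_trichotomy (cdeg A a) (cdeg A b) with h | h | h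
  · right; left; exact h
  · rcases lt_trichotomy a b with h' | h' | h'
    · left; right; exact ⟨h, h'⟩
    · exact absurd h' hab
    · right; right; exact ⟨h.symm, h'⟩
  · left; left; exact h

theorem rk_eq_card {n : ℕ} (A : Fin n → Fin n → Bool) (w : ℕ) (c : Fin n) :
    rk A w c = (univ.filter (fun c' : Fin n => c'.val / w = c.val / w ∧ rkPrec A c' c)).card :=
  rfl

theorem rk_lt_of_rkPrec {n : ℕ} (A : Fin n → Fin n → Bool) (w : ℕ) (c c' : Fin n)
    (h : c.val / w = c'.val / w) (hp : rkPrec A c' c) : rk A w c' < rk A w c := by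
  rw [rk_eq_card, rk_eq_card]
  apply Finset.card_lt_card
  rw [Finset.ssubset_iff_of_subset]
  · refine ⟨c', ?_, ?_⟩
    · rw [Finset.mem_filter]
      exact ⟨Finset.mem_univ _, h.symm, hp⟩
    · rw [Finset.mem_filter]
      rintro ⟨-, -, h'⟩
      exact rkPrec_irrefl A c' h'
  · intro x hx
    rw [Finset.mem_filter] at hx ⊢
    exact ⟨Finset.mem_univ _, hx.2.1.trans h.symm, rkPrec_trans A hx.2.2 hp⟩

theorem rk_inj {n : ℕ} (A : Fin n → Fin n → Bool) (w : ℕ) (c c' : Fin n)
    (h : c.val / w = c'.val / w) (hr : rk A w c = rk A w c') : c = c' := by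
  by_contra hne
  rcases rkPrec_total A hne with hp | hp
  · have := rk_lt_of_rkPrec A w c' c h.symm hp
    omega
  · have := rk_lt_of_rkPrec A w c c' h hp
    omega

theorem rk_deg {n : ℕ} (A : Fin n → Fin n → Bool) (w : ℕ) (c c' : Fin n)
    (h : c.val / w = c'.val / w) (hr : rk A w c' < rk A w c) : cdeg A c ≤ cdeg A c' := by
  by_contra hlt
  rw [not_le] at hlt
  have hp : rkPrec A c c' := Or.inl hlt
  have := rk_lt_of_rkPrec A w c' c h.symm hp
  omega

theorem rk_lt {n : ℕ} (A : Fin n → Fin n → Bool) (w : ℕ) (c : Fin n) :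
    rk A w c < (univ.filter (fun c' : Fin n => c'.val / w = c.val / w)).card := by
  rw [rk_eq_card]
  apply Finset.card_lt_card
  rw [Finset.ssubset_iff_of_subset]
  · refine ⟨c, ?_, ?_⟩
    · rw [Finset.mem_filter]
      exact ⟨Finset.mem_univ _, rfl⟩
    · rw [Finset.mem_filter]
      rintro ⟨-, -, h'⟩
      exact rkPrec_irrefl A c h'
  · intro x hx
    rw [Finset.mem_filter] at hx ⊢
    exact ⟨Finset.mem_univ _, hx.2.1⟩

theorem card_rk_lt {n : ℕ} (A : Fin n → Fin n → Bool) (w j x : ℕ)
    (hx : x ≤ (univ.filter (fun c : Fin n => c.val / w = j)).card) :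
    (univ.filter (fun c : Fin n => c.val / w = j ∧ rk A w c < x)).card = x := by
  set J : Finset (Fin n) := univ.filter (fun c : Fin n => c.val / w = j) with hJ
  have hinj : Set.InjOn (rk A w) (J : Set (Fin n)) := by
    intro a ha b hb hab
    rw [Finset.mem_coe, hJ, Finset.mem_filter] at ha hb
    exact rk_inj A w a b (ha.2.trans hb.2.symm) hab
  have himg : J.image (rk A w) = range J.card := by
    apply Finset.eq_of_subset_of_card_le
    · intro y hy
      rw [Finset.mem_image] at hy
      obtain ⟨c, hc, rfl⟩ := hy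
      rw [Finset.mem_range]
      have h1 := rk_lt A w c
      rw [hJ, Finset.mem_filter] at hc
      have h2 : (univ.filter (fun c' : Fin n => c'.val / w = c.val / w)) = J := by
        rw [hJ, hc.2]
      rw [h2] at h1
      exact h1
    · rw [Finset.card_range, Finset.card_image_of_injOn hinj]
  have hS : (univ.filter (fun c : Fin n => c.val / w = j ∧ rk A w c < x)) =
      J.filter (fun c => rk A w c < x) := by
    rw [hJ, Finset.filter_filter]
  rw [hS]
  have hinj' : Set.InjOn (rk A w) ((J.filter (fun c => rk A w c < x) : Finset (Fin n)) :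
      Set (Fin n)) := by
    intro a ha b hb hab
    apply hinj _ _ hab
    · exact Finset.mem_coe.mpr (Finset.mem_of_mem_filter _ (Finset.mem_coe.mp ha))
    · exact Finset.mem_coe.mpr (Finset.mem_of_mem_filter _ (Finset.mem_coe.mp hb))
  rw [← Finset.card_image_of_injOn hinj']
  have himg' : (J.filter (fun c => rk A w c < x)).image (rk A w) = range x := by
    ext y
    rw [Finset.mem_image, Finset.mem_range]
    constructor
    · rintro ⟨c, hc, rfl⟩
      rw [Finset.mem_filter] at hc
      exact hc.2
    · intro hy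
      have hy' : y ∈ J.image (rk A w) := by
        rw [himg, Finset.mem_range]
        omega
      rw [Finset.mem_image] at hy'
      obtain ⟨c, hc, rfl⟩ := hy'
      exact ⟨c, Finset.mem_filter.mpr ⟨hc, hy⟩, rfl⟩
  rw [himg', Finset.card_range]

theorem strip_card_le (n w j : ℕ) (hw : 1 ≤ w) :
    (univ.filter (fun c : Fin n => c.val / w = j)).card ≤ w := by
  have h := Finset.card_le_card_of_injOn (s := univ.filter (fun c : Fin n => c.val / w = j))
    (t := range w) (fun c : Fin n => c.val % w) ?_ ?_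
  · rw [Finset.card_range] at h
    exact h
  · intro c _
    rw [Finset.mem_coe, Finset.mem_range]
    exact Nat.mod_lt _ (by omega)
  · intro a ha b hb hab
    rw [Finset.mem_coe, Finset.mem_filter] at ha hb
    have h1 := Nat.div_add_mod a.val w
    have h2 := Nat.div_add_mod b.val w
    simp only at hab
    apply Fin.ext
    rw [← h1, ← h2, ha.2, hb.2, hab]

end Vale.Agent.Lib.P037
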