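import Mathlib
import Vale.Agent.Lib.P037.Defs
import Vale.Agent.Lib.P037.I2Defs
namespace Vale.Agent.Lib.P037
open Finset

/-- Two threshold matrices for the same injective ranking differ in at most as many entries as
the total difference of their level arrays. -/
theorem numDiff_thr_le {n : ℕ} (ρ : Fin n → ℕ) (w : ℕ)
    (hρ : ∀ c c' : Fin n, c.val / w = c'.val / w → ρ c = ρ c' → c = c')
    (ℓ L : Fin n → ℕ → ℕ) (hL : ∀ r j, L r j ≤ ℓ r j) :
    numDiff (thr ρ w ℓ) (thr ρ w L) ≤ ∑ r : Fin n, ∑ j ∈ range (n / w + 1), (ℓ r j - L r j) := by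
  classical
  have hcard : ((univ : Finset (Fin n)).sigma
      (fun r => (range (n / w + 1)).sigma (fun j => Ico (L r j) (ℓ r j)))).card
      = ∑ r : Fin n, ∑ j ∈ range (n / w + 1), (ℓ r j - L r j) := by
    rw [Finset.card_sigma]
    refine Finset.sum_congr rfl (fun r _ => ?_)
    rw [Finset.card_sigma]
    refine Finset.sum_congr rfl (fun j _ => ?_)
    rw [Nat.card_Ico]
  rw [← hcard]
  unfold numDiff
  refine Finset.card_le_card_of_injOn
    (fun p : Fin n × Fin n => (⟨p.1, ⟨p.2.val / w, ρ p.2⟩⟩ : Σ _ : Fin n, Σ _ : ℕ, ℕ)) ?_ ?_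
  · intro p hp
    rw [Finset.mem_coe, Finset.mem_filter] at hp
    have hne := hp.2
    rw [Finset.mem_coe, Finset.mem_sigma]
    refine ⟨Finset.mem_univ _, ?_⟩
    rw [Finset.mem_sigma]
    refine ⟨?_, ?_⟩
    · rw [Finset.mem_range]
      exact Nat.lt_succ_of_le (Nat.div_le_div_right (le_of_lt p.2.isLt))
    · rw [Finset.mem_Ico]
      unfold thr at hne
      constructor
      · by_contra hlt
        have h1 : ρ p.2 < L p.1 (p.2.val / w) := not_le.mp hlt
        have h2 : ρ p.2 < ℓ p.1 (p.2.val / w) := lt_of_lt_of_le h1 (hL _ _)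
        exact hne (by rw [decide_eq_true h1, decide_eq_true h2])
      · by_contra hge
        have h1 : ¬ ρ p.2 < L p.1 (p.2.val / w) := fun h => hge (lt_of_lt_of_le h (hL _ _))
        exact hne (by rw [decide_eq_false h1, decide_eq_false hge])
  · intro p _ q _ hpq
    simp only [Sigma.mk.injEq, heq_eq_eq] at hpq
    obtain ⟨h1, h2, h3⟩ := hpq
    exact Prod.ext h1 (hρ _ _ h2 h3)

end Vale.Agent.Lib.P037
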