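import Mathlib
import Vale.Agent.Lib.P037.Defs
import Vale.Agent.Lib.P037.Basic
import Vale.Agent.Lib.P037.I2Defs
import Vale.Agent.Lib.P037.I2Rank
import Vale.Agent.Lib.P037.I2Chain
import Vale.Agent.Lib.P037.I2Pairs
import Vale.Agent.Lib.P037.I2Basic
import Vale.Agent.Lib.P037.I2Levels
import Vale.Agent.Lib.P037.I2ThrDist
import Vale.Agent.Lib.P037.I2Arith
import Vale.Agent.Lib.P037.I2Level
import Vale.Agent.Lib.P037.I2Params

namespace Vale.Agent.Lib.P037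

open Finset

theorem chain_strip {n : ℕ} (A : Fin n → Fin n → Bool) (w j : ℕ) (hw : 1 ≤ w) :
    (stripDiff A (thr (rk A w) w (lev A w)) w j) ^ 4 ≤ 16 * n ^ 2 * w ^ 2 * Qs A w j := by
  apply chain_strip_gen A w j (rk A w) (strip_card_le n w j hw)
  · intro c c' hc hc' h
    exact rk_deg A w c c' (by rw [hc, hc']) h
  · intro x hx
    exact card_rk_lt A w j x hx

theorem stage1 {n : ℕ} (A : Fin n → Fin n → Bool) (w a : ℕ) (hw : 1 ≤ w) (ha : 1 ≤ a) :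
    a * (numDiff A (thr (rk A w) w (lev A w))) ^ 4 ≤
      4 * (n / w + 1) ^ 3 * n ^ 2 * w ^ 2 *
        (n ^ 2 * (a * w ^ 2 + 4 * a * (a - 1) * w) + 8 * w * Ncross A w) := by
  have h1 : numDiff A (thr (rk A w) w (lev A w)) =
      ∑ j ∈ range (n / w + 1), stripDiff A (thr (rk A w) w (lev A w)) w j :=
    numDiff_eq_sum_strip _ _ w
  have h2 : (numDiff A (thr (rk A w) w (lev A w))) ^ 4 ≤ (n / w + 1) ^ 3 *
      ∑ j ∈ range (n / w + 1), (stripDiff A (thr (rk A w) w (lev A w)) w j) ^ 4 := by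
    rw [h1]
    exact sum_pow_four_le (n / w + 1) _
  have h3 : ∑ j ∈ range (n / w + 1), (stripDiff A (thr (rk A w) w (lev A w)) w j) ^ 4 ≤
      ∑ j ∈ range (n / w + 1), 16 * n ^ 2 * w ^ 2 * Qs A w j :=
    Finset.sum_le_sum (fun j _ => chain_strip A w j hw)
  rw [← Finset.mul_sum] at h3
  have h4 := Qs_sum_le A w a hw ha
  have h5 : 4 * (a * (numDiff A (thr (rk A w) w (lev A w))) ^ 4) ≤
      4 * (4 * (n / w + 1) ^ 3 * n ^ 2 * w ^ 2 *
        (n ^ 2 * (a * w ^ 2 + 4 * a * (a - 1) * w) + 8 * w * Ncross A w)) := by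
    calc 4 * (a * (numDiff A (thr (rk A w) w (lev A w))) ^ 4)
        ≤ 4 * (a * ((n / w + 1) ^ 3 *
            (16 * n ^ 2 * w ^ 2 * ∑ j ∈ range (n / w + 1), Qs A w j))) := by
          apply Nat.mul_le_mul_left
          apply Nat.mul_le_mul_left
          exact h2.trans (Nat.mul_le_mul_left _ h3)
      _ = 16 * (n / w + 1) ^ 3 * n ^ 2 * w ^ 2 *
            (4 * a * ∑ j ∈ range (n / w + 1), Qs A w j) := by ring
      _ ≤ 16 * (n / w + 1) ^ 3 * n ^ 2 * w ^ 2 *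
            (n ^ 2 * (a * w ^ 2 + 4 * a * (a - 1) * w) + 8 * w * Ncross A w) :=
          Nat.mul_le_mul_left _ h4
      _ = _ := by ring
  omega

theorem stage1_param {n : ℕ} (A : Fin n → Fin n → Bool) (t w a N : ℕ) (ht : 1 ≤ t)
    (hw : 1 ≤ w) (ha : 1 ≤ a) (hNc : Ncross A w ≤ N)
    (h1 : 1536 * t ^ 4 * w ≤ n) (h2 : 6144 * t ^ 4 * (a - 1) ≤ n)
    (h3 : 12288 * t ^ 4 * N ≤ a * n ^ 3) :
    numDiff A (thr (rk A w) w (lev A w)) * (2 * t) ≤ n ^ 2 := by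
  have hS := stage1 A w a hw ha
  set D := numDiff A (thr (rk A w) w (lev A w)) with hD
  set K := n / w + 1 with hK
  have ht4 : 1 ≤ t ^ 4 := Nat.one_le_pow _ _ ht
  have hwn : w ≤ n := by
    calc w = 1 * w := (one_mul w).symm
      _ ≤ (1536 * t ^ 4) * w := Nat.mul_le_mul_right w (by omega)
      _ ≤ n := h1
  have hKw : K * w ≤ 2 * n := by
    have := Nat.div_mul_le_self n w
    rw [hK, Nat.add_mul]
    omega
  have hK3 : K ^ 3 * w ^ 3 ≤ 8 * n ^ 3 := by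
    have := Nat.pow_le_pow_left hKw 3
    calc K ^ 3 * w ^ 3 = (K * w) ^ 3 := by ring
      _ ≤ (2 * n) ^ 3 := this
      _ = 8 * n ^ 3 := by ring
  have hNc' : 8 * w * Ncross A w ≤ 8 * w * N := Nat.mul_le_mul_left _ hNc
  have e0 : a * D ^ 4 ≤ 32 * n ^ 5 * (n ^ 2 * a * w + 4 * a * (a - 1) * n ^ 2 + 8 * N) := by
    calc a * D ^ 4 ≤ 4 * K ^ 3 * n ^ 2 * w ^ 2 *
          (n ^ 2 * (a * w ^ 2 + 4 * a * (a - 1) * w) + 8 * w * Ncross A w) := hS
      _ ≤ 4 * K ^ 3 * n ^ 2 * w ^ 2 *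
          (n ^ 2 * (a * w ^ 2 + 4 * a * (a - 1) * w) + 8 * w * N) :=
          Nat.mul_le_mul_left _ (Nat.add_le_add_left hNc' _)
      _ = (K ^ 3 * w ^ 3) * (4 * n ^ 2 * (n ^ 2 * a * w + 4 * a * (a - 1) * n ^ 2 + 8 * N)) := by
          ring
      _ ≤ (8 * n ^ 3) * (4 * n ^ 2 * (n ^ 2 * a * w + 4 * a * (a - 1) * n ^ 2 + 8 * N)) :=
          Nat.mul_le_mul_right _ hK3
      _ = _ := by ring
  have e1 : 512 * t ^ 4 * (n ^ 2 * a * w + 4 * a * (a - 1) * n ^ 2 + 8 * N) ≤ a * n ^ 3 := by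
    have p1 := Nat.mul_le_mul_right (a * n ^ 2) h1
    have p2 := Nat.mul_le_mul_right (a * n ^ 2) h2
    have p3 : 3 * (512 * t ^ 4 * (n ^ 2 * a * w + 4 * a * (a - 1) * n ^ 2 + 8 * N)) =
        1536 * t ^ 4 * w * (a * n ^ 2) + 6144 * t ^ 4 * (a - 1) * (a * n ^ 2) +
          12288 * t ^ 4 * N := by ring
    have p4 : n * (a * n ^ 2) = a * n ^ 3 := by ring
    omega
  have e2 : 16 * t ^ 4 * (a * D ^ 4) ≤ a * n ^ 8 := by
    calc 16 * t ^ 4 * (a * D ^ 4)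
        ≤ 16 * t ^ 4 * (32 * n ^ 5 * (n ^ 2 * a * w + 4 * a * (a - 1) * n ^ 2 + 8 * N)) :=
          Nat.mul_le_mul_left _ e0
      _ = n ^ 5 * (512 * t ^ 4 * (n ^ 2 * a * w + 4 * a * (a - 1) * n ^ 2 + 8 * N)) := by ring
      _ ≤ n ^ 5 * (a * n ^ 3) := Nat.mul_le_mul_left _ e1
      _ = a * n ^ 8 := by ring
  have e3 : (D * (2 * t)) ^ 4 ≤ (n ^ 2) ^ 4 := by
    have : a * (D * (2 * t)) ^ 4 ≤ a * (n ^ 2) ^ 4 := by
      calc a * (D * (2 * t)) ^ 4 = 16 * t ^ 4 * (a * D ^ 4) := by ring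
        _ ≤ a * n ^ 8 := e2
        _ = a * (n ^ 2) ^ 4 := by ring
    exact Nat.le_of_mul_le_mul_left this (by omega)
  exact (Nat.pow_le_pow_iff_left (by norm_num)).mp e3

theorem stage2_param {n : ℕ} (A : Fin n → Fin n → Bool) (w g d p k x₀ b₀ M : ℕ)
    (hw : 1 ≤ w) (hg : 1 ≤ g) (hdg : 2 * d ≤ g) (hd : 1 ≤ d) (hk : 1 ≤ k) (hp : 1 ≤ p)
    (hM : w + g ≤ M * g)
    (hb : 2 * d * (n / w + 1) * n ≤ b₀ * g)
    (hV : Ncross A w < 4 * d ^ 2 * k ^ 2)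
    (hX : 2 * (1 + (n / w + 1) * M + ((n / w + 1) * M).choose 2) * (k ^ 2 + (x₀ + 1) * p) <
      (x₀ + 1 - (1 + (n / w + 1) * M + ((n / w + 1) * M).choose 2)) ^ 2) :
    ∃ B : Fin n → Fin n → Bool, IsFree I2 B ∧
      numDiff (thr (rk A w) w (lev A w)) B ≤
        n * (n / w + 1) * g + (b₀ + x₀ + 2 * k * n / p) * n := by
  obtain ⟨L, hL1, hL2, hL3⟩ := level_lemma n (n / w + 1) n g d p k x₀ b₀ M (lev A w)
    hg hdg hd hk hp
    (fun r j _ => by have := lev_le A w hw r j; omega)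
    (fun r => lev_sum_le A w r) hb
    (lt_of_le_of_lt (Vlev_le_Ncross A w) hV) hX
  refine ⟨thr (rk A w) w L, thr_free (rk A w) w L hL2, ?_⟩
  exact (numDiff_thr_le (rk A w) w (fun c c' h hr => rk_inj A w c c' h hr)
    (lev A w) L hL1).trans hL3

/-- Integer form of the removal lemma for the identity pattern: few copies imply closeness. -/
theorem i2_core (n t : ℕ) (ht : 1 ≤ t) (A : Fin n → Fin n → Bool)
    (hN : copyCount I2 A * (2 ^ 184 * t ^ 48) < n ^ 4) :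
    ∃ B : Fin n → Fin n → Bool, IsFree I2 B ∧ numDiff A B * t ≤ n ^ 2 := by
  by_cases hn : 2 ^ 45 * t ^ 12 ≤ n
  · obtain ⟨w, a, g, d, p, k, x₀, b₀, M, hw, ha, hg, hdg, hd, hk, hp, h1, h2, h3, hM, hb, hV,
      hX, hcost⟩ := params_ok n t (copyCount I2 A) ht hn hN
    have hNc := Ncross_le_copyCount A w
    have hS1 := stage1_param A t w a (copyCount I2 A) ht hw ha hNc h1 h2 h3
    obtain ⟨B, hB1, hB2⟩ := stage2_param A w g d p k x₀ b₀ M hw hg hdg hd hk hp hM hb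
      (lt_of_le_of_lt hNc hV) hX
    refine ⟨B, hB1, ?_⟩
    have htri := numDiff_triangle A (thr (rk A w) w (lev A w)) B
    have h5 : numDiff (thr (rk A w) w (lev A w)) B * (2 * t) ≤ n ^ 2 :=
      (Nat.mul_le_mul_right _ hB2).trans hcost
    have h6 : numDiff A B * (2 * t) ≤ numDiff A (thr (rk A w) w (lev A w)) * (2 * t) +
        numDiff (thr (rk A w) w (lev A w)) B * (2 * t) := by
      rw [← Nat.add_mul]
      exact Nat.mul_le_mul_right _ htri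
    have h7 : numDiff A B * (2 * t) = 2 * (numDiff A B * t) := by ring
    omega
  · push Not at hn
    have h0 : copyCount I2 A = 0 := by
      by_contra hc
      have h1 : 1 ≤ copyCount I2 A := Nat.one_le_iff_ne_zero.mpr hc
      have h2 : n ^ 4 < (2 ^ 45 * t ^ 12) ^ 4 := Nat.pow_lt_pow_left hn (by norm_num)
      have h3 : (2 ^ 45 * t ^ 12) ^ 4 = 2 ^ 180 * t ^ 48 := by ring
      have h4 : 2 ^ 180 * t ^ 48 ≤ 2 ^ 184 * t ^ 48 := Nat.mul_le_mul_right _ (by norm_num)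
      have h5 : 1 * (2 ^ 184 * t ^ 48) ≤ copyCount I2 A * (2 ^ 184 * t ^ 48) :=
        Nat.mul_le_mul_right _ h1
      omega
    refine ⟨A, ?_, ?_⟩
    · rw [isFree_iff_copies_eq_empty]
      exact Finset.card_eq_zero.mp h0
    · rw [numDiff_self]
      simp

/-- Polynomial removal for the ordered `2 × 2` identity pattern, with explicit constants. -/
theorem i2_removal (n : ℕ) (A : Fin n → Fin n → Bool) (ε : ℝ) (hε : 0 < ε) (hε1 : ε < 1)
    (hfar : IsFar I2 A ε) :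
    (ε / 3) ^ 48 / 2 ^ 184 * (n : ℝ) ^ 4 ≤ (copyCount I2 A : ℝ) := by
  rcases Nat.eq_zero_or_pos n with hn0 | hnpos
  · subst hn0
    simp
  by_contra hcon
  push Not at hcon
  set t : ℕ := ⌈2 / ε⌉₊ with ht
  have h2ε : 2 < 2 / ε := by
    rw [lt_div_iff₀ hε]
    linarith
  have ht1 : (2 / ε : ℝ) ≤ (t : ℝ) := Nat.le_ceil _
  have ht2 : (t : ℝ) < 2 / ε + 1 := Nat.ceil_lt_add_one (by positivity)
  have ht3 : (t : ℝ) ≤ 3 / ε := by
    have : (1 : ℝ) ≤ 1 / ε := by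
      rw [le_div_iff₀ hε]
      linarith
    have e : 3 / ε = 2 / ε + 1 / ε := by ring
    linarith
  have htpos : (0 : ℝ) < (t : ℝ) := by linarith
  have ht1' : 1 ≤ t := by
    have : (0 : ℝ) < (t : ℝ) := htpos
    exact_mod_cast this
  have hnR : (0 : ℝ) < (n : ℝ) := by exact_mod_cast hnpos
  have hkey : ((copyCount I2 A : ℝ)) * (2 ^ 184 * (t : ℝ) ^ 48) < (n : ℝ) ^ 4 := by
    have h1 : (t : ℝ) ^ 48 ≤ (3 / ε) ^ 48 := pow_le_pow_left₀ (le_of_lt htpos) ht3 48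
    have h2 : (0 : ℝ) ≤ (copyCount I2 A : ℝ) := Nat.cast_nonneg _
    have h3 : (0 : ℝ) < 2 ^ 184 * (3 / ε) ^ 48 := by positivity
    calc ((copyCount I2 A : ℝ)) * (2 ^ 184 * (t : ℝ) ^ 48)
        ≤ (copyCount I2 A : ℝ) * (2 ^ 184 * (3 / ε) ^ 48) := by
          apply mul_le_mul_of_nonneg_left _ h2
          apply mul_le_mul_of_nonneg_left h1 (by positivity)
      _ < ((ε / 3) ^ 48 / 2 ^ 184 * (n : ℝ) ^ 4) * (2 ^ 184 * (3 / ε) ^ 48) :=
          mul_lt_mul_of_pos_right hcon h3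
      _ = (n : ℝ) ^ 4 := by
          have hε' : ε ≠ 0 := ne_of_gt hε
          field_simp
  have hkeyN : copyCount I2 A * (2 ^ 184 * t ^ 48) < n ^ 4 := by
    exact_mod_cast hkey
  obtain ⟨B, hB1, hB2⟩ := i2_core n t ht1' A hkeyN
  have hB3 := hfar B hB1
  have hB4 : (numDiff A B : ℝ) * (t : ℝ) ≤ (n : ℝ) ^ 2 := by exact_mod_cast hB2
  have h5 : ε * (n : ℝ) ^ 2 * (t : ℝ) ≤ (n : ℝ) ^ 2 :=
    (mul_le_mul_of_nonneg_right hB3 (le_of_lt htpos)).trans hB4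
  have h6 : (2 : ℝ) ≤ ε * (t : ℝ) := by
    have := mul_le_mul_of_nonneg_left ht1 (le_of_lt hε)
    have e : ε * (2 / ε) = 2 := by field_simp
    linarith
  have hn2 : (0 : ℝ) < (n : ℝ) ^ 2 := by positivity
  nlinarith

end Vale.Agent.Lib.P037
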