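import Mathlib
import Vale.Agent.Lib.P037.Defs
import Vale.Agent.Lib.P037.Basic
import Vale.Agent.Lib.P037.I2Defs
import Vale.Agent.Lib.P037.I2Rev
import Vale.Agent.Lib.P037.I2Main
import Vale.Agent.Lib.P037.AllDefs
import Vale.Agent.Lib.P037.AllZ2
import Vale.Agent.Lib.P037.AllR2
import Vale.Agent.Lib.P037.AllSym

namespace Vale.Agent.Lib.P037

open Finset

theorem polyRemoval_I2 : PolyRemoval I2 := by
  refine ⟨1 / (3 ^ 48 * 2 ^ 184), by positivity, 48, ?_⟩
  intro n A ε hε hε1 hfar
  have h := i2_removal n A ε hε hε1 hfar
  have e : 1 / (3 ^ 48 * 2 ^ 184) * ε ^ 48 * (n : ℝ) ^ 4 =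
      (ε / 3) ^ 48 / 2 ^ 184 * (n : ℝ) ^ 4 := by
    rw [div_pow]
    ring
  rw [e]
  exact h

/-- A `2 × 2` pattern given by its four entries. -/
def mk2 (a b c d : Bool) : Fin 2 → Fin 2 → Bool :=
  fun i j => if i = 0 then (if j = 0 then a else b) else (if j = 0 then c else d)

theorem eq_mk2 (H : Fin 2 → Fin 2 → Bool) : H = mk2 (H 0 0) (H 0 1) (H 1 0) (H 1 1) := by
  funext i j
  fin_cases i <;> fin_cases j <;> simp [mk2]

theorem mk2_cases (hG : PolyRemoval G2) (a b c d : Bool) : PolyRemoval (mk2 a b c d) := by
  have hZ := polyRemoval_Z2
  have hR := polyRemoval_R2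
  have hI := polyRemoval_I2
  have e0000 : mk2 false false false false = Z2 := by
    funext i j; fin_cases i <;> fin_cases j <;> rfl
  have e1111 : mk2 true true true true = complM Z2 := by
    funext i j; fin_cases i <;> fin_cases j <;> rfl
  have e0101 : mk2 false true false true = R2 := by
    funext i j; fin_cases i <;> fin_cases j <;> rfl
  have e1010 : mk2 true false true false = revCols R2 := by
    funext i j; fin_cases i <;> fin_cases j <;> rfl
  have e0011 : mk2 false false true true = transpM R2 := by
    funext i j; fin_cases i <;> fin_cases j <;> rfl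
  have e1100 : mk2 true true false false = transpM (revCols R2) := by
    funext i j; fin_cases i <;> fin_cases j <;> rfl
  have e1001 : mk2 true false false true = I2 := by
    funext i j; fin_cases i <;> fin_cases j <;> rfl
  have e0110 : mk2 false true true false = revCols I2 := by
    funext i j; fin_cases i <;> fin_cases j <;> rfl
  have e1110 : mk2 true true true false = G2 := by
    funext i j; fin_cases i <;> fin_cases j <;> rfl
  have e1101 : mk2 true true false true = revCols G2 := by
    funext i j; fin_cases i <;> fin_cases j <;> rfl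
  have e1011 : mk2 true false true true = revRows G2 := by
    funext i j; fin_cases i <;> fin_cases j <;> rfl
  have e0111 : mk2 false true true true = revRows (revCols G2) := by
    funext i j; fin_cases i <;> fin_cases j <;> rfl
  have e0001 : mk2 false false false true = complM G2 := by
    funext i j; fin_cases i <;> fin_cases j <;> rfl
  have e0010 : mk2 false false true false = complM (revCols G2) := by
    funext i j; fin_cases i <;> fin_cases j <;> rfl
  have e0100 : mk2 false true false false = complM (revRows G2) := by
    funext i j; fin_cases i <;> fin_cases j <;> rfl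
  have e1000 : mk2 true false false false = complM (revRows (revCols G2)) := by
    funext i j; fin_cases i <;> fin_cases j <;> rfl
  cases a <;> cases b <;> cases c <;> cases d
  · rw [e0000]; exact hZ
  · rw [e0001]; exact polyRemoval_complM _ hG
  · rw [e0010]; exact polyRemoval_complM _ (polyRemoval_revCols _ hG)
  · rw [e0011]; exact polyRemoval_transpM _ hR
  · rw [e0100]; exact polyRemoval_complM _ (polyRemoval_revRows _ hG)
  · rw [e0101]; exact hR
  · rw [e0110]; exact polyRemoval_revCols _ hI
  · rw [e0111]; exact polyRemoval_revRows _ (polyRemoval_revCols _ hG)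
  · rw [e1000]; exact polyRemoval_complM _ (polyRemoval_revRows _ (polyRemoval_revCols _ hG))
  · rw [e1001]; exact hI
  · rw [e1010]; exact polyRemoval_revCols _ hR
  · rw [e1011]; exact polyRemoval_revRows _ hG
  · rw [e1100]; exact polyRemoval_transpM _ (polyRemoval_revCols _ hR)
  · rw [e1101]; exact polyRemoval_revCols _ hG
  · rw [e1110]; exact hG
  · rw [e1111]; exact polyRemoval_complM _ hZ

/-- If the pattern with rows `1 1` and `1 0` has the polynomial removal property, then so does
every `2 × 2` pattern. -/
theorem all_two_by_two (hG : PolyRemoval G2) (H : Fin 2 → Fin 2 → Bool) : PolyRemoval H := by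
  rw [eq_mk2 H]
  exact mk2_cases hG _ _ _ _

end Vale.Agent.Lib.P037
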