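import Mathlib
import Vale.Agent.Lib.P037.Defs

namespace Vale.Agent.Lib.P037

open Finset

/-- The polynomial removal property of a `k × k` pattern `H`: there are constants `c > 0` and `C`
such that every `n × n` matrix that is `ε`-far from `H`-free (with `0 < ε < 1`) contains at least
`c ε^C n^(2k)` ordered copies of `H`. -/
def PolyRemovalK {k : ℕ} (H : Fin k → Fin k → Bool) : Prop :=
  ∃ c : ℝ, 0 < c ∧ ∃ C : ℕ, ∀ (n : ℕ) (A : Fin n → Fin n → Bool) (ε : ℝ), 0 < ε → ε < 1 →
    IsFar H A ε → c * ε ^ C * (n : ℝ) ^ (2 * k) ≤ (copyCount H A : ℝ)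

/-- The pattern obtained from `H` by duplicating row `i₀` and column `j₀`: a
`(k+1) × (k+1)` pattern whose rows `i₀, i₀ + 1` are equal and whose columns `j₀, j₀ + 1` are
equal. -/
def dupPat {k : ℕ} (H : Fin k → Fin k → Bool) (i₀ j₀ : Fin k) : Fin (k + 1) → Fin (k + 1) → Bool :=
  fun i j => H (i₀.predAbove i) (j₀.predAbove j)

open Classical in
/-- Quadruples consisting of a copy `(r, c)` of `H` in `A`, a row `x` and a column `y` such that
replacing `r i₀` by `x` and / or `c j₀` by `y` again gives copies of `H`. -/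
noncomputable def dupZ {k n : ℕ} (H : Fin k → Fin k → Bool) (A : Fin n → Fin n → Bool)
    (i₀ j₀ : Fin k) : Finset (((Fin k → Fin n) × (Fin k → Fin n)) × (Fin n × Fin n)) :=
  univ.filter (fun q =>
    (q.1.1, q.1.2) ∈ copies H A ∧
    (Function.update q.1.1 i₀ q.2.1, q.1.2) ∈ copies H A ∧
    (q.1.1, Function.update q.1.2 j₀ q.2.2) ∈ copies H A ∧
    (Function.update q.1.1 i₀ q.2.1, Function.update q.1.2 j₀ q.2.2) ∈ copies H A)

end Vale.Agent.Lib.P037
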