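import Mathlib
import Vale.Agent.Lib.P037.Defs
import Vale.Agent.Lib.P037.Basic
import Vale.Agent.Lib.P037.BlowDefs

namespace Vale.Agent.Lib.P037
open Finset

/-- Every `0 × 0` pattern has the polynomial removal property (there is exactly one copy). -/
theorem polyRemovalK_zero (H : Fin 0 → Fin 0 → Bool) : PolyRemovalK H := by
  classical
  refine ⟨1, one_pos, 0, ?_⟩
  intro n A ε _ _ _
  have hc : copyCount H A = 1 := by
    unfold copyCount copies
    rw [Finset.filter_true_of_mem]
    · simp
    · intro p _
      refine ⟨?_, ?_, ?_⟩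
      · intro i; exact i.elim0
      · intro i; exact i.elim0
      · intro i; exact i.elim0
  rw [hc]
  simp

/-- Every `1 × 1` pattern has the polynomial removal property (with `c = 1`, `C = 1`). -/
theorem polyRemovalK_one (H : Fin 1 → Fin 1 → Bool) : PolyRemovalK H := by
  classical
  refine ⟨1, one_pos, 1, ?_⟩
  intro n A ε hε hε1 hfar
  have hfree : IsFree H (fun (_ _ : Fin n) => !(H 0 0)) := by
    intro r c _ _ h
    have h00 := h 0 0
    simp at h00
  have h1 := hfar _ hfree
  have hinj : numDiff A (fun _ _ => !(H 0 0)) ≤ copyCount H A := by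
    unfold numDiff copyCount
    apply Finset.card_le_card_of_injOn
      (fun p : Fin n × Fin n => ((fun _ : Fin 1 => p.1), (fun _ : Fin 1 => p.2)))
    · intro p hp
      rw [Finset.mem_coe, Finset.mem_filter] at hp
      have hp := hp.2
      rw [Finset.mem_coe, mem_copies]
      refine ⟨Subsingleton.strictMono _, Subsingleton.strictMono _, ?_⟩
      intro i j
      have hi : i = 0 := Subsingleton.elim _ _
      have hj : j = 0 := Subsingleton.elim _ _
      subst hi; subst hj
      show A p.1 p.2 = H 0 0
      cases hA : A p.1 p.2 <;> cases hH : H 0 0 <;> simp_all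
    · intro p _ q _ hpq
      simp only [Prod.mk.injEq] at hpq
      have h1 := congrFun hpq.1 0
      have h2 := congrFun hpq.2 0
      exact Prod.ext h1 h2
  have hcast : (numDiff A (fun _ _ => !(H 0 0)) : ℝ) ≤ (copyCount H A : ℝ) := by
    exact_mod_cast hinj
  calc 1 * ε ^ 1 * (n : ℝ) ^ (2 * 1) = ε * (n : ℝ) ^ 2 := by ring
    _ ≤ (numDiff A (fun _ _ => !(H 0 0)) : ℝ) := h1
    _ ≤ (copyCount H A : ℝ) := hcast

/-- A non-surjective map into `Fin 2` is constant. -/
theorem blowBlock_const_of_not_surj {k : ℕ} (f : Fin k → Fin 2)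
    (hf : ¬ Function.Surjective f) : ∃ a : Fin 2, ∀ i, f i = a := by
  by_contra hcon
  apply hf
  simp only [not_exists, not_forall] at hcon
  obtain ⟨i0, hi0⟩ := hcon 0
  obtain ⟨i1, hi1⟩ := hcon 1
  intro y
  fin_cases y
  · refine ⟨i1, ?_⟩
    have : f i1 = 0 ∨ f i1 = 1 := by
      generalize f i1 = z at *
      fin_cases z <;> simp
    rcases this with h | h
    · exact h
    · exact absurd h hi1
  · refine ⟨i0, ?_⟩
    have : f i0 = 0 ∨ f i0 = 1 := by
      generalize f i0 = z at *
      fin_cases z <;> simp
    rcases this with h | h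
    · exact absurd h hi0
    · exact h

/-- From closure under monotone surjective blow-ups and the `2 × 2` case: every `k × k` pattern
made of at most four constant blocks has the polynomial removal property. -/
theorem block_of_blow
    (hblow : ∀ (k m : ℕ) (H : Fin k → Fin k → Bool), PolyRemovalK H →
      ∀ (f g : Fin m → Fin k), Monotone f → Monotone g → Function.Surjective f →
        Function.Surjective g → PolyRemovalK (fun i j => H (f i) (g j)))
    (h2 : ∀ H₀ : Fin 2 → Fin 2 → Bool, PolyRemovalK H₀)
    {k : ℕ} (H₀ : Fin 2 → Fin 2 → Bool) (f g : Fin k → Fin 2) (hf : Monotone f) (hg : Monotone g) :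
    PolyRemovalK (fun i j => H₀ (f i) (g j)) := by
  rcases Nat.eq_zero_or_pos k with hk | hk
  · subst hk
    exact polyRemovalK_zero _
  by_cases hfs : Function.Surjective f
  · by_cases hgs : Function.Surjective g
    · exact hblow 2 k H₀ (h2 H₀) f g hf hg hfs hgs
    · obtain ⟨b, hb⟩ := blowBlock_const_of_not_surj g hgs
      have heq : (fun i j => H₀ (f i) (g j)) = (fun i j => (fun x (_ : Fin 2) => H₀ x b) (f i) (f j)) := by
        funext i j
        simp [hb j]
      rw [heq]
      exact hblow 2 k (fun x _ => H₀ x b) (h2 _) f f hf hf hfs hfs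
  · obtain ⟨a, ha⟩ := blowBlock_const_of_not_surj f hfs
    by_cases hgs : Function.Surjective g
    · have heq : (fun i j => H₀ (f i) (g j)) = (fun i j => (fun (_ : Fin 2) y => H₀ a y) (g i) (g j)) := by
        funext i j
        simp [ha i]
      rw [heq]
      exact hblow 2 k (fun _ y => H₀ a y) (h2 _) g g hg hg hgs hgs
    · obtain ⟨b, hb⟩ := blowBlock_const_of_not_surj g hgs
      have heq : (fun i j => H₀ (f i) (g j)) =
          (fun i j => (fun (_ _ : Fin 1) => H₀ a b) ((fun _ : Fin k => (0 : Fin 1)) i)
            ((fun _ : Fin k => (0 : Fin 1)) j)) := by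
        funext i j
        simp [ha i, hb j]
      rw [heq]
      have hu : Monotone (fun _ : Fin k => (0 : Fin 1)) := monotone_const
      have hus : Function.Surjective (fun _ : Fin k => (0 : Fin 1)) := by
        intro y
        exact ⟨⟨0, hk⟩, Subsingleton.elim _ _⟩
      exact hblow 1 k (fun _ _ => H₀ a b) (polyRemovalK_one _) _ _ hu hu hus hus

end Vale.Agent.Lib.P037
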