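import Mathlib
import Vale.Agent.Lib.P037.Defs
import Vale.Agent.Lib.P037.Basic
import Vale.Agent.Lib.P037.BlowDefs
namespace Vale.Agent.Lib.P037
open Finset

/-- Cauchy-Schwarz over the fibres of a key map: the square of the size of a finite set is at
most the number of keys times the number of pairs with equal keys. -/
theorem blowcs_key {α β : Type*} [Fintype β] [DecidableEq β] (S : Finset α) (p : α → β) :
    S.card ^ 2 ≤ Fintype.card β * ((S ×ˢ S).filter (fun q : α × α => p q.1 = p q.2)).card := by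
  have h1 : S.card = ∑ b : β, (S.filter (fun a => p a = b)).card :=
    Finset.card_eq_sum_card_fiberwise (fun a _ => mem_univ _)
  have h2 : ((S ×ˢ S).filter (fun q : α × α => p q.1 = p q.2)).card =
      ∑ b : β, (S.filter (fun a => p a = b)).card ^ 2 := by
    rw [Finset.card_eq_sum_card_fiberwise (f := fun q : α × α => p q.1) (t := univ)
      (fun _ _ => mem_univ _)]
    refine sum_congr rfl fun b _ => ?_
    rw [sq, ← card_product]
    congr 1
    ext ⟨a, a'⟩
    simp only [mem_filter, mem_product]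
    constructor
    · rintro ⟨⟨⟨ha, ha'⟩, h⟩, hb⟩
      exact ⟨⟨ha, hb⟩, ⟨ha', by rw [← h]; exact hb⟩⟩
    · rintro ⟨⟨ha, hb⟩, ⟨ha', hb'⟩⟩
      exact ⟨⟨⟨ha, ha'⟩, by rw [hb, hb']⟩, hb⟩
  rw [h1, h2, ← Finset.card_univ]
  exact sq_sum_le_card_mul_sum_sq

theorem blowcs_card_ne {k : ℕ} (i₀ : Fin k) :
    Fintype.card {i : Fin k // i ≠ i₀} = k - 1 := by
  have h := Fintype.card_subtype_compl (fun i : Fin k => i = i₀)
  rw [Fintype.card_subtype_eq, Fintype.card_fin] at h
  exact h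

/-- Two functions that agree off `i₀`: updating the first at `i₀` gives the second. -/
theorem blowcs_update_eq {k n : ℕ} {i₀ : Fin k} {r r' : Fin k → Fin n}
    (h : (fun i : {i : Fin k // i ≠ i₀} => r i.1) = fun i : {i : Fin k // i ≠ i₀} => r' i.1) :
    Function.update r i₀ (r' i₀) = r' := by
  funext i
  by_cases hi : i = i₀
  · rw [hi, Function.update_self]
  · rw [Function.update_of_ne hi]
    exact congrFun h ⟨i, hi⟩

/-- First Cauchy-Schwarz step: duplicate the row `i₀`. -/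
theorem blowcs_step1 {k n : ℕ} (H : Fin k → Fin k → Bool) (A : Fin n → Fin n → Bool)
    (i₀ : Fin k) :
    (copyCount H A) ^ 2 ≤ (n ^ (k - 1) * n ^ k) *
      (univ.filter (fun u : ((Fin k → Fin n) × (Fin k → Fin n)) × Fin n =>
        u.1 ∈ copies H A ∧ (Function.update u.1.1 i₀ u.2, u.1.2) ∈ copies H A)).card := by
  classical
  have hk := blowcs_key (copies H A)
    (fun q : (Fin k → Fin n) × (Fin k → Fin n) =>
      ((fun i : {i : Fin k // i ≠ i₀} => q.1 i.1), q.2))
  have hcard : Fintype.card (({i : Fin k // i ≠ i₀} → Fin n) × (Fin k → Fin n)) =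
      n ^ (k - 1) * n ^ k := by
    rw [Fintype.card_prod, Fintype.card_fun, Fintype.card_fun, blowcs_card_ne, Fintype.card_fin,
      Fintype.card_fin]
  rw [hcard] at hk
  refine le_trans hk (Nat.mul_le_mul_left _ ?_)
  refine card_le_card_of_injOn
    (fun q : ((Fin k → Fin n) × (Fin k → Fin n)) × ((Fin k → Fin n) × (Fin k → Fin n)) =>
      (q.1, q.2.1 i₀)) ?_ ?_
  · intro q hq
    simp only [mem_coe, mem_filter, mem_product, Prod.mk.injEq] at hq
    obtain ⟨⟨h1, h2⟩, h3, h4⟩ := hq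
    simp only [mem_coe, mem_filter, mem_univ, true_and]
    refine ⟨h1, ?_⟩
    rw [blowcs_update_eq h3, h4]
    exact h2
  · intro q hq q' hq' heq
    simp only [mem_coe, mem_filter, mem_product, Prod.mk.injEq] at hq hq'
    obtain ⟨-, h3, h4⟩ := hq
    obtain ⟨-, h3', h4'⟩ := hq'
    simp only [Prod.mk.injEq] at heq
    obtain ⟨e1, e2⟩ := heq
    have er : q.2.1 = q'.2.1 := by
      rw [← blowcs_update_eq h3, ← blowcs_update_eq h3', e1, e2]
    have ec : q.2.2 = q'.2.2 := by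
      rw [← h4, ← h4', e1]
    exact Prod.ext e1 (Prod.ext er ec)

/-- Second Cauchy-Schwarz step: duplicate the column `j₀`. -/
theorem blowcs_step2 {k n : ℕ} (H : Fin k → Fin k → Bool) (A : Fin n → Fin n → Bool)
    (i₀ j₀ : Fin k) :
    (univ.filter (fun u : ((Fin k → Fin n) × (Fin k → Fin n)) × Fin n =>
        u.1 ∈ copies H A ∧ (Function.update u.1.1 i₀ u.2, u.1.2) ∈ copies H A)).card ^ 2 ≤
      (n ^ k * (n * n ^ (k - 1))) * (dupZ H A i₀ j₀).card := by
  classical
  have hk := blowcs_key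
    (univ.filter (fun u : ((Fin k → Fin n) × (Fin k → Fin n)) × Fin n =>
        u.1 ∈ copies H A ∧ (Function.update u.1.1 i₀ u.2, u.1.2) ∈ copies H A))
    (fun u : ((Fin k → Fin n) × (Fin k → Fin n)) × Fin n =>
      (u.1.1, u.2, (fun j : {j : Fin k // j ≠ j₀} => u.1.2 j.1)))
  have hcard : Fintype.card ((Fin k → Fin n) × Fin n × ({j : Fin k // j ≠ j₀} → Fin n)) =
      n ^ k * (n * n ^ (k - 1)) := by
    rw [Fintype.card_prod, Fintype.card_prod, Fintype.card_fun, Fintype.card_fun,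
      blowcs_card_ne, Fintype.card_fin, Fintype.card_fin]
  rw [hcard] at hk
  refine le_trans hk (Nat.mul_le_mul_left _ ?_)
  refine card_le_card_of_injOn
    (fun q : (((Fin k → Fin n) × (Fin k → Fin n)) × Fin n) ×
        (((Fin k → Fin n) × (Fin k → Fin n)) × Fin n) =>
      (q.1.1, (q.1.2, q.2.1.2 j₀))) ?_ ?_
  · intro q hq
    simp only [mem_coe, mem_product, mem_filter, mem_univ, true_and,
      Prod.mk.injEq] at hq
    obtain ⟨⟨⟨h1, h2⟩, h1', h2'⟩, e1, e2, e3⟩ := hq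
    have hc : Function.update q.1.1.2 j₀ (q.2.1.2 j₀) = q.2.1.2 := blowcs_update_eq e3
    unfold dupZ
    simp only [mem_coe, mem_filter, mem_univ, true_and]
    refine ⟨h1, h2, ?_, ?_⟩
    · rw [hc, e1]
      exact h1'
    · rw [hc, e1, e2]
      exact h2'
  · intro q hq q' hq' heq
    simp only [mem_coe, mem_product, mem_filter, mem_univ, true_and,
      Prod.mk.injEq] at hq hq'
    obtain ⟨-, e1, e2, e3⟩ := hq
    obtain ⟨-, e1', e2', e3'⟩ := hq'
    simp only [Prod.mk.injEq] at heq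
    obtain ⟨a1, a2, a3⟩ := heq
    have ec : q.2.1.2 = q'.2.1.2 := by
      rw [← blowcs_update_eq e3, ← blowcs_update_eq e3', a1, a3]
    have er : q.2.1.1 = q'.2.1.1 := by
      rw [← e1, ← e1', a1]
    have ex : q.2.2 = q'.2.2 := by
      rw [← e2, ← e2', a2]
    exact Prod.ext (Prod.ext a1 a2) (Prod.ext (Prod.ext er ec) ex)

theorem dup_count_cs {k n : ℕ} (H : Fin k → Fin k → Bool) (A : Fin n → Fin n → Bool)
    (i₀ j₀ : Fin k) :
    (copyCount H A) ^ 4 ≤ n ^ (6 * k - 2) * (dupZ H A i₀ j₀).card := by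
  have hk : 1 ≤ k := Nat.succ_le_of_lt (lt_of_le_of_lt (Nat.zero_le _) i₀.isLt)
  have h1 := blowcs_step1 H A i₀
  have h2 := blowcs_step2 H A i₀ j₀
  have e : n ^ (6 * k - 2) = (n ^ (k - 1) * n ^ k) ^ 2 * (n ^ k * (n * n ^ (k - 1))) := by
    obtain ⟨m, rfl⟩ : ∃ m, k = m + 1 := ⟨k - 1, by omega⟩
    have e1 : 6 * (m + 1) - 2 = 6 * m + 4 := by omega
    rw [Nat.add_sub_cancel, e1]
    ring
  rw [e]
  calc (copyCount H A) ^ 4 = ((copyCount H A) ^ 2) ^ 2 := by ring
    _ ≤ ((n ^ (k - 1) * n ^ k) *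
        (univ.filter (fun u : ((Fin k → Fin n) × (Fin k → Fin n)) × Fin n =>
          u.1 ∈ copies H A ∧ (Function.update u.1.1 i₀ u.2, u.1.2) ∈ copies H A)).card) ^ 2 :=
        Nat.pow_le_pow_left h1 2
    _ = (n ^ (k - 1) * n ^ k) ^ 2 *
        (univ.filter (fun u : ((Fin k → Fin n) × (Fin k → Fin n)) × Fin n =>
          u.1 ∈ copies H A ∧ (Function.update u.1.1 i₀ u.2, u.1.2) ∈ copies H A)).card ^ 2 := by
        ring
    _ ≤ (n ^ (k - 1) * n ^ k) ^ 2 * ((n ^ k * (n * n ^ (k - 1))) * (dupZ H A i₀ j₀).card) :=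
        Nat.mul_le_mul_left _ h2
    _ = (n ^ (k - 1) * n ^ k) ^ 2 * (n ^ k * (n * n ^ (k - 1))) * (dupZ H A i₀ j₀).card := by
        ring

end Vale.Agent.Lib.P037
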