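import Mathlib
import Vale.Agent.Lib.P037.Defs
import Vale.Agent.Lib.P037.Basic
import Vale.Agent.Lib.P037.BlowDefs
namespace Vale.Agent.Lib.P037
open Finset

/-- A copy of the duplicated pattern contains a copy of the original pattern: a matrix that is
free of `H` is free of the pattern obtained by duplicating a row and a column of `H`. -/
theorem dup_free {k n : ℕ} (H : Fin k → Fin k → Bool) (i₀ j₀ : Fin k)
    (B : Fin n → Fin n → Bool) (h : IsFree H B) : IsFree (dupPat H i₀ j₀) B := by
  intro r c hr hc hcopy
  refine h (r ∘ (Fin.castSucc i₀).succAbove) (c ∘ (Fin.castSucc j₀).succAbove)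
    (hr.comp (Fin.strictMono_succAbove _)) (hc.comp (Fin.strictMono_succAbove _)) ?_
  intro i j
  have h1 := hcopy ((Fin.castSucc i₀).succAbove i) ((Fin.castSucc j₀).succAbove j)
  unfold dupPat at h1
  rw [Fin.predAbove_succAbove, Fin.predAbove_succAbove] at h1
  exact h1

end Vale.Agent.Lib.P037
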