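import Mathlib
import Vale.Agent.Lib.P037.Defs
import Vale.Agent.Lib.P037.Basic
import Vale.Agent.Lib.P037.BlowDefs

namespace Vale.Agent.Lib.P037

open Finset

/-- A monotone non-injective map on `Fin (m + 1)` has an adjacent collision. -/
theorem blowgen_adjacent {m k : ℕ} (f : Fin (m + 1) → Fin k) (hf : Monotone f)
    (hni : ¬ Function.Injective f) : ∃ i₀ : Fin m, f i₀.castSucc = f i₀.succ := by
  by_contra hcon
  push Not at hcon
  apply hni
  have hs : StrictMono f := by
    rw [Fin.strictMono_iff_lt_succ]
    intro i
    exact lt_of_le_of_ne (hf (Fin.castSucc_lt_succ).le) (hcon i)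
  exact hs.injective

/-- Collapsing at an adjacent collision and re-expanding gives the same map. -/
theorem blowgen_collapse {m k : ℕ} (f : Fin (m + 1) → Fin k) (i₀ : Fin m)
    (h0 : f i₀.castSucc = f i₀.succ) (i : Fin (m + 1)) :
    f ((Fin.succ i₀).succAbove (i₀.predAbove i)) = f i := by
  by_cases hi : i = i₀.succ
  · subst hi
    rw [Fin.predAbove_succ_self, Fin.succAbove_succ_self, h0]
  · rw [Fin.succ_succAbove_predAbove hi]

/-- The collapsed map is still surjective. -/
theorem blowgen_collapse_surj {m k : ℕ} (f : Fin (m + 1) → Fin k) (i₀ : Fin m)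
    (h0 : f i₀.castSucc = f i₀.succ) (hfs : Function.Surjective f) :
    Function.Surjective (f ∘ (Fin.succ i₀).succAbove) := by
  intro y
  obtain ⟨i, rfl⟩ := hfs y
  exact ⟨i₀.predAbove i, blowgen_collapse f i₀ h0 i⟩

/-- The case of injective index maps: the pattern is `H` itself. -/
theorem blowgen_of_injective {k m : ℕ} (H : Fin k → Fin k → Bool) (h : PolyRemovalK H)
    (f g : Fin m → Fin k) (hf : Monotone f) (hg : Monotone g)
    (hfs : Function.Surjective f) (hgs : Function.Surjective g)
    (hfi : Function.Injective f) :
    PolyRemovalK (fun i j => H (f i) (g j)) := by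
  have hmk : m = k := by
    have h1 := Fintype.card_le_of_injective f hfi
    have h2 := Fintype.card_le_of_surjective f hfs
    simp only [Fintype.card_fin] at h1 h2
    omega
  subst hmk
  have hgi : Function.Injective g := Finite.injective_iff_surjective.mpr hgs
  have hf' : f = id :=
    (StrictMono.range_inj (hf.strictMono_of_injective hfi) strictMono_id).mp
      (by rw [hfs.range_eq, Set.range_id])
  have hg' : g = id :=
    (StrictMono.range_inj (hg.strictMono_of_injective hgi) strictMono_id).mp
      (by rw [hgs.range_eq, Set.range_id])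
  subst hf' hg'
  exact h

theorem blow_of_dup
    (hstep : ∀ (k : ℕ) (H : Fin k → Fin k → Bool) (i₀ j₀ : Fin k),
      PolyRemovalK H → PolyRemovalK (dupPat H i₀ j₀))
    {k m : ℕ} (H : Fin k → Fin k → Bool) (h : PolyRemovalK H)
    (f g : Fin m → Fin k) (hf : Monotone f) (hg : Monotone g)
    (hfs : Function.Surjective f) (hgs : Function.Surjective g) :
    PolyRemovalK (fun i j => H (f i) (g j)) := by
  induction m with
  | zero =>
    exact blowgen_of_injective H h f g hf hg hfs hgs (fun a => a.elim0)
  | succ m ih =>
    by_cases hfi : Function.Injective f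
    · exact blowgen_of_injective H h f g hf hg hfs hgs hfi
    · have hgi : ¬ Function.Injective g := by
        intro hgi
        have h1 := Fintype.card_le_of_injective g hgi
        have h2 := Fintype.card_le_of_surjective g hgs
        simp only [Fintype.card_fin] at h1 h2
        have hmk : m + 1 = k := by omega
        subst hmk
        exact hfi (Finite.injective_iff_surjective.mpr hfs)
      obtain ⟨i₀, hi₀⟩ := blowgen_adjacent f hf hfi
      obtain ⟨j₀, hj₀⟩ := blowgen_adjacent g hg hgi
      have hf' : Monotone (f ∘ (Fin.succ i₀).succAbove) :=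
        hf.comp (Fin.strictMono_succAbove _).monotone
      have hg' : Monotone (g ∘ (Fin.succ j₀).succAbove) :=
        hg.comp (Fin.strictMono_succAbove _).monotone
      have key := ih (f ∘ (Fin.succ i₀).succAbove) (g ∘ (Fin.succ j₀).succAbove) hf' hg'
        (blowgen_collapse_surj f i₀ hi₀ hfs) (blowgen_collapse_surj g j₀ hj₀ hgs)
      have hdup := hstep m _ i₀ j₀ key
      have heq : (fun i j => H (f i) (g j)) =
          dupPat (fun i j => H ((f ∘ (Fin.succ i₀).succAbove) i)
            ((g ∘ (Fin.succ j₀).succAbove) j)) i₀ j₀ := by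
        funext i j
        simp only [dupPat, Function.comp_apply]
        rw [blowgen_collapse f i₀ hi₀ i, blowgen_collapse g j₀ hj₀ j]
      rw [heq]
      exact hdup

end Vale.Agent.Lib.P037
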