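import Mathlib
import Vale.Agent.Lib.P037.Defs
import Vale.Agent.Lib.P037.Basic
import Vale.Agent.Lib.P037.BlowDefs
namespace Vale.Agent.Lib.P037
open Finset

/-- the position at which the new row index `x` is inserted next to position `i₀` -/
def blowinjPos {k n : ℕ} (r : Fin k → Fin n) (i₀ : Fin k) (x : Fin n) : Fin (k + 1) :=
  if x < r i₀ then i₀.castSucc else i₀.succ

/-- the row map `r` with the extra index `x` inserted next to position `i₀` -/
def blowinjIns {k n : ℕ} (r : Fin k → Fin n) (i₀ : Fin k) (x : Fin n) : Fin (k + 1) → Fin n :=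
  Fin.insertNth (α := fun _ => Fin n) (blowinjPos r i₀ x) x r

theorem blowinj_lt_of_lt {k n : ℕ} {r : Fin k → Fin n} {i₀ : Fin k} {x : Fin n}
    (hu : StrictMono (Function.update r i₀ x)) {i : Fin k} (h : i < i₀) : r i < x := by
  have := hu h
  rwa [Function.update_of_ne (ne_of_lt h), Function.update_self] at this

theorem blowinj_lt_of_gt {k n : ℕ} {r : Fin k → Fin n} {i₀ : Fin k} {x : Fin n}
    (hu : StrictMono (Function.update r i₀ x)) {i : Fin k} (h : i₀ < i) : x < r i := by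
  have := hu h
  rwa [Function.update_self, Function.update_of_ne (ne_of_gt h)] at this

theorem blowinj_strictMono {k n : ℕ} {r : Fin k → Fin n} {i₀ : Fin k} {x : Fin n}
    (hr : StrictMono r) (hu : StrictMono (Function.update r i₀ x)) (hx : x ≠ r i₀) :
    StrictMono (blowinjIns r i₀ x) := by
  unfold blowinjIns blowinjPos
  split_ifs with hlt
  · rw [Fin.strictMono_insertNth_iff]
    refine ⟨hr, fun i hi => ?_, fun i hi => ?_⟩
    · exact blowinj_lt_of_lt hu (Fin.castSucc_lt_castSucc_iff.mp hi)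
    · have hle : i₀ ≤ i := Fin.castSucc_le_castSucc_iff.mp hi
      rcases eq_or_lt_of_le hle with h | h
      · rw [← h]; exact hlt
      · exact blowinj_lt_of_gt hu h
  · have hgt : r i₀ < x := lt_of_le_of_ne (not_lt.mp hlt) (Ne.symm hx)
    rw [Fin.strictMono_insertNth_iff]
    refine ⟨hr, fun i hi => ?_, fun i hi => ?_⟩
    · have hle : i ≤ i₀ := Fin.castSucc_lt_succ_iff.mp hi
      rcases eq_or_lt_of_le hle with h | h
      · rw [h]; exact hgt
      · exact blowinj_lt_of_lt hu h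
    · exact blowinj_lt_of_gt hu (Fin.succ_le_castSucc_iff.mp hi)

theorem blowinj_predAbove_succ {k : ℕ} (i₀ m : Fin k) :
    i₀.predAbove (i₀.succ.succAbove m) = m := by
  rcases le_or_gt m i₀ with h | h
  · rw [Fin.succAbove_of_castSucc_lt _ _ (Fin.castSucc_lt_succ_iff.mpr h),
      Fin.predAbove_castSucc_of_le _ _ h]
  · rw [Fin.succAbove_of_le_castSucc _ _ (Fin.succ_le_castSucc_iff.mpr h),
      Fin.predAbove_succ_of_le _ _ h.le]

theorem blowinj_eval {k n : ℕ} (r : Fin k → Fin n) (i₀ : Fin k) (x : Fin n) (i : Fin (k + 1)) :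
    blowinjIns r i₀ x i = r (i₀.predAbove i) ∨
      blowinjIns r i₀ x i = Function.update r i₀ x (i₀.predAbove i) := by
  unfold blowinjIns blowinjPos
  split_ifs with hlt
  · refine Fin.succAboveCases i₀.castSucc ?_ ?_ i
    · right
      rw [Fin.insertNth_apply_same, Fin.predAbove_castSucc_self, Function.update_self]
    · intro m
      left
      rw [Fin.insertNth_apply_succAbove, Fin.predAbove_succAbove]
  · refine Fin.succAboveCases i₀.succ ?_ ?_ i
    · right
      rw [Fin.insertNth_apply_same, Fin.predAbove_succ_self, Function.update_self]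
    · intro m
      left
      rw [Fin.insertNth_apply_succAbove, blowinj_predAbove_succ]

theorem blowinj_inj {k n : ℕ} (i₀ : Fin k) {r r₂ : Fin k → Fin n} {x x₂ : Fin n}
    (hb : decide (x < r i₀) = decide (x₂ < r₂ i₀))
    (h : blowinjIns r i₀ x = blowinjIns r₂ i₀ x₂) : r = r₂ ∧ x = x₂ := by
  have hp : blowinjPos r i₀ x = blowinjPos r₂ i₀ x₂ := by
    unfold blowinjPos
    have hiff : x < r i₀ ↔ x₂ < r₂ i₀ := by simpa using hb
    by_cases h1 : x < r i₀
    · rw [if_pos h1, if_pos (hiff.mp h1)]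
    · rw [if_neg h1, if_neg (fun h2 => h1 (hiff.mpr h2))]
  unfold blowinjIns at h
  rw [← hp] at h
  constructor
  · funext m
    have := congrFun h ((blowinjPos r i₀ x).succAbove m)
    rwa [Fin.insertNth_apply_succAbove, Fin.insertNth_apply_succAbove] at this
  · have := congrFun h (blowinjPos r i₀ x)
    rwa [Fin.insertNth_apply_same, Fin.insertNth_apply_same] at this

theorem blowinj_card_cod (k n : ℕ) :
    (univ : Finset (((Fin k → Fin n) × (Fin k → Fin n)) × Fin n)).card = n ^ (2 * k + 1) := by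
  rw [Finset.card_univ, Fintype.card_prod, Fintype.card_prod, Fintype.card_fun, Fintype.card_fin,
    Fintype.card_fin]
  ring

theorem dup_count_inj {k n : ℕ} (H : Fin k → Fin k → Bool) (A : Fin n → Fin n → Bool)
    (i₀ j₀ : Fin k) :
    (dupZ H A i₀ j₀).card ≤ 4 * copyCount (dupPat H i₀ j₀) A + 2 * n ^ (2 * k + 1) := by
  classical
  obtain ⟨D1, hD1⟩ : ∃ D1, D1 = (dupZ H A i₀ j₀).filter (fun q => q.2.1 = q.1.1 i₀) := ⟨_, rfl⟩
  obtain ⟨D2, hD2⟩ : ∃ D2, D2 = (dupZ H A i₀ j₀).filter (fun q => q.2.2 = q.1.2 j₀) := ⟨_, rfl⟩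
  obtain ⟨Z, hZ⟩ : ∃ Z, Z = (dupZ H A i₀ j₀).filter
      (fun q => q.2.1 ≠ q.1.1 i₀ ∧ q.2.2 ≠ q.1.2 j₀) := ⟨_, rfl⟩
  have hcover : dupZ H A i₀ j₀ ⊆ Z ∪ (D1 ∪ D2) := by
    intro q hq
    rw [hZ, hD1, hD2]
    simp only [Finset.mem_union, Finset.mem_filter]
    by_cases h1 : q.2.1 = q.1.1 i₀
    · exact Or.inr (Or.inl ⟨hq, h1⟩)
    · by_cases h2 : q.2.2 = q.1.2 j₀
      · exact Or.inr (Or.inr ⟨hq, h2⟩)
      · exact Or.inl ⟨hq, h1, h2⟩
  have hc1 : D1.card ≤ n ^ (2 * k + 1) := by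
    rw [← blowinj_card_cod k n]
    apply Finset.card_le_card_of_injOn (fun q => (q.1, q.2.2)) (fun q _ => Finset.mem_univ _)
    intro q hq q' hq' heq
    rw [Finset.mem_coe, hD1, Finset.mem_filter] at hq hq'
    simp only [Prod.mk.injEq] at heq
    obtain ⟨e1, e2⟩ := heq
    have e3 : q.2.1 = q'.2.1 := by rw [hq.2, hq'.2, e1]
    exact Prod.ext e1 (Prod.ext e3 e2)
  have hc2 : D2.card ≤ n ^ (2 * k + 1) := by
    rw [← blowinj_card_cod k n]
    apply Finset.card_le_card_of_injOn (fun q => (q.1, q.2.1)) (fun q _ => Finset.mem_univ _)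
    intro q hq q' hq' heq
    rw [Finset.mem_coe, hD2, Finset.mem_filter] at hq hq'
    simp only [Prod.mk.injEq] at heq
    obtain ⟨e1, e2⟩ := heq
    have e3 : q.2.2 = q'.2.2 := by rw [hq.2, hq'.2, e1]
    exact Prod.ext e1 (Prod.ext e2 e3)
  have hc3 : Z.card ≤ 4 * copyCount (dupPat H i₀ j₀) A := by
    have hcard : ((copies (dupPat H i₀ j₀) A) ×ˢ (univ : Finset (Bool × Bool))).card =
        4 * copyCount (dupPat H i₀ j₀) A := by
      rw [Finset.card_product, copyCount, Finset.card_univ]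
      simp [mul_comm]
    rw [← hcard]
    apply Finset.card_le_card_of_injOn
      (fun q => ((blowinjIns q.1.1 i₀ q.2.1, blowinjIns q.1.2 j₀ q.2.2),
        (decide (q.2.1 < q.1.1 i₀), decide (q.2.2 < q.1.2 j₀))))
    · intro q hq
      rw [Finset.mem_coe, hZ, Finset.mem_filter] at hq
      obtain ⟨hq, hx, hy⟩ := hq
      unfold dupZ at hq
      rw [Finset.mem_filter] at hq
      obtain ⟨-, m1, m2, m3, m4⟩ := hq
      rw [mem_copies] at m1 m2 m3 m4
      rw [Finset.mem_coe, Finset.mem_product]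
      refine ⟨?_, Finset.mem_univ _⟩
      rw [mem_copies]
      refine ⟨blowinj_strictMono m1.1 m2.1 hx, blowinj_strictMono m1.2.1 m3.2.1 hy, ?_⟩
      intro i j
      unfold dupPat
      rcases blowinj_eval q.1.1 i₀ q.2.1 i with e1 | e1 <;>
        rcases blowinj_eval q.1.2 j₀ q.2.2 j with e2 | e2
      · simp only [e1, e2]; exact m1.2.2 _ _
      · simp only [e1, e2]; exact m3.2.2 _ _
      · simp only [e1, e2]; exact m2.2.2 _ _
      · simp only [e1, e2]; exact m4.2.2 _ _
    · intro q _ q' _ heq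
      simp only [Prod.mk.injEq] at heq
      obtain ⟨⟨e1, e2⟩, b1, b2⟩ := heq
      obtain ⟨a1, a2⟩ := blowinj_inj i₀ b1 e1
      obtain ⟨a3, a4⟩ := blowinj_inj j₀ b2 e2
      exact Prod.ext (Prod.ext a1 a3) (Prod.ext a2 a4)
  calc (dupZ H A i₀ j₀).card ≤ (Z ∪ (D1 ∪ D2)).card := Finset.card_le_card hcover
    _ ≤ Z.card + (D1 ∪ D2).card := Finset.card_union_le _ _
    _ ≤ Z.card + (D1.card + D2.card) := Nat.add_le_add_left (Finset.card_union_le _ _) _
    _ ≤ 4 * copyCount (dupPat H i₀ j₀) A + 2 * n ^ (2 * k + 1) := by omega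

end Vale.Agent.Lib.P037
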