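import Mathlib
import Vale.Agent.Lib.P037.Defs
import Vale.Agent.Lib.P037.Basic
import Vale.Agent.Lib.P037.BlowDefs
namespace Vale.Agent.Lib.P037
open Finset

/-- The real-number core of the duplication step. -/
theorem blowstep_real (x d N' : ℝ) (m : ℕ) (hx : 1 ≤ x) (hd : 0 < d) (hd1 : d ≤ 1)
    (hN : 1 ≤ N') (h : d * x ^ (m + 1) ≤ 4 * N' + 2 * x ^ m) :
    (d / 8) ^ (m + 1) * x ^ (m + 1) ≤ N' := by
  have hx0 : 0 < x := by linarith
  have hxm : 0 < x ^ m := pow_pos hx0 m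
  by_cases hc : 4 ≤ d * x
  · have h1 : 2 * x ^ m ≤ d / 2 * x ^ (m + 1) := by
      rw [pow_succ]
      nlinarith [mul_le_mul_of_nonneg_left hc hxm.le]
    have h2 : d / 8 * x ^ (m + 1) ≤ N' := by linarith
    have h3 : (d / 8) ^ (m + 1) ≤ d / 8 :=
      pow_le_of_le_one (by positivity) (by linarith) (Nat.succ_ne_zero m)
    calc (d / 8) ^ (m + 1) * x ^ (m + 1) ≤ d / 8 * x ^ (m + 1) :=
          mul_le_mul_of_nonneg_right h3 (by positivity)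
      _ ≤ N' := h2
  · have hlt : d * x < 4 := not_le.mp hc
    rw [← mul_pow]
    have h0 : 0 ≤ d / 8 * x := by positivity
    have h1 : d / 8 * x ≤ 1 := by linarith
    exact (pow_le_one₀ h0 h1).trans hN

theorem dup_step_of {k : ℕ} (H : Fin k → Fin k → Bool) (i₀ j₀ : Fin k)
    (hfree : ∀ (n : ℕ) (B : Fin n → Fin n → Bool), IsFree H B → IsFree (dupPat H i₀ j₀) B)
    (hcount : ∀ (n : ℕ) (A : Fin n → Fin n → Bool),
      (copyCount H A) ^ 4 ≤ n ^ (6 * k - 2) * (4 * copyCount (dupPat H i₀ j₀) A + 2 * n ^ (2 * k + 1)))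
    (h : PolyRemovalK H) : PolyRemovalK (dupPat H i₀ j₀) := by
  obtain ⟨c, hc, C, hC⟩ := h
  have hk : 1 ≤ k := by
    have := i₀.2
    omega
  have hc1pos : 0 < min c 1 := lt_min hc one_pos
  have hc1le : min c 1 ≤ 1 := min_le_right _ _
  have hc1c : min c 1 ≤ c := min_le_left _ _
  refine ⟨(min c 1 ^ 4 / 8) ^ (2 * k + 2), by positivity, 4 * C * (2 * k + 2), ?_⟩
  intro n A ε hε hε1 hfar
  rcases Nat.eq_zero_or_pos n with hn | hn
  · subst hn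
    have hz : ((0 : ℕ) : ℝ) ^ (2 * (k + 1)) = 0 := by
      rw [Nat.cast_zero]
      exact zero_pow (by omega)
    rw [hz, mul_zero]
    exact Nat.cast_nonneg _
  have hfarH : IsFar H A ε := fun B hB => hfar B (hfree n B hB)
  have h1 := hC n A ε hε hε1 hfarH
  have hN'1 : 1 ≤ copyCount (dupPat H i₀ j₀) A :=
    copyCount_pos_of_isFar _ A ε hε hn hfar
  have h2 := hcount n A
  have hx1 : (1 : ℝ) ≤ (n : ℝ) := by exact_mod_cast hn
  have hεC : ε ^ C ≤ 1 := pow_le_one₀ hε.le hε1.le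
  have hεC0 : 0 < ε ^ C := pow_pos hε C
  have ha0 : 0 < min c 1 * ε ^ C := mul_pos hc1pos hεC0
  have ha1 : min c 1 * ε ^ C ≤ 1 := by
    calc min c 1 * ε ^ C ≤ 1 * 1 := mul_le_mul hc1le hεC hεC0.le zero_le_one
      _ = 1 := one_mul 1
  have haN : min c 1 * ε ^ C * (n : ℝ) ^ (2 * k) ≤ (copyCount H A : ℝ) := by
    refine le_trans ?_ h1
    have hn0 : (0 : ℝ) ≤ (n : ℝ) ^ (2 * k) := by positivity
    exact mul_le_mul_of_nonneg_right (mul_le_mul_of_nonneg_right hc1c hεC0.le) hn0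
  have h2r : (copyCount H A : ℝ) ^ 4 ≤ (n : ℝ) ^ (6 * k - 2) *
      (4 * (copyCount (dupPat H i₀ j₀) A : ℝ) + 2 * (n : ℝ) ^ (2 * k + 1)) := by
    exact_mod_cast h2
  have h3 : (min c 1 * ε ^ C) ^ 4 * (n : ℝ) ^ (8 * k) ≤ (copyCount H A : ℝ) ^ 4 := by
    have h30 : (min c 1 * ε ^ C * (n : ℝ) ^ (2 * k)) ^ 4 ≤ (copyCount H A : ℝ) ^ 4 :=
      pow_le_pow_left₀ (by positivity) haN 4
    have e : (min c 1 * ε ^ C) ^ 4 * (n : ℝ) ^ (8 * k)
        = (min c 1 * ε ^ C * (n : ℝ) ^ (2 * k)) ^ 4 := by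
      rw [mul_pow (min c 1 * ε ^ C) ((n : ℝ) ^ (2 * k)) 4, ← pow_mul]
      congr 2
      omega
    rw [e]
    exact h30
  have hsplit : (n : ℝ) ^ (8 * k) = (n : ℝ) ^ (6 * k - 2) * (n : ℝ) ^ (2 * k + 1 + 1) := by
    rw [← pow_add]
    congr 1
    omega
  have hxpos : (0 : ℝ) < (n : ℝ) ^ (6 * k - 2) := by positivity
  have h4 : (min c 1 * ε ^ C) ^ 4 * (n : ℝ) ^ (2 * k + 1 + 1)
      ≤ 4 * (copyCount (dupPat H i₀ j₀) A : ℝ) + 2 * (n : ℝ) ^ (2 * k + 1) := by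
    have h40 : (n : ℝ) ^ (6 * k - 2) * ((min c 1 * ε ^ C) ^ 4 * (n : ℝ) ^ (2 * k + 1 + 1))
        ≤ (n : ℝ) ^ (6 * k - 2) *
          (4 * (copyCount (dupPat H i₀ j₀) A : ℝ) + 2 * (n : ℝ) ^ (2 * k + 1)) := by
      have e : (n : ℝ) ^ (6 * k - 2) * ((min c 1 * ε ^ C) ^ 4 * (n : ℝ) ^ (2 * k + 1 + 1))
          = (min c 1 * ε ^ C) ^ 4 * (n : ℝ) ^ (8 * k) := by
        rw [hsplit]
        ring
      rw [e]
      exact h3.trans h2r
    exact le_of_mul_le_mul_left h40 hxpos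
  have h5 := blowstep_real (n : ℝ) ((min c 1 * ε ^ C) ^ 4)
    (copyCount (dupPat H i₀ j₀) A : ℝ) (2 * k + 1) hx1 (by positivity)
    (pow_le_one₀ ha0.le ha1) (by exact_mod_cast hN'1) h4
  have e1 : (min c 1 ^ 4 / 8) ^ (2 * k + 2) * ε ^ (4 * C * (2 * k + 2))
      = ((min c 1 * ε ^ C) ^ 4 / 8) ^ (2 * k + 1 + 1) := by
    have e10 : (min c 1 * ε ^ C) ^ 4 / 8 = min c 1 ^ 4 / 8 * ε ^ (4 * C) := by
      rw [mul_pow, ← pow_mul, mul_comm C 4]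
      ring
    rw [e10, mul_pow, ← pow_mul]
  have e2 : 2 * (k + 1) = 2 * k + 1 + 1 := by ring
  rw [e1, e2]
  exact h5

end Vale.Agent.Lib.P037
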