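import Mathlib
import Vale.Agent.Lib.P037.Defs

namespace Vale.Agent.Lib.P037

/-- The `2 × 2` pattern with rows `(1,1)` and `(1,0)`: every entry is `true` except the
bottom right one. -/
def gamPattern : Fin 2 → Fin 2 → Bool := fun i j => !(decide (i = 1) && decide (j = 1))

/-- Elementary form of: `A` contains no ordered copy of `gamPattern`. -/
def GamFree {n : ℕ} (A : Fin n → Fin n → Bool) : Prop :=
  ∀ x y u v : Fin n, x < y → u < v →
    A x u = true → A x v = true → A y u = true → A y v = true

/-- The number of copies of `gamPattern` inside the column pair `(w, u)`: pairs of rows `x < y`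
with ones at `(x, w)`, `(y, w)`, `(x, u)` and a zero at `(y, u)`. -/
def gamInv {n : ℕ} (A : Fin n → Fin n → Bool) (w u : Fin n) : ℕ :=
  (Finset.univ.filter (fun p : Fin n × Fin n =>
    p.1 < p.2 ∧ A p.1 w = true ∧ A p.2 w = true ∧ A p.1 u = true ∧ A p.2 u = false)).card

/-- Rows `x < y` are linked at time `v` if they share a one in a pivot column `w ∈ W` whose
index is smaller than `v`. -/
def gamLink {n : ℕ} (A : Fin n → Fin n → Bool) (W : Finset (Fin n)) (v : ℕ) (x y : Fin n) : Prop :=
  x < y ∧ ∃ w ∈ W, (w : ℕ) < v ∧ A x w = true ∧ A y w = true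

/-- The pivot columns `W` of `A` contain no copy of `gamPattern`. -/
def GamScaffold {n : ℕ} (A : Fin n → Fin n → Bool) (W : Finset (Fin n)) : Prop :=
  ∀ w ∈ W, ∀ w' ∈ W, w < w' → ∀ x y : Fin n, x < y →
    A x w = true → A x w' = true → A y w = true → A y w' = true

open Classical in
/-- The rebuilt matrix: pivot columns are kept; a non-pivot column `u` becomes empty
(`τ u = none`) or the set consisting of the root `t` (`τ u = some t`) together with all rows
reachable from `t` by a chain of links at time `u`. -/
noncomputable def gamBuild {n : ℕ} (A : Fin n → Fin n → Bool) (W : Finset (Fin n))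
    (τ : Fin n → Option (Fin n)) : Fin n → Fin n → Bool :=
  fun x u =>
    if u ∈ W then A x u
    else
      match τ u with
      | none => false
      | some t => decide (x = t ∨ Relation.TransGen (gamLink A W (u : ℕ)) t x)

/-- The number of triples `(x, y, u)` with `x < y`, ones at `(x, u)` and `(y, u)`, such that the
rows `x, y` share no pivot column to the left of `u`. -/
def gamLoss {n : ℕ} (A : Fin n → Fin n → Bool) (W : Finset (Fin n)) : ℕ :=
  (Finset.univ.filter (fun p : Fin n × Fin n × Fin n =>
    p.1 < p.2.1 ∧ A p.1 p.2.2 = true ∧ A p.2.1 p.2.2 = true ∧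
      ∀ w ∈ W, w < p.2.2 → ¬ (A p.1 w = true ∧ A p.2.1 w = true))).card

/-- Rows lying in the cover `V w u` for more than `K / 2` columns `u` to the right of `w`. -/
def gamZw {n : ℕ} (V : Fin n → Fin n → Finset (Fin n)) (K : ℕ) (w : Fin n) : Finset (Fin n) :=
  Finset.univ.filter (fun z : Fin n =>
    K < 2 * (Finset.univ.filter (fun u : Fin n => w < u ∧ z ∈ V w u)).card)

end Vale.Agent.Lib.P037
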