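import Mathlib
import Vale.Agent.Lib.P037.GamDefs
namespace Vale.Agent.Lib.P037
open Finset

/-! ### Chain difference bound by induction on time -/

/-- A link at time `v + 1` is a link at time `v` or uses the pivot column with index `v`. -/
theorem gamLink_succ_split {n : ℕ} {A : Fin n → Fin n → Bool} {W : Finset (Fin n)} {v : ℕ}
    {b y : Fin n} (h : gamLink A W (v + 1) b y) :
    gamLink A W v b y ∨
      ∃ hv : v < n, (⟨v, hv⟩ : Fin n) ∈ W ∧ A b ⟨v, hv⟩ = true ∧ A y ⟨v, hv⟩ = true := by
  obtain ⟨hby, w, hw, hwv, h1, h2⟩ := h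
  rcases Nat.lt_succ_iff_lt_or_eq.mp hwv with hlt | heq
  · exact Or.inl ⟨hby, w, hw, hlt, h1, h2⟩
  · right
    have hv : v < n := heq ▸ w.isLt
    have hwe : w = ⟨v, hv⟩ := Fin.ext heq
    refine ⟨hv, ?_, ?_, ?_⟩
    · rw [← hwe]
      exact hw
    · rw [← hwe]
      exact h1
    · rw [← hwe]
      exact h2

/-- Decomposition of a chain at time `v + 1`. -/
theorem gamTrans_succ_split {n : ℕ} {A : Fin n → Fin n → Bool} {W : Finset (Fin n)}
    (hS : GamScaffold A W) {v : ℕ} {t y : Fin n}
    (h : Relation.TransGen (gamLink A W (v + 1)) t y) :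
    Relation.TransGen (gamLink A W v) t y ∨
      ∃ (hv : v < n) (a : Fin n), (⟨v, hv⟩ : Fin n) ∈ W ∧
        (a = t ∨ Relation.TransGen (gamLink A W v) t a) ∧ a < y ∧
        A a ⟨v, hv⟩ = true ∧ A y ⟨v, hv⟩ = true := by
  induction h with
  | single hl =>
    rcases gamLink_succ_split hl with h1 | ⟨hv, hp, h1, h2⟩
    · exact Or.inl (Relation.TransGen.single h1)
    · exact Or.inr ⟨hv, t, hp, Or.inl rfl, hl.1, h1, h2⟩
  | tail hab hl ih =>
    rcases ih with ih | ⟨hv, a, hp, ha, hab', h1, h2⟩
    · rcases gamLink_succ_split hl with h1 | ⟨hv, hp, h1, h2⟩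
      · exact Or.inl (Relation.TransGen.tail ih h1)
      · exact Or.inr ⟨hv, _, hp, Or.inr ih, hl.1, h1, h2⟩
    · right
      refine ⟨hv, a, hp, ha, lt_trans hab' hl.1, h1, ?_⟩
      rcases gamLink_succ_split hl with h3 | ⟨hv', hp', h3, h4⟩
      · obtain ⟨hbc, w, hw, hwv, hbw, hcw⟩ := h3
        exact hS w hw ⟨v, hv⟩ hp (Fin.lt_def.mpr hwv) _ _ hbc hbw h2 hcw
      · exact h4

theorem gamTrans_zero {n : ℕ} {A : Fin n → Fin n → Bool} {W : Finset (Fin n)} {t y : Fin n}
    (h : Relation.TransGen (gamLink A W 0) t y) : False := by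
  cases h with
  | single hl =>
    obtain ⟨_, w, _, hw, _⟩ := hl
    exact Nat.not_lt_zero _ hw
  | tail _ hl =>
    obtain ⟨_, w, _, hw, _⟩ := hl
    exact Nat.not_lt_zero _ hw

/-- Time induction: the columns from time `v` on where the ends of a chain at time `v`
differ. -/
theorem gamCard_time_le {n : ℕ} (A : Fin n → Fin n → Bool) (W : Finset (Fin n))
    (hS : GamScaffold A W) (K : ℕ)
    (hK : ∀ w ∈ W, ∀ x y : Fin n, x < y → A x w = true → A y w = true →
      (univ.filter (fun u : Fin n => w < u ∧ A x u = true ∧ A y u = false)).card ≤ K) :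
    ∀ (v : ℕ) (t y : Fin n), Relation.TransGen (gamLink A W v) t y →
      (univ.filter (fun u : Fin n => v ≤ (u : ℕ) ∧ A t u = true ∧ A y u = false)).card ≤
        (W.filter (fun w : Fin n => (w : ℕ) < v)).card * K := by
  intro v
  induction v with
  | zero =>
    intro t y h
    exact (gamTrans_zero h).elim
  | succ v ih =>
    intro t y h
    rcases gamTrans_succ_split hS h with h1 | ⟨hv, a, hp, ha, hay, h1, h2⟩
    · refine le_trans (card_le_card ?_)
        (le_trans (ih t y h1) (Nat.mul_le_mul_right K (card_le_card ?_)))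
      · intro u hu
        simp only [mem_filter, mem_univ, true_and] at hu ⊢
        exact ⟨by omega, hu.2⟩
      · intro w hw
        simp only [mem_filter] at hw ⊢
        exact ⟨hw.1, by omega⟩
    · have hF2 := hK ⟨v, hv⟩ hp a y hay h1 h2
      have hF1 : (univ.filter (fun u : Fin n =>
          v ≤ (u : ℕ) ∧ A t u = true ∧ A a u = false)).card ≤
          (W.filter (fun w : Fin n => (w : ℕ) < v)).card * K := by
        rcases ha with ha | ha
        · have hemp : (univ.filter (fun u : Fin n =>
              v ≤ (u : ℕ) ∧ A t u = true ∧ A a u = false)) = ∅ := by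
            rw [Finset.filter_eq_empty_iff]
            intro u _ hu
            rw [ha] at hu
            rw [hu.2.1] at hu
            exact Bool.noConfusion hu.2.2
          rw [hemp, card_empty]
          exact Nat.zero_le _
        · exact ih t a ha
      have hsub : (univ.filter (fun u : Fin n =>
          v + 1 ≤ (u : ℕ) ∧ A t u = true ∧ A y u = false)) ⊆
          (univ.filter (fun u : Fin n => v ≤ (u : ℕ) ∧ A t u = true ∧ A a u = false)) ∪
          (univ.filter (fun u : Fin n =>
            (⟨v, hv⟩ : Fin n) < u ∧ A a u = true ∧ A y u = false)) := by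
        intro u hu
        simp only [mem_filter, mem_univ, true_and, mem_union] at hu ⊢
        by_cases hau : A a u = true
        · right
          exact ⟨Fin.lt_def.mpr (by show v < (u : ℕ); omega), hau, hu.2.2⟩
        · left
          exact ⟨by omega, hu.2.1, by simpa using hau⟩
      have hW : (W.filter (fun w : Fin n => (w : ℕ) < v)).card + 1 ≤
          (W.filter (fun w : Fin n => (w : ℕ) < v + 1)).card := by
        have hnot : (⟨v, hv⟩ : Fin n) ∉ W.filter (fun w : Fin n => (w : ℕ) < v) := by
          simp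
        rw [← card_insert_of_notMem hnot]
        apply card_le_card
        intro w hw
        rw [mem_insert] at hw
        rcases hw with hw | hw
        · rw [hw]
          simp [hp]
        · simp only [mem_filter] at hw ⊢
          exact ⟨hw.1, by omega⟩
      calc (univ.filter (fun u : Fin n =>
            v + 1 ≤ (u : ℕ) ∧ A t u = true ∧ A y u = false)).card
          ≤ ((univ.filter (fun u : Fin n => v ≤ (u : ℕ) ∧ A t u = true ∧ A a u = false)) ∪
            (univ.filter (fun u : Fin n =>
              (⟨v, hv⟩ : Fin n) < u ∧ A a u = true ∧ A y u = false))).card :=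
            card_le_card hsub
        _ ≤ (univ.filter (fun u : Fin n => v ≤ (u : ℕ) ∧ A t u = true ∧ A a u = false)).card +
            (univ.filter (fun u : Fin n =>
              (⟨v, hv⟩ : Fin n) < u ∧ A a u = true ∧ A y u = false)).card :=
            card_union_le _ _
        _ ≤ (W.filter (fun w : Fin n => (w : ℕ) < v)).card * K + K := Nat.add_le_add hF1 hF2
        _ = ((W.filter (fun w : Fin n => (w : ℕ) < v)).card + 1) * K := by ring
        _ ≤ (W.filter (fun w : Fin n => (w : ℕ) < v + 1)).card * K :=
            Nat.mul_le_mul_right K hW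

theorem card_chain_diff_le {n : ℕ} (A : Fin n → Fin n → Bool) (W : Finset (Fin n))
    (hS : GamScaffold A W) (K : ℕ)
    (hK : ∀ w ∈ W, ∀ x y : Fin n, x < y → A x w = true → A y w = true →
      (univ.filter (fun u : Fin n => w < u ∧ A x u = true ∧ A y u = false)).card ≤ K)
    (t y : Fin n) (S : Finset (Fin n))
    (hSu : ∀ u ∈ S, Relation.TransGen (gamLink A W (u : ℕ)) t y ∧ A t u = true ∧ A y u = false) :
    S.card ≤ W.card * K := by
  rcases S.eq_empty_or_nonempty with hemp | hne
  · rw [hemp, card_empty]
    exact Nat.zero_le _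
  · have hu0S : S.min' hne ∈ S := S.min'_mem hne
    obtain ⟨hT, -, -⟩ := hSu (S.min' hne) hu0S
    have h1 := gamCard_time_le A W hS K hK ((S.min' hne : Fin n) : ℕ) t y hT
    have hsub : S ⊆ univ.filter (fun u : Fin n =>
        ((S.min' hne : Fin n) : ℕ) ≤ (u : ℕ) ∧ A t u = true ∧ A y u = false) := by
      intro u hu
      simp only [mem_filter, mem_univ, true_and]
      exact ⟨Fin.le_def.mp (S.min'_le u hu), (hSu u hu).2⟩
    calc S.card ≤ (univ.filter (fun u : Fin n =>
          ((S.min' hne : Fin n) : ℕ) ≤ (u : ℕ) ∧ A t u = true ∧ A y u = false)).card :=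
          card_le_card hsub
      _ ≤ (W.filter (fun w : Fin n => (w : ℕ) < ((S.min' hne : Fin n) : ℕ))).card * K := h1
      _ ≤ W.card * K := Nat.mul_le_mul_right K (card_le_card (filter_subset _ _))

end Vale.Agent.Lib.P037
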