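import Mathlib
import Vale.Agent.Lib.P037.Defs
import Vale.Agent.Lib.P037.GamDefs
namespace Vale.Agent.Lib.P037
open Finset

/-- The set of rows that are zeroed in the cleaning step. -/
def gamCleanRows {n : ℕ} (V : Fin n → Fin n → Finset (Fin n)) (K : ℕ) (W : Finset (Fin n)) :
    Finset (Fin n) :=
  (W.biUnion fun w => (W.filter (fun u => w < u)).biUnion fun u => V w u) ∪
    W.biUnion (gamZw V K)

theorem gamCleanRows_card_le {n : ℕ} (V : Fin n → Fin n → Finset (Fin n)) (K : ℕ)
    (W : Finset (Fin n)) :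
    (gamCleanRows V K W).card ≤
      (∑ w ∈ W, ∑ u ∈ W.filter (fun u => w < u), (V w u).card) +
        ∑ w ∈ W, (gamZw V K w).card := by
  unfold gamCleanRows
  refine (card_union_le _ _).trans (Nat.add_le_add ?_ card_biUnion_le)
  refine card_biUnion_le.trans (Finset.sum_le_sum fun w _ => ?_)
  exact card_biUnion_le

theorem gam_mem_cleanRows_of_mem {n : ℕ} (V : Fin n → Fin n → Finset (Fin n)) (K : ℕ)
    (W : Finset (Fin n)) {w u z : Fin n} (hw : w ∈ W) (hu : u ∈ W) (hwu : w < u)
    (hz : z ∈ V w u) : z ∈ gamCleanRows V K W := by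
  unfold gamCleanRows
  refine mem_union_left _ ?_
  rw [mem_biUnion]
  refine ⟨w, hw, ?_⟩
  rw [mem_biUnion]
  exact ⟨u, mem_filter.mpr ⟨hu, hwu⟩, hz⟩

theorem gam_mem_cleanRows_of_mem_gamZw {n : ℕ} (V : Fin n → Fin n → Finset (Fin n)) (K : ℕ)
    (W : Finset (Fin n)) {w z : Fin n} (hw : w ∈ W) (hz : z ∈ gamZw V K w) :
    z ∈ gamCleanRows V K W := by
  unfold gamCleanRows
  refine mem_union_right _ ?_
  rw [mem_biUnion]
  exact ⟨w, hw, hz⟩

theorem exists_clean {n : ℕ} (A : Fin n → Fin n → Bool) (V : Fin n → Fin n → Finset (Fin n))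
    (hV : ∀ w u x y : Fin n, x < y → A x w = true → A y w = true → A x u = true →
      A y u = false → x ∈ V w u ∨ y ∈ V w u)
    (K : ℕ) (W : Finset (Fin n)) :
    ∃ A₁ : Fin n → Fin n → Bool, GamScaffold A₁ W ∧
      (∀ w ∈ W, ∀ x y : Fin n, x < y → A₁ x w = true → A₁ y w = true →
        (univ.filter (fun u : Fin n => w < u ∧ A₁ x u = true ∧ A₁ y u = false)).card ≤ K) ∧
      gamLoss A₁ W ≤ gamLoss A W ∧
      numDiff A A₁ ≤ n * ((∑ w ∈ W, ∑ u ∈ W.filter (fun u => w < u), (V w u).card) +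
        ∑ w ∈ W, (gamZw V K w).card) := by
  classical
  set Z : Finset (Fin n) := gamCleanRows V K W with hZ
  set A₁ : Fin n → Fin n → Bool := fun x u => A x u && decide (x ∉ Z) with hA₁
  have key : ∀ x u, A₁ x u = true ↔ A x u = true ∧ x ∉ Z := by
    intro x u
    simp [hA₁]
  have keq : ∀ x u, x ∉ Z → A₁ x u = A x u := by
    intro x u hx
    simp [hA₁, hx]
  refine ⟨A₁, ?_, ?_, ?_, ?_⟩
  · -- scaffold
    intro w hw w' hw' hww' x y hxy h1 h2 h3
    obtain ⟨h1a, hxZ⟩ := (key x w).mp h1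
    obtain ⟨h2a, -⟩ := (key x w').mp h2
    obtain ⟨h3a, hyZ⟩ := (key y w).mp h3
    by_contra hcon
    have hf : A y w' = false := by
      have h4 : A₁ y w' = false := by simpa using hcon
      rw [keq y w' hyZ] at h4
      exact h4
    rcases hV w w' x y hxy h1a h3a h2a hf with hx | hy
    · exact hxZ (gam_mem_cleanRows_of_mem V K W hw hw' hww' hx)
    · exact hyZ (gam_mem_cleanRows_of_mem V K W hw hw' hww' hy)
  · -- bounded right neighbourhoods
    intro w hw x y hxy h1 h3
    obtain ⟨h1a, hxZ⟩ := (key x w).mp h1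
    obtain ⟨h3a, hyZ⟩ := (key y w).mp h3
    have hxa : 2 * (univ.filter (fun u : Fin n => w < u ∧ x ∈ V w u)).card ≤ K := by
      by_contra hcon
      exact hxZ (gam_mem_cleanRows_of_mem_gamZw V K W hw
        (by rw [gamZw, mem_filter]; exact ⟨mem_univ _, by omega⟩))
    have hya : 2 * (univ.filter (fun u : Fin n => w < u ∧ y ∈ V w u)).card ≤ K := by
      by_contra hcon
      exact hyZ (gam_mem_cleanRows_of_mem_gamZw V K W hw
        (by rw [gamZw, mem_filter]; exact ⟨mem_univ _, by omega⟩))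
    have hsub : univ.filter (fun u : Fin n => w < u ∧ A₁ x u = true ∧ A₁ y u = false) ⊆
        univ.filter (fun u : Fin n => w < u ∧ x ∈ V w u) ∪
          univ.filter (fun u : Fin n => w < u ∧ y ∈ V w u) := by
      intro u hu
      rw [mem_filter] at hu
      obtain ⟨-, hwu, hxu, hyu⟩ := hu
      have hxu' : A x u = true := ((key x u).mp hxu).1
      have hyu' : A y u = false := by
        rw [keq y u hyZ] at hyu
        exact hyu
      rw [mem_union, mem_filter, mem_filter]
      rcases hV w u x y hxy h1a h3a hxu' hyu' with hx | hy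
      · exact Or.inl ⟨mem_univ _, hwu, hx⟩
      · exact Or.inr ⟨mem_univ _, hwu, hy⟩
    have hcard := (card_le_card hsub).trans (card_union_le _ _)
    omega
  · -- loss
    unfold gamLoss
    refine card_le_card ?_
    intro p hp
    rw [mem_filter] at hp ⊢
    obtain ⟨-, hlt, hx, hy, hno⟩ := hp
    obtain ⟨hxa, hxZ⟩ := (key _ _).mp hx
    obtain ⟨hya, hyZ⟩ := (key _ _).mp hy
    refine ⟨mem_univ _, hlt, hxa, hya, ?_⟩
    intro w hw hwu hboth
    refine hno w hw hwu ⟨?_, ?_⟩
    · rw [keq _ _ hxZ]; exact hboth.1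
    · rw [keq _ _ hyZ]; exact hboth.2
  · -- number of changed entries
    have h1 : numDiff A A₁ ≤ (Z ×ˢ (univ : Finset (Fin n))).card := by
      unfold numDiff
      refine card_le_card ?_
      intro p hp
      rw [mem_filter] at hp
      rw [mem_product]
      refine ⟨?_, mem_univ _⟩
      by_contra hpZ
      exact hp.2 (keq p.1 p.2 hpZ).symm
    rw [card_product, card_univ, Fintype.card_fin] at h1
    calc numDiff A A₁ ≤ Z.card * n := h1
      _ = n * Z.card := Nat.mul_comm _ _
      _ ≤ n * ((∑ w ∈ W, ∑ u ∈ W.filter (fun u => w < u), (V w u).card) +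
            ∑ w ∈ W, (gamZw V K w).card) :=
          Nat.mul_le_mul_left n (gamCleanRows_card_le V K W)

theorem gamZw_card_le {n : ℕ} (V : Fin n → Fin n → Finset (Fin n)) (K : ℕ) (w : Fin n) :
    K * (gamZw V K w).card ≤
      2 * ∑ u ∈ univ.filter (fun u : Fin n => w < u), (V w u).card := by
  classical
  have hdc : ∑ z : Fin n, (univ.filter (fun u : Fin n => w < u ∧ z ∈ V w u)).card =
      ∑ u ∈ univ.filter (fun u : Fin n => w < u), (V w u).card := by
    have e1 : ∀ z : Fin n, (univ.filter (fun u : Fin n => w < u ∧ z ∈ V w u)).card =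
        ∑ u ∈ univ.filter (fun u : Fin n => w < u), if z ∈ V w u then 1 else 0 := by
      intro z
      rw [← filter_filter, card_filter]
    have e2 : ∀ u : Fin n, (V w u).card = ∑ z : Fin n, if z ∈ V w u then 1 else 0 := by
      intro u
      rw [← card_filter]
      congr 1
      ext z
      simp
    simp_rw [e1, e2]
    exact Finset.sum_comm
  calc K * (gamZw V K w).card = ∑ _z ∈ gamZw V K w, K := by
        rw [sum_const, smul_eq_mul, Nat.mul_comm]
    _ ≤ ∑ z ∈ gamZw V K w, 2 * (univ.filter (fun u : Fin n => w < u ∧ z ∈ V w u)).card := by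
        refine Finset.sum_le_sum fun z hz => ?_
        rw [gamZw, mem_filter] at hz
        exact hz.2.le
    _ ≤ ∑ z : Fin n, 2 * (univ.filter (fun u : Fin n => w < u ∧ z ∈ V w u)).card :=
        Finset.sum_le_sum_of_subset (subset_univ _)
    _ = 2 * ∑ u ∈ univ.filter (fun u : Fin n => w < u), (V w u).card := by
        rw [← mul_sum, hdc]

theorem gamZw_sum_le {n : ℕ} (V : Fin n → Fin n → Finset (Fin n)) (K : ℕ) :
    K * ∑ w : Fin n, (gamZw V K w).card ≤
      2 * ∑ w : Fin n, ∑ u ∈ univ.filter (fun u : Fin n => w < u), (V w u).card := by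
  rw [mul_sum, mul_sum]
  exact Finset.sum_le_sum fun w _ => gamZw_card_le V K w

end Vale.Agent.Lib.P037
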