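import Mathlib
import Vale.Agent.Lib.P037.GamDefs
namespace Vale.Agent.Lib.P037
open Finset

/-- The number of inversions equals the sum of the degrees. -/
theorem gam_card_inv_eq {α : Type*} [LinearOrder α] (P Q : Finset α) :
    ((P ×ˢ Q).filter (fun p => p.1 < p.2)).card
      = ∑ x ∈ P, (Q.filter (fun y => x < y)).card := by
  rw [Finset.card_filter, Finset.sum_product]
  refine Finset.sum_congr rfl (fun x _ => ?_)
  rw [Finset.card_filter]

theorem exists_cover {α : Type*} [LinearOrder α] (P Q : Finset α) :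
    ∃ Z : Finset α, (∀ x ∈ P, ∀ y ∈ Q, x < y → x ∈ Z ∨ y ∈ Z) ∧
      Z.card ^ 2 ≤ 4 * ((P ×ˢ Q).filter (fun p => p.1 < p.2)).card := by
  classical
  set I := ((P ×ˢ Q).filter (fun p => p.1 < p.2)).card with hI
  set s := Nat.sqrt I with hs
  set D := s + 1 with hD
  have hsum : I = ∑ x ∈ P, (Q.filter (fun y => x < y)).card := gam_card_inv_eq P Q
  have hZ1 : (P.filter (fun x => D ≤ (Q.filter (fun y => x < y)).card)).card ≤ s := by
    have h1 : (P.filter (fun x => D ≤ (Q.filter (fun y => x < y)).card)).card * D ≤ I := by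
      rw [hsum, Finset.card_eq_sum_ones, Finset.sum_mul]
      calc ∑ x ∈ P.filter (fun x => D ≤ (Q.filter (fun y => x < y)).card), 1 * D
          ≤ ∑ x ∈ P.filter (fun x => D ≤ (Q.filter (fun y => x < y)).card),
              (Q.filter (fun y => x < y)).card :=
            Finset.sum_le_sum (fun x hx => by
              rw [one_mul]; exact (Finset.mem_filter.mp hx).2)
        _ ≤ ∑ x ∈ P, (Q.filter (fun y => x < y)).card :=
            Finset.sum_le_sum_of_subset (Finset.filter_subset _ _)
    have h2 : I < D * D := Nat.lt_succ_sqrt I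
    have h3 : (P.filter (fun x => D ≤ (Q.filter (fun y => x < y)).card)).card * D < D * D :=
      lt_of_le_of_lt h1 h2
    have h4 : (P.filter (fun x => D ≤ (Q.filter (fun y => x < y)).card)).card < D :=
      lt_of_mul_lt_mul_right h3 (Nat.zero_le D)
    omega
  have hsq : (2 * s) ^ 2 ≤ 4 * I := by
    have h := Nat.sqrt_le' I
    nlinarith [h]
  by_cases hG : (P.filter (fun x => (Q.filter (fun y => x < y)).card < D)).Nonempty
  · set x0 := (P.filter (fun x => (Q.filter (fun y => x < y)).card < D)).min' hG with hx0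
    have hx0mem := Finset.min'_mem _ hG
    rw [← hx0] at hx0mem
    have hx0deg : (Q.filter (fun y => x0 < y)).card ≤ s := by
      have := (Finset.mem_filter.mp hx0mem).2
      omega
    refine ⟨P.filter (fun x => D ≤ (Q.filter (fun y => x < y)).card) ∪
      Q.filter (fun y => x0 < y), ?_, ?_⟩
    · intro x hx y hy hxy
      by_cases hdeg : D ≤ (Q.filter (fun y => x < y)).card
      · left
        exact Finset.mem_union_left _ (Finset.mem_filter.mpr ⟨hx, hdeg⟩)
      · right
        have hxG : x ∈ P.filter (fun x => (Q.filter (fun y => x < y)).card < D) :=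
          Finset.mem_filter.mpr ⟨hx, not_le.mp hdeg⟩
        have hle : x0 ≤ x := Finset.min'_le _ x hxG
        exact Finset.mem_union_right _ (Finset.mem_filter.mpr ⟨hy, lt_of_le_of_lt hle hxy⟩)
    · have hcard : (P.filter (fun x => D ≤ (Q.filter (fun y => x < y)).card) ∪
          Q.filter (fun y => x0 < y)).card ≤ 2 * s :=
        (Finset.card_union_le _ _).trans (by omega)
      exact (Nat.pow_le_pow_left hcard 2).trans hsq
  · refine ⟨P.filter (fun x => D ≤ (Q.filter (fun y => x < y)).card), ?_, ?_⟩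
    · intro x hx y _ _
      left
      by_contra hxZ
      apply hG
      refine ⟨x, Finset.mem_filter.mpr ⟨hx, ?_⟩⟩
      by_contra hdeg
      exact hxZ (Finset.mem_filter.mpr ⟨hx, not_lt.mp hdeg⟩)
    · have hcard : (P.filter (fun x => D ≤ (Q.filter (fun y => x < y)).card)).card ≤ 2 * s := by
        omega
      exact (Nat.pow_le_pow_left hcard 2).trans hsq

theorem exists_covers {n : ℕ} (A : Fin n → Fin n → Bool) :
    ∃ V : Fin n → Fin n → Finset (Fin n),
      (∀ w u x y : Fin n, x < y → A x w = true → A y w = true → A x u = true →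
        A y u = false → x ∈ V w u ∨ y ∈ V w u) ∧
      ∀ w u : Fin n, (V w u).card ^ 2 ≤ 4 * gamInv A w u := by
  classical
  have key : ∀ w u : Fin n, ∃ Z : Finset (Fin n),
      (∀ x y : Fin n, x < y → A x w = true → A y w = true → A x u = true →
        A y u = false → x ∈ Z ∨ y ∈ Z) ∧ Z.card ^ 2 ≤ 4 * gamInv A w u := by
    intro w u
    obtain ⟨Z, hZ1, hZ2⟩ := exists_cover
      (Finset.univ.filter (fun x : Fin n => A x w = true ∧ A x u = true))
      (Finset.univ.filter (fun y : Fin n => A y w = true ∧ A y u = false))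
    refine ⟨Z, ?_, ?_⟩
    · intro x y hxy h1 h2 h3 h4
      exact hZ1 x (Finset.mem_filter.mpr ⟨Finset.mem_univ _, h1, h3⟩) y
        (Finset.mem_filter.mpr ⟨Finset.mem_univ _, h2, h4⟩) hxy
    · refine hZ2.trans (Nat.mul_le_mul_left 4 ?_)
      unfold gamInv
      apply Finset.card_le_card
      intro p hp
      rw [Finset.mem_filter, Finset.mem_product, Finset.mem_filter, Finset.mem_filter] at hp
      obtain ⟨⟨⟨_, h1, h3⟩, ⟨_, h2, h4⟩⟩, hlt⟩ := hp
      exact Finset.mem_filter.mpr ⟨Finset.mem_univ _, hlt, h1, h2, h3, h4⟩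
  choose V hV1 hV2 using key
  exact ⟨V, fun w u x y => hV1 w u x y, hV2⟩

end Vale.Agent.Lib.P037
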