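import Mathlib
import Vale.Agent.Lib.P037.GamDefs
namespace Vale.Agent.Lib.P037
open Finset

/-! ### The rebuilt matrix contains no copy of the pattern -/

theorem gamLink_mono {n : ℕ} {A : Fin n → Fin n → Bool} {W : Finset (Fin n)} {v v' : ℕ}
    (h : v ≤ v') {x y : Fin n} (hl : gamLink A W v x y) : gamLink A W v' x y := by
  obtain ⟨hxy, w, hw, hwv, h1, h2⟩ := hl
  exact ⟨hxy, w, hw, lt_of_lt_of_le hwv h, h1, h2⟩

theorem gamTrans_mono {n : ℕ} {A : Fin n → Fin n → Bool} {W : Finset (Fin n)} {v v' : ℕ}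
    (h : v ≤ v') {x y : Fin n} (ht : Relation.TransGen (gamLink A W v) x y) :
    Relation.TransGen (gamLink A W v') x y := by
  induction ht with
  | single hl => exact Relation.TransGen.single (gamLink_mono h hl)
  | tail _ hl ih => exact Relation.TransGen.tail ih (gamLink_mono h hl)

theorem gamTrans_lt {n : ℕ} {A : Fin n → Fin n → Bool} {W : Finset (Fin n)} {v : ℕ}
    {x y : Fin n} (ht : Relation.TransGen (gamLink A W v) x y) : x < y := by
  induction ht with
  | single h => exact h.1
  | tail _ h ih => exact lt_trans ih h.1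

theorem gamLink_clique {n : ℕ} {A : Fin n → Fin n → Bool} {W : Finset (Fin n)}
    (hS : GamScaffold A W) {v : ℕ} {x y y' : Fin n} (h1 : gamLink A W v x y)
    (h2 : gamLink A W v x y') (hyy : y < y') : gamLink A W v y y' := by
  obtain ⟨hxy, w, hw, hwv, hxw, hyw⟩ := h1
  obtain ⟨hxy', w', hw', hwv', hxw', hyw'⟩ := h2
  rcases lt_trichotomy w w' with hlt | heq | hgt
  · have h3 : A y w' = true := hS w hw w' hw' hlt x y hxy hxw hxw' hyw
    exact ⟨hyy, w', hw', hwv', h3, hyw'⟩
  · subst heq
    exact ⟨hyy, w, hw, hwv, hyw, hyw'⟩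
  · have h3 : A y' w = true := hS w' hw' w hw hgt x y' hxy' hxw' hxw hyw'
    exact ⟨hyy, w, hw, hwv, hyw, h3⟩

theorem gamLink_chain {n : ℕ} {A : Fin n → Fin n → Bool} {W : Finset (Fin n)}
    (hS : GamScaffold A W) {v : ℕ} {x y' : Fin n}
    (ht : Relation.TransGen (gamLink A W v) x y') :
    ∀ y, gamLink A W v x y → y < y' → Relation.TransGen (gamLink A W v) y y' := by
  induction ht using Relation.TransGen.head_induction_on with
  | single h =>
    intro y hl hy
    exact Relation.TransGen.single (gamLink_clique hS hl h hy)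
  | head h hc ih =>
    intro y hl hy
    rcases lt_trichotomy y _ with hlt | heq | hgt
    · exact Relation.TransGen.head (gamLink_clique hS hl h hlt) hc
    · rw [heq]
      exact hc
    · exact ih y (gamLink_clique hS h hl hgt) hy

theorem gamTrans_chain {n : ℕ} {A : Fin n → Fin n → Bool} {W : Finset (Fin n)}
    (hS : GamScaffold A W) {v : ℕ} {x y y' : Fin n}
    (h1 : Relation.TransGen (gamLink A W v) x y)
    (h2 : Relation.TransGen (gamLink A W v) x y') (hyy : y < y') :
    Relation.TransGen (gamLink A W v) y y' := by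
  revert h2
  induction h1 using Relation.TransGen.head_induction_on with
  | single h =>
    intro h2
    exact gamLink_chain hS h2 y h hyy
  | head h hc ih =>
    intro h2
    exact ih (gamLink_chain hS h2 _ h (lt_trans (gamTrans_lt hc) hyy))

theorem gamTrans_pivot {n : ℕ} {A : Fin n → Fin n → Bool} {W : Finset (Fin n)}
    (hS : GamScaffold A W) {v : ℕ} {p : Fin n} (hp : p ∈ W) (hvp : v ≤ (p : ℕ))
    {x y : Fin n} (ht : Relation.TransGen (gamLink A W v) x y) (hx : A x p = true) :
    A y p = true := by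
  induction ht with
  | single h =>
    obtain ⟨hab, w, hw, hwv, haw, hbw⟩ := h
    exact hS w hw p hp (Fin.lt_def.mpr (lt_of_lt_of_le hwv hvp)) _ _ hab haw hx hbw
  | tail _ h ih =>
    obtain ⟨hab, w, hw, hwv, haw, hbw⟩ := h
    exact hS w hw p hp (Fin.lt_def.mpr (lt_of_lt_of_le hwv hvp)) _ _ hab haw ih hbw

theorem gamBuild_of_mem {n : ℕ} (A : Fin n → Fin n → Bool) (W : Finset (Fin n))
    (τ : Fin n → Option (Fin n)) {u : Fin n} (hu : u ∈ W) (x : Fin n) :
    gamBuild A W τ x u = A x u := by
  unfold gamBuild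
  rw [if_pos hu]

theorem gamBuild_of_not_mem {n : ℕ} (A : Fin n → Fin n → Bool) (W : Finset (Fin n))
    (τ : Fin n → Option (Fin n)) {u : Fin n} (hu : u ∉ W) (x : Fin n) :
    gamBuild A W τ x u = true ↔
      ∃ t, τ u = some t ∧ (x = t ∨ Relation.TransGen (gamLink A W (u : ℕ)) t x) := by
  unfold gamBuild
  rw [if_neg hu]
  cases hτ : τ u with
  | none => simp
  | some t => simp [decide_eq_true_eq]

/-- Two members `x < y` of the same rebuilt column are joined by a chain. -/
theorem gamBuild_chain {n : ℕ} {A : Fin n → Fin n → Bool} {W : Finset (Fin n)}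
    (hS : GamScaffold A W) {v : ℕ} {t x y : Fin n} (hxy : x < y)
    (hx : x = t ∨ Relation.TransGen (gamLink A W v) t x)
    (hy : y = t ∨ Relation.TransGen (gamLink A W v) t y) :
    Relation.TransGen (gamLink A W v) x y := by
  rcases hx with hx | hx
  · rcases hy with hy | hy
    · rw [hx, hy] at hxy
      exact absurd hxy (lt_irrefl _)
    · rw [hx]
      exact hy
  · have htx : t < x := gamTrans_lt hx
    rcases hy with hy | hy
    · rw [hy] at hxy
      exact absurd (lt_trans htx hxy) (lt_irrefl _)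
    · exact gamTrans_chain hS hx hy hxy

theorem gamBuild_gamFree {n : ℕ} (A : Fin n → Fin n → Bool) (W : Finset (Fin n))
    (hS : GamScaffold A W) (τ : Fin n → Option (Fin n)) : GamFree (gamBuild A W τ) := by
  intro x y u v hxy huv hxu hxv hyu
  have huv' : (u : ℕ) ≤ (v : ℕ) := le_of_lt (Fin.lt_def.mp huv)
  by_cases hu : u ∈ W
  · rw [gamBuild_of_mem A W τ hu] at hxu hyu
    by_cases hv : v ∈ W
    · rw [gamBuild_of_mem A W τ hv] at hxv ⊢
      exact hS u hu v hv huv x y hxy hxu hxv hyu
    · rw [gamBuild_of_not_mem A W τ hv] at hxv ⊢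
      obtain ⟨t, ht, hx⟩ := hxv
      have hl : gamLink A W (v : ℕ) x y := ⟨hxy, u, hu, Fin.lt_def.mp huv, hxu, hyu⟩
      refine ⟨t, ht, Or.inr ?_⟩
      rcases hx with hx | hx
      · rw [← hx]
        exact Relation.TransGen.single hl
      · exact Relation.TransGen.tail hx hl
  · rw [gamBuild_of_not_mem A W τ hu] at hxu hyu
    obtain ⟨t, ht, hx⟩ := hxu
    obtain ⟨t', ht', hy⟩ := hyu
    have htt : t' = t := by
      rw [ht] at ht'
      exact (Option.some.inj ht').symm
    rw [htt] at hy
    have hch : Relation.TransGen (gamLink A W (u : ℕ)) x y := gamBuild_chain hS hxy hx hy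
    by_cases hv : v ∈ W
    · rw [gamBuild_of_mem A W τ hv] at hxv ⊢
      exact gamTrans_pivot hS hv huv' hch hxv
    · rw [gamBuild_of_not_mem A W τ hv] at hxv ⊢
      obtain ⟨s, hs, hxs⟩ := hxv
      have hch' : Relation.TransGen (gamLink A W (v : ℕ)) x y := gamTrans_mono huv' hch
      refine ⟨s, hs, Or.inr ?_⟩
      rcases hxs with hxs | hxs
      · rw [← hxs]
        exact hch'
      · exact Relation.TransGen.trans hxs hch'

end Vale.Agent.Lib.P037
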