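import Mathlib
import Vale.Agent.Lib.P037.Defs
import Vale.Agent.Lib.P037.Basic
import Vale.Agent.Lib.P037.GamDefs
namespace Vale.Agent.Lib.P037
open Finset

theorem gamPattern_zero_zero : gamPattern 0 0 = true := by decide
theorem gamPattern_zero_one : gamPattern 0 1 = true := by decide
theorem gamPattern_one_zero : gamPattern 1 0 = true := by decide
theorem gamPattern_one_one : gamPattern 1 1 = false := by decide

theorem isFree_gamPattern_of_gamFree {n : ℕ} {A : Fin n → Fin n → Bool} (h : GamFree A) :
    IsFree gamPattern A := by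
  intro r c hr hc hA
  have h00 := hA 0 0
  have h01 := hA 0 1
  have h10 := hA 1 0
  have h11 := hA 1 1
  rw [gamPattern_zero_zero] at h00
  rw [gamPattern_zero_one] at h01
  rw [gamPattern_one_zero] at h10
  rw [gamPattern_one_one] at h11
  have h01' : (0 : Fin 2) < 1 := by decide
  have := h (r 0) (r 1) (c 0) (c 1) (hr h01') (hc h01') h00 h01 h10
  rw [h11] at this
  exact Bool.false_ne_true this

theorem gam_strictMono_pair {n : ℕ} {a b : Fin n} (hab : a < b) :
    StrictMono (![a, b] : Fin 2 → Fin n) := by
  intro i j hij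
  fin_cases i <;> fin_cases j
  · exact absurd hij (lt_irrefl _)
  · simpa using hab
  · exact absurd hij (by decide)
  · exact absurd hij (lt_irrefl _)

theorem sum_gamInv_le_copyCount {n : ℕ} (A : Fin n → Fin n → Bool) :
    ∑ w : Fin n, ∑ u ∈ univ.filter (fun u : Fin n => w < u), gamInv A w u ≤
      copyCount gamPattern A := by
  classical
  have h1 : ∑ w : Fin n, ∑ u ∈ univ.filter (fun u : Fin n => w < u), gamInv A w u =
      (univ.filter (fun q : (Fin n × Fin n) × (Fin n × Fin n) =>
        q.1.1 < q.1.2 ∧ q.2.1 < q.2.2 ∧ A q.2.1 q.1.1 = true ∧ A q.2.2 q.1.1 = true ∧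
          A q.2.1 q.1.2 = true ∧ A q.2.2 q.1.2 = false)).card := by
    unfold gamInv
    rw [Finset.card_filter, Fintype.sum_prod_type, Fintype.sum_prod_type]
    apply Finset.sum_congr rfl
    intro w _
    rw [Finset.sum_filter]
    apply Finset.sum_congr rfl
    intro u _
    by_cases hwu : w < u
    · rw [if_pos hwu, Finset.card_filter]
      apply Finset.sum_congr rfl
      intro p _
      simp [hwu]
    · rw [if_neg hwu]
      symm
      apply Finset.sum_eq_zero
      intro p _
      simp [hwu]
  rw [h1]
  unfold copyCount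
  apply Finset.card_le_card_of_injOn
    (fun q : (Fin n × Fin n) × (Fin n × Fin n) =>
      ((![q.2.1, q.2.2] : Fin 2 → Fin n), (![q.1.1, q.1.2] : Fin 2 → Fin n)))
  · intro q hq
    rw [Finset.mem_coe, Finset.mem_filter] at hq
    obtain ⟨-, hwu, hxy, h1, h2, h3, h4⟩ := hq
    rw [Finset.mem_coe, mem_copies]
    refine ⟨gam_strictMono_pair hxy, gam_strictMono_pair hwu, ?_⟩
    intro i j
    fin_cases i <;> fin_cases j
    · simpa [gamPattern] using h1
    · simpa [gamPattern] using h3
    · simpa [gamPattern] using h2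
    · simpa [gamPattern] using h4
  · intro q1 _ q2 _ heq
    simp only [Prod.mk.injEq] at heq
    obtain ⟨e1, e2⟩ := heq
    have a1 := congrFun e1 0
    have a2 := congrFun e1 1
    have a3 := congrFun e2 0
    have a4 := congrFun e2 1
    simp only [Matrix.cons_val_zero, Matrix.cons_val_one] at a1 a2 a3 a4
    exact Prod.ext (Prod.ext a3 a4) (Prod.ext a1 a2)

theorem numDiff_triangle {n : ℕ} (A B C : Fin n → Fin n → Bool) :
    numDiff A C ≤ numDiff A B + numDiff B C := by
  classical
  unfold numDiff
  refine le_trans (Finset.card_le_card ?_) (Finset.card_union_le _ _)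
  intro p hp
  simp only [Finset.mem_union, Finset.mem_filter, Finset.mem_univ, true_and] at hp ⊢
  by_contra hcon
  rw [not_or, not_not, not_not] at hcon
  exact hp (hcon.1.trans hcon.2)

end Vale.Agent.Lib.P037
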