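import Mathlib
import Vale.Agent.Lib.P037.GamDefs
namespace Vale.Agent.Lib.P037
open Finset

/-- Number of colourings `Fin n → Fin d` with all colours on `T` inside `s`. -/
theorem gam_count {n d : ℕ} (T : Finset (Fin n)) (s : Finset (Fin d)) :
    (univ.filter (fun f : Fin n → Fin d => ∀ u ∈ T, f u ∈ s)).card * d ^ T.card
      = s.card ^ T.card * d ^ n := by
  have h : univ.filter (fun f : Fin n → Fin d => ∀ u ∈ T, f u ∈ s)
      = Fintype.piFinset (fun u => if u ∈ T then s else univ) := by
    ext f
    simp only [mem_filter, mem_univ, true_and, Fintype.mem_piFinset]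
    constructor
    · intro h u
      by_cases hu : u ∈ T
      · rw [if_pos hu]
        exact h u hu
      · rw [if_neg hu]
        exact mem_univ _
    · intro h u hu
      have := h u
      rwa [if_pos hu] at this
  rw [h, Fintype.card_piFinset]
  have h2 : ∀ u : Fin n, (if u ∈ T then s else (univ : Finset (Fin d))).card
      = if u ∈ T then s.card else d := by
    intro u
    split_ifs <;> simp
  simp_rw [h2]
  rw [Finset.prod_ite, Finset.prod_const, Finset.prod_const]
  have hc1 : (univ.filter (fun u : Fin n => u ∈ T)) = T := by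
    ext u
    simp
  have hc2 : (univ.filter (fun u : Fin n => u ∉ T)).card = n - T.card := by
    have : (univ.filter (fun u : Fin n => u ∉ T)) = Tᶜ := by
      ext u
      simp
    rw [this, Finset.card_compl, Fintype.card_fin]
  have hle : T.card ≤ n := by
    have := Finset.card_le_univ T
    simpa using this
  rw [hc1, hc2, mul_assoc, ← pow_add, Nat.sub_add_cancel hle]

theorem gam_count_one {n d : ℕ} (c0 : Fin d) (w : Fin n) :
    d * (univ.filter (fun f : Fin n → Fin d => f w = c0)).card = d ^ n := by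
  have h := gam_count (n := n) (d := d) {w} {c0}
  simp only [mem_singleton, forall_eq, card_singleton, pow_one, one_mul] at h
  rw [mul_comm]
  exact h

theorem gam_count_two {n d : ℕ} (c0 : Fin d) (w u : Fin n) (hwu : w ≠ u) :
    d ^ 2 * (univ.filter (fun f : Fin n → Fin d => f w = c0 ∧ f u = c0)).card = d ^ n := by
  have h := gam_count (n := n) (d := d) {w, u} {c0}
  rw [Finset.card_pair hwu] at h
  simp only [mem_insert, mem_singleton, forall_eq_or_imp, forall_eq, card_singleton, one_pow,
    one_mul] at h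
  rw [mul_comm]
  exact h

/-- A Markov inequality for natural numbers. -/
theorem gam_markov {ι : Type*} (s : Finset ι) (Y : ι → ℕ) (F T : ℕ)
    (h : ∑ f ∈ s, Y f ≤ F * T) : 5 * (s.filter (fun f => 5 * T < Y f)).card ≤ F := by
  have h1 : (s.filter (fun f => 5 * T < Y f)).card * (5 * T + 1) ≤
      ∑ f ∈ s.filter (fun f => 5 * T < Y f), Y f := by
    rw [← smul_eq_mul, ← Finset.sum_const]
    apply Finset.sum_le_sum
    intro f hf
    have := (Finset.mem_filter.mp hf).2
    omega
  have h2 : ∑ f ∈ s.filter (fun f => 5 * T < Y f), Y f ≤ ∑ f ∈ s, Y f :=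
    Finset.sum_le_sum_of_subset (Finset.filter_subset _ _)
  have h3 : (s.filter (fun f => 5 * T < Y f)).card * (5 * T + 1) ≤ F * T :=
    le_trans h1 (le_trans h2 h)
  rcases Nat.eq_zero_or_pos T with hT | hT
  · subst hT
    simp only [mul_zero, zero_add, mul_one, Nat.le_zero] at h3
    omega
  · have h4 : 5 * (s.filter (fun f => 5 * T < Y f)).card * T ≤ F * T := by nlinarith
    exact Nat.le_of_mul_le_mul_right h4 hT

theorem gam_sum_single {n d : ℕ} (c0 : Fin d) (g : Fin n → ℕ) :
    ∑ f : Fin n → Fin d, d * (∑ w ∈ univ.filter (fun w => f w = c0), g w)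
      = d ^ n * ∑ w, g w := by
  calc ∑ f : Fin n → Fin d, d * (∑ w ∈ univ.filter (fun w => f w = c0), g w)
      = ∑ f : Fin n → Fin d, ∑ w, if f w = c0 then d * g w else 0 := by
        apply Finset.sum_congr rfl
        intro f _
        rw [Finset.mul_sum, Finset.sum_filter]
    _ = ∑ w, ∑ f : Fin n → Fin d, if f w = c0 then d * g w else 0 := Finset.sum_comm
    _ = ∑ w, d ^ n * g w := by
        apply Finset.sum_congr rfl
        intro w _
        rw [← Finset.sum_filter, Finset.sum_const, smul_eq_mul, ← mul_assoc,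
          mul_comm _ d, gam_count_one c0 w]
    _ = d ^ n * ∑ w, g w := by rw [Finset.mul_sum]

theorem gam_sum_pair {n d : ℕ} (c0 : Fin d) (g : Fin n → Fin n → ℕ) :
    ∑ f : Fin n → Fin d, d ^ 2 * (∑ w ∈ univ.filter (fun w => f w = c0),
        ∑ u ∈ (univ.filter (fun w => f w = c0)).filter (fun u => w < u), g w u)
      = d ^ n * ∑ w : Fin n, ∑ u ∈ univ.filter (fun u : Fin n => w < u), g w u := by
  have e1 : ∀ f : Fin n → Fin d, d ^ 2 * (∑ w ∈ univ.filter (fun w => f w = c0),
        ∑ u ∈ (univ.filter (fun w => f w = c0)).filter (fun u => w < u), g w u)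
      = ∑ w : Fin n, ∑ u ∈ univ.filter (fun u : Fin n => w < u),
          if (f w = c0 ∧ f u = c0) then d ^ 2 * g w u else 0 := by
    intro f
    rw [Finset.mul_sum, Finset.sum_filter]
    apply Finset.sum_congr rfl
    intro w _
    by_cases hw : f w = c0
    · rw [if_pos hw, Finset.mul_sum, Finset.filter_comm, Finset.sum_filter]
      apply Finset.sum_congr rfl
      intro u _
      simp [hw]
    · rw [if_neg hw]
      symm
      apply Finset.sum_eq_zero
      intro u _
      rw [if_neg]
      exact fun h => hw h.1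
  calc ∑ f : Fin n → Fin d, d ^ 2 * (∑ w ∈ univ.filter (fun w => f w = c0),
        ∑ u ∈ (univ.filter (fun w => f w = c0)).filter (fun u => w < u), g w u)
      = ∑ f : Fin n → Fin d, ∑ w : Fin n, ∑ u ∈ univ.filter (fun u : Fin n => w < u),
          if (f w = c0 ∧ f u = c0) then d ^ 2 * g w u else 0 :=
        Finset.sum_congr rfl (fun f _ => e1 f)
    _ = ∑ w : Fin n, ∑ f : Fin n → Fin d, ∑ u ∈ univ.filter (fun u : Fin n => w < u),
          if (f w = c0 ∧ f u = c0) then d ^ 2 * g w u else 0 := Finset.sum_comm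
    _ = ∑ w : Fin n, ∑ u ∈ univ.filter (fun u : Fin n => w < u), ∑ f : Fin n → Fin d,
          if (f w = c0 ∧ f u = c0) then d ^ 2 * g w u else 0 :=
        Finset.sum_congr rfl (fun w _ => Finset.sum_comm)
    _ = ∑ w : Fin n, ∑ u ∈ univ.filter (fun u : Fin n => w < u), d ^ n * g w u := by
        apply Finset.sum_congr rfl
        intro w _
        apply Finset.sum_congr rfl
        intro u hu
        have hwu : w ≠ u := ne_of_lt (Finset.mem_filter.mp hu).2
        rw [← Finset.sum_filter, Finset.sum_const, smul_eq_mul, ← mul_assoc,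
          mul_comm _ (d ^ 2), gam_count_two c0 w u hwu]
    _ = d ^ n * ∑ w : Fin n, ∑ u ∈ univ.filter (fun u : Fin n => w < u), g w u := by
        rw [Finset.mul_sum]
        apply Finset.sum_congr rfl
        intro w _
        rw [Finset.mul_sum]

theorem gam_card_lt {n : ℕ} :
    2 * (univ.filter (fun p : Fin n × Fin n => p.1 < p.2)).card ≤ n ^ 2 := by
  have h1 : (univ.filter (fun p : Fin n × Fin n => p.1 < p.2)).card ≤
      (univ.filter (fun p : Fin n × Fin n => p.2 < p.1)).card := by
    apply Finset.card_le_card_of_injOn Prod.swap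
    · intro p hp
      simp only [coe_filter, mem_univ, true_and, Set.mem_ofPred_eq] at hp ⊢
      exact hp
    · intro p _ q _ h
      exact Prod.swap_injective h
  have hdisj : Disjoint (univ.filter (fun p : Fin n × Fin n => p.1 < p.2))
      (univ.filter (fun p : Fin n × Fin n => p.2 < p.1)) := by
    rw [Finset.disjoint_filter]
    intro p _ h1 h2
    exact lt_asymm h1 h2
  have h2 : (univ.filter (fun p : Fin n × Fin n => p.1 < p.2)).card +
      (univ.filter (fun p : Fin n × Fin n => p.2 < p.1)).card ≤ n ^ 2 := by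
    rw [← Finset.card_union_of_disjoint hdisj]
    have := Finset.card_le_univ ((univ.filter (fun p : Fin n × Fin n => p.1 < p.2)) ∪
      (univ.filter (fun p : Fin n × Fin n => p.2 < p.1)))
    simpa [sq] using this
  omega

theorem gam_sum_loss {n d : ℕ} (A : Fin n → Fin n → Bool) (c0 : Fin d) :
    ∑ f : Fin n → Fin d, gamLoss A (univ.filter (fun w => f w = c0))
      ≤ (univ.filter (fun p : Fin n × Fin n => p.1 < p.2)).card * (d * d ^ n) := by
  unfold gamLoss
  rw [← Finset.card_sigma]
  have hcard : (univ.filter (fun p : Fin n × Fin n => p.1 < p.2)).card * (d * d ^ n)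
      = ((univ.filter (fun p : Fin n × Fin n => p.1 < p.2)) ×ˢ
        ((univ : Finset (Fin d)) ×ˢ (univ : Finset (Fin n → Fin d)))).card := by
    simp [Finset.card_product]
  rw [hcard]
  apply Finset.card_le_card_of_injOn
    (fun q : (Σ _ : Fin n → Fin d, Fin n × Fin n × Fin n) =>
      ((q.2.1, q.2.2.1), (q.1 q.2.2.2, Function.update q.1 q.2.2.2 c0)))
  · intro q hq
    have hq' := Finset.mem_coe.mp hq
    rw [Finset.mem_sigma, Finset.mem_filter] at hq'
    simp only [coe_product, coe_filter, mem_univ, true_and, coe_univ, Set.mem_prod,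
      Set.mem_ofPred_eq, Set.mem_univ, and_true]
    exact hq'.2.2.1
  · intro q hq q' hq' heq
    have hq1 := Finset.mem_coe.mp hq
    have hq1' := Finset.mem_coe.mp hq'
    rw [Finset.mem_sigma, Finset.mem_filter] at hq1 hq1'
    obtain ⟨f, x, y, u⟩ := q
    obtain ⟨g, x', y', u'⟩ := q'
    simp only [Prod.mk.injEq] at heq
    obtain ⟨⟨hx, hy⟩, hcol, hupd⟩ := heq
    subst hx
    subst hy
    obtain ⟨-, -, -, hAx, hAy, hf⟩ := hq1
    obtain ⟨-, -, -, hAx', hAy', hg⟩ := hq1'
    simp only at hAx hAy hf hAx' hAy' hg hcol hupd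
    have huu : u = u' := by
      rcases lt_trichotomy u u' with h | h | h
      · exfalso
        have h1 := congrFun hupd u
        rw [Function.update_self, Function.update_of_ne (ne_of_lt h)] at h1
        exact hg u (Finset.mem_filter.mpr ⟨Finset.mem_univ _, h1.symm⟩) h ⟨hAx, hAy⟩
      · exact h
      · exfalso
        have h1 := congrFun hupd u'
        rw [Function.update_self, Function.update_of_ne (ne_of_lt h)] at h1
        exact hf u' (Finset.mem_filter.mpr ⟨Finset.mem_univ _, h1⟩) h ⟨hAx', hAy'⟩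
    subst huu
    have hfg : f = g := by
      funext w
      by_cases hw : w = u
      · subst hw
        exact hcol
      · have h1 := congrFun hupd w
        rwa [Function.update_of_ne hw, Function.update_of_ne hw] at h1
    subst hfg
    rfl

theorem exists_pivots {n : ℕ} (A : Fin n → Fin n → Bool) (d : ℕ) (hd : 1 ≤ d)
    (g₁ : Fin n → Fin n → ℕ) (g₂ : Fin n → ℕ) :
    ∃ W : Finset (Fin n),
      d ^ 2 * (∑ w ∈ W, ∑ u ∈ W.filter (fun u => w < u), g₁ w u) ≤
        5 * ∑ w : Fin n, ∑ u ∈ univ.filter (fun u : Fin n => w < u), g₁ w u ∧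
      d * (∑ w ∈ W, g₂ w) ≤ 5 * ∑ w : Fin n, g₂ w ∧
      2 * gamLoss A W ≤ 5 * d * n ^ 2 ∧
      d * W.card ≤ 5 * n := by
  have S1 := le_of_eq (gam_sum_pair (n := n) (d := d) ⟨0, hd⟩ g₁)
  have S2 := le_of_eq (gam_sum_single (n := n) (d := d) ⟨0, hd⟩ g₂)
  have S3 : ∑ f : Fin n → Fin d, 2 * gamLoss A (univ.filter (fun w => f w = (⟨0, hd⟩ : Fin d)))
      ≤ d ^ n * (d * n ^ 2) := by
    rw [← Finset.mul_sum]
    have h1 := gam_sum_loss (n := n) (d := d) A ⟨0, hd⟩
    have h2 := gam_card_lt (n := n)
    calc 2 * ∑ f : Fin n → Fin d, gamLoss A (univ.filter (fun w => f w = (⟨0, hd⟩ : Fin d)))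
        ≤ 2 * ((univ.filter (fun p : Fin n × Fin n => p.1 < p.2)).card * (d * d ^ n)) :=
          Nat.mul_le_mul_left 2 h1
      _ = (2 * (univ.filter (fun p : Fin n × Fin n => p.1 < p.2)).card) * (d * d ^ n) := by ring
      _ ≤ n ^ 2 * (d * d ^ n) := Nat.mul_le_mul_right _ h2
      _ = d ^ n * (d * n ^ 2) := by ring
  have S4 : ∑ f : Fin n → Fin d, d * (univ.filter (fun w => f w = (⟨0, hd⟩ : Fin d))).card
      ≤ d ^ n * n := by
    have h := gam_sum_single (n := n) (d := d) ⟨0, hd⟩ (fun _ => 1)
    simp only [sum_const, smul_eq_mul, mul_one, card_univ, Fintype.card_fin] at h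
    exact le_of_eq h
  have M1 := gam_markov univ _ _ _ S1
  have M2 := gam_markov univ _ _ _ S2
  have M3 := gam_markov univ _ _ _ S3
  have M4 := gam_markov univ _ _ _ S4
  have hF : 0 < d ^ n := Nat.pow_pos hd
  have hex : ∃ f : Fin n → Fin d,
      f ∉ (univ.filter (fun f : Fin n → Fin d =>
          5 * (∑ w : Fin n, ∑ u ∈ univ.filter (fun u : Fin n => w < u), g₁ w u) <
            d ^ 2 * (∑ w ∈ univ.filter (fun w => f w = (⟨0, hd⟩ : Fin d)),
              ∑ u ∈ (univ.filter (fun w => f w = (⟨0, hd⟩ : Fin d))).filter (fun u => w < u),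
                g₁ w u))) ∧
      f ∉ (univ.filter (fun f : Fin n → Fin d =>
          5 * (∑ w : Fin n, g₂ w) <
            d * (∑ w ∈ univ.filter (fun w => f w = (⟨0, hd⟩ : Fin d)), g₂ w))) ∧
      f ∉ (univ.filter (fun f : Fin n → Fin d =>
          5 * (d * n ^ 2) < 2 * gamLoss A (univ.filter (fun w => f w = (⟨0, hd⟩ : Fin d))))) ∧
      f ∉ (univ.filter (fun f : Fin n → Fin d =>
          5 * n < d * (univ.filter (fun w => f w = (⟨0, hd⟩ : Fin d))).card)) := by
    by_contra hno
    push Not at hno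
    have hsub : (univ : Finset (Fin n → Fin d)) ⊆
        ((univ.filter (fun f : Fin n → Fin d =>
          5 * (∑ w : Fin n, ∑ u ∈ univ.filter (fun u : Fin n => w < u), g₁ w u) <
            d ^ 2 * (∑ w ∈ univ.filter (fun w => f w = (⟨0, hd⟩ : Fin d)),
              ∑ u ∈ (univ.filter (fun w => f w = (⟨0, hd⟩ : Fin d))).filter (fun u => w < u),
                g₁ w u))) ∪
        (univ.filter (fun f : Fin n → Fin d =>
          5 * (∑ w : Fin n, g₂ w) <
            d * (∑ w ∈ univ.filter (fun w => f w = (⟨0, hd⟩ : Fin d)), g₂ w)))) ∪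
        ((univ.filter (fun f : Fin n → Fin d =>
          5 * (d * n ^ 2) < 2 * gamLoss A (univ.filter (fun w => f w = (⟨0, hd⟩ : Fin d))))) ∪
        (univ.filter (fun f : Fin n → Fin d =>
          5 * n < d * (univ.filter (fun w => f w = (⟨0, hd⟩ : Fin d))).card))) := by
      intro f _
      rw [Finset.mem_union, Finset.mem_union, Finset.mem_union]
      by_contra hf
      push Not at hf
      exact hf.2.2 (hno f hf.1.1 hf.1.2 hf.2.1)
    have hc := Finset.card_le_card hsub
    rw [Finset.card_univ, Fintype.card_fun, Fintype.card_fin, Fintype.card_fin] at hc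
    have hu1 := Finset.card_union_le
      ((univ.filter (fun f : Fin n → Fin d =>
          5 * (∑ w : Fin n, ∑ u ∈ univ.filter (fun u : Fin n => w < u), g₁ w u) <
            d ^ 2 * (∑ w ∈ univ.filter (fun w => f w = (⟨0, hd⟩ : Fin d)),
              ∑ u ∈ (univ.filter (fun w => f w = (⟨0, hd⟩ : Fin d))).filter (fun u => w < u),
                g₁ w u))) ∪
        (univ.filter (fun f : Fin n → Fin d =>
          5 * (∑ w : Fin n, g₂ w) <
            d * (∑ w ∈ univ.filter (fun w => f w = (⟨0, hd⟩ : Fin d)), g₂ w))))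
      ((univ.filter (fun f : Fin n → Fin d =>
          5 * (d * n ^ 2) < 2 * gamLoss A (univ.filter (fun w => f w = (⟨0, hd⟩ : Fin d))))) ∪
        (univ.filter (fun f : Fin n → Fin d =>
          5 * n < d * (univ.filter (fun w => f w = (⟨0, hd⟩ : Fin d))).card)))
    have hu2 := Finset.card_union_le
      (univ.filter (fun f : Fin n → Fin d =>
          5 * (∑ w : Fin n, ∑ u ∈ univ.filter (fun u : Fin n => w < u), g₁ w u) <
            d ^ 2 * (∑ w ∈ univ.filter (fun w => f w = (⟨0, hd⟩ : Fin d)),
              ∑ u ∈ (univ.filter (fun w => f w = (⟨0, hd⟩ : Fin d))).filter (fun u => w < u),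
                g₁ w u)))
      (univ.filter (fun f : Fin n → Fin d =>
          5 * (∑ w : Fin n, g₂ w) <
            d * (∑ w ∈ univ.filter (fun w => f w = (⟨0, hd⟩ : Fin d)), g₂ w)))
    have hu3 := Finset.card_union_le
      (univ.filter (fun f : Fin n → Fin d =>
          5 * (d * n ^ 2) < 2 * gamLoss A (univ.filter (fun w => f w = (⟨0, hd⟩ : Fin d)))))
      (univ.filter (fun f : Fin n → Fin d =>
          5 * n < d * (univ.filter (fun w => f w = (⟨0, hd⟩ : Fin d))).card))
    omega
  obtain ⟨f, h1, h2, h3, h4⟩ := hex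
  rw [Finset.mem_filter] at h1 h2 h3 h4
  refine ⟨univ.filter (fun w => f w = (⟨0, hd⟩ : Fin d)), ?_, ?_, ?_, ?_⟩
  · by_contra hc
    exact h1 ⟨Finset.mem_univ _, not_le.mp hc⟩
  · by_contra hc
    exact h2 ⟨Finset.mem_univ _, not_le.mp hc⟩
  · by_contra hc
    rw [mul_assoc] at hc
    exact h3 ⟨Finset.mem_univ _, not_le.mp hc⟩
  · by_contra hc
    exact h4 ⟨Finset.mem_univ _, not_le.mp hc⟩

end Vale.Agent.Lib.P037
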