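import Mathlib
import Vale.Agent.Lib.P037.Defs
import Vale.Agent.Lib.P037.GamDefs
namespace Vale.Agent.Lib.P037
open Finset

/-- Among at least `r` elements of a linear order carrying weights `g`, there is an element `t`
with fewer than `r` elements below it whose weight is at most the total weight divided by `r`. -/
theorem exists_good_min {α : Type*} [LinearOrder α] (M : Finset α) (g : α → ℕ) (r : ℕ)
    (hr : 1 ≤ r) (hM : r ≤ M.card) :
    ∃ t ∈ M, (M.filter (fun x => x < t)).card + 1 ≤ r ∧ r * g t ≤ ∑ x ∈ M, g x := by
  classical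
  have hbad : (M.filter (fun t => ∑ x ∈ M, g x < r * g t)).card < r := by
    by_contra hcon
    rw [not_lt] at hcon
    have h1 : ∑ t ∈ M.filter (fun t => ∑ x ∈ M, g x < r * g t), r * g t
        ≤ r * ∑ x ∈ M, g x := by
      rw [← Finset.mul_sum]
      exact Nat.mul_le_mul_left r (Finset.sum_le_sum_of_subset (Finset.filter_subset _ _))
    have h2 : (M.filter (fun t => ∑ x ∈ M, g x < r * g t)).card * (∑ x ∈ M, g x + 1)
        ≤ ∑ t ∈ M.filter (fun t => ∑ x ∈ M, g x < r * g t), r * g t := by
      rw [← smul_eq_mul, ← Finset.sum_const]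
      apply Finset.sum_le_sum
      intro t ht
      have := (Finset.mem_filter.1 ht).2
      omega
    have h3 : r * (∑ x ∈ M, g x + 1)
        ≤ (M.filter (fun t => ∑ x ∈ M, g x < r * g t)).card * (∑ x ∈ M, g x + 1) :=
      Nat.mul_le_mul_right _ hcon
    have h4 : r * (∑ x ∈ M, g x + 1) = r * ∑ x ∈ M, g x + r := by ring
    omega
  have hsplit := Finset.card_filter_add_card_filter_not (s := M)
    (fun t => ∑ x ∈ M, g x < r * g t)
  have hne : (M.filter (fun t => ¬ ∑ x ∈ M, g x < r * g t)).Nonempty := by
    rw [← Finset.card_pos]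
    omega
  refine ⟨(M.filter (fun t => ¬ ∑ x ∈ M, g x < r * g t)).min' hne, ?_, ?_, ?_⟩
  · exact (Finset.mem_filter.1 (Finset.min'_mem _ hne)).1
  · have hsub : M.filter (fun x => x < (M.filter (fun t => ¬ ∑ x ∈ M, g x < r * g t)).min' hne)
        ⊆ M.filter (fun t => ∑ x ∈ M, g x < r * g t) := by
      intro x hx
      rw [Finset.mem_filter] at hx ⊢
      refine ⟨hx.1, ?_⟩
      by_contra hnot
      have hmem : x ∈ M.filter (fun t => ¬ ∑ x ∈ M, g x < r * g t) :=
        Finset.mem_filter.2 ⟨hx.1, hnot⟩
      exact absurd (Finset.min'_le _ x hmem) (not_le.2 hx.2)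
    have := Finset.card_le_card hsub
    omega
  · have := (Finset.mem_filter.1 (Finset.min'_mem _ hne)).2
    omega

/-- The rows with a one in column `u`. -/
def gamOnes {n : ℕ} (A : Fin n → Fin n → Bool) (u : Fin n) : Finset (Fin n) :=
  univ.filter (fun x : Fin n => A x u = true)

open Classical in
/-- The number of rows `x > t` with a one in column `u` that are not linked to `t` at time `u`. -/
noncomputable def gamColA {n : ℕ} (A : Fin n → Fin n → Bool) (W : Finset (Fin n))
    (u t : Fin n) : ℕ :=
  (univ.filter (fun x : Fin n => t < x ∧ A x u = true ∧ ¬ gamLink A W (u : ℕ) t x)).card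

open Classical in
/-- The number of rows reachable from `t` at time `u` that have a zero in column `u`. -/
noncomputable def gamColB {n : ℕ} (A : Fin n → Fin n → Bool) (W : Finset (Fin n))
    (u t : Fin n) : ℕ :=
  (univ.filter (fun y : Fin n =>
    Relation.TransGen (gamLink A W (u : ℕ)) t y ∧ A y u = false)).card

theorem gam_numDiff_eq {n : ℕ} (A B : Fin n → Fin n → Bool) :
    numDiff A B = ∑ u : Fin n, (univ.filter (fun x : Fin n => A x u ≠ B x u)).card := by
  unfold numDiff
  rw [Finset.card_filter, Fintype.sum_prod_type_right]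
  simp only [Finset.card_filter]

open Classical in
/-- The cost of a single column for a suitable choice of its root. -/
theorem gam_col_cost {n : ℕ} (A : Fin n → Fin n → Bool) (W : Finset (Fin n)) (r : ℕ)
    (hr : 1 ≤ r) (u : Fin n) :
    ∃ o : Option (Fin n),
      r * (univ.filter (fun x : Fin n => A x u ≠ gamBuild A W (fun _ => o) x u)).card
        ≤ r ^ 2 + ∑ t ∈ gamOnes A u, (gamColA A W u t + gamColB A W u t) := by
  by_cases huW : u ∈ W
  · refine ⟨none, ?_⟩
    have hempty : univ.filter (fun x : Fin n => A x u ≠ gamBuild A W (fun _ => none) x u) = ∅ := by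
      apply Finset.filter_eq_empty_iff.2
      intro x _
      simp [gamBuild, huW]
    rw [hempty]
    simp
  · by_cases hcard : r ≤ (gamOnes A u).card
    · obtain ⟨t, htM, hlt, hg⟩ := exists_good_min (gamOnes A u)
        (fun t => gamColA A W u t + gamColB A W u t) r hr hcard
      refine ⟨some t, ?_⟩
      have htu : A t u = true := (Finset.mem_filter.1 htM).2
      have hsub : univ.filter (fun x : Fin n => A x u ≠ gamBuild A W (fun _ => some t) x u)
          ⊆ ((gamOnes A u).filter (fun x => x < t)
            ∪ univ.filter (fun x : Fin n =>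
                t < x ∧ A x u = true ∧ ¬ gamLink A W (u : ℕ) t x))
            ∪ univ.filter (fun y : Fin n =>
                Relation.TransGen (gamLink A W (u : ℕ)) t y ∧ A y u = false) := by
        intro x hx
        rw [Finset.mem_filter] at hx
        have hx2 := hx.2
        simp only [gamBuild, if_neg huW] at hx2
        by_cases hAx : A x u = true
        · have hnot : ¬ (x = t ∨ Relation.TransGen (gamLink A W (u : ℕ)) t x) := by
            intro h
            apply hx2
            rw [hAx]
            exact (decide_eq_true h).symm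
          have hxt : x ≠ t := fun h => hnot (Or.inl h)
          rcases lt_or_gt_of_ne hxt with hlt' | hgt
          · apply Finset.mem_union_left
            apply Finset.mem_union_left
            rw [Finset.mem_filter]
            exact ⟨Finset.mem_filter.2 ⟨Finset.mem_univ _, hAx⟩, hlt'⟩
          · apply Finset.mem_union_left
            apply Finset.mem_union_right
            rw [Finset.mem_filter]
            refine ⟨Finset.mem_univ _, hgt, hAx, ?_⟩
            intro hlink
            exact hnot (Or.inr (Relation.TransGen.single hlink))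
        · have hAx' : A x u = false := by simpa using hAx
          have hyes : x = t ∨ Relation.TransGen (gamLink A W (u : ℕ)) t x := by
            by_contra h
            apply hx2
            rw [hAx']
            exact (decide_eq_false h).symm
          apply Finset.mem_union_right
          rw [Finset.mem_filter]
          refine ⟨Finset.mem_univ _, ?_, hAx'⟩
          rcases hyes with h | h
          · rw [h, htu] at hAx'
            exact absurd hAx' (by simp)
          · exact h
      have hc := Finset.card_le_card hsub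
      have hc2 := Finset.card_union_le ((gamOnes A u).filter (fun x => x < t)
            ∪ univ.filter (fun x : Fin n =>
                t < x ∧ A x u = true ∧ ¬ gamLink A W (u : ℕ) t x))
            (univ.filter (fun y : Fin n =>
                Relation.TransGen (gamLink A W (u : ℕ)) t y ∧ A y u = false))
      have hc3 := Finset.card_union_le ((gamOnes A u).filter (fun x => x < t))
            (univ.filter (fun x : Fin n =>
                t < x ∧ A x u = true ∧ ¬ gamLink A W (u : ℕ) t x))
      have hc4 : (univ.filter (fun x : Fin n => A x u ≠ gamBuild A W (fun _ => some t) x u)).card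
          ≤ (r - 1) + (gamColA A W u t + gamColB A W u t) := by
        unfold gamColA gamColB
        omega
      have hg' : r * (gamColA A W u t + gamColB A W u t)
          ≤ ∑ t ∈ gamOnes A u, (gamColA A W u t + gamColB A W u t) := hg
      calc r * (univ.filter (fun x : Fin n => A x u ≠ gamBuild A W (fun _ => some t) x u)).card
          ≤ r * ((r - 1) + (gamColA A W u t + gamColB A W u t)) := Nat.mul_le_mul_left r hc4
        _ = r * (r - 1) + r * (gamColA A W u t + gamColB A W u t) := by ring
        _ ≤ r ^ 2 + ∑ t ∈ gamOnes A u, (gamColA A W u t + gamColB A W u t) := by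
            apply Nat.add_le_add _ hg'
            rw [pow_two]
            exact Nat.mul_le_mul_left r (Nat.sub_le r 1)
    · refine ⟨none, ?_⟩
      have heq : univ.filter (fun x : Fin n => A x u ≠ gamBuild A W (fun _ => none) x u)
          = gamOnes A u := by
        unfold gamOnes
        apply Finset.filter_congr
        intro x _
        simp [gamBuild, huW]
      rw [heq]
      rw [not_le] at hcard
      calc r * (gamOnes A u).card ≤ r * r := Nat.mul_le_mul_left r hcard.le
        _ = r ^ 2 := (pow_two r).symm
        _ ≤ r ^ 2 + ∑ t ∈ gamOnes A u, (gamColA A W u t + gamColB A W u t) := Nat.le_add_right _ _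

open Classical in
theorem gam_sumA_le {n : ℕ} (A : Fin n → Fin n → Bool) (W : Finset (Fin n)) :
    ∑ u : Fin n, ∑ t ∈ gamOnes A u, gamColA A W u t ≤ gamLoss A W := by
  have e1 : ∀ u : Fin n, ∑ t ∈ gamOnes A u, gamColA A W u t
      = ∑ t : Fin n, ∑ x : Fin n,
          (if (A t u = true ∧ t < x ∧ A x u = true ∧ ¬ gamLink A W (u : ℕ) t x) then 1 else 0) := by
    intro u
    unfold gamOnes gamColA
    rw [Finset.sum_filter]
    apply Finset.sum_congr rfl
    intro t _
    by_cases h : A t u = true
    · simp only [h, if_true, true_and, Finset.card_filter]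
    · simp [h]
  have e2 : gamLoss A W = ∑ t : Fin n, ∑ x : Fin n, ∑ u : Fin n,
      (if (t < x ∧ A t u = true ∧ A x u = true ∧
        ∀ w ∈ W, w < u → ¬ (A t w = true ∧ A x w = true)) then 1 else 0) := by
    unfold gamLoss
    rw [Finset.card_filter]
    simp only [Fintype.sum_prod_type]
  rw [e2]
  simp only [e1]
  rw [Finset.sum_comm]
  apply Finset.sum_le_sum
  intro t _
  rw [Finset.sum_comm]
  apply Finset.sum_le_sum
  intro x _
  apply Finset.sum_le_sum
  intro u _
  by_cases hQ : A t u = true ∧ t < x ∧ A x u = true ∧ ¬ gamLink A W (u : ℕ) t x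
  · have hP : t < x ∧ A t u = true ∧ A x u = true ∧
        ∀ w ∈ W, w < u → ¬ (A t w = true ∧ A x w = true) := by
      refine ⟨hQ.2.1, hQ.1, hQ.2.2.1, ?_⟩
      intro w hw hwu hboth
      exact hQ.2.2.2 ⟨hQ.2.1, w, hw, hwu, hboth.1, hboth.2⟩
    rw [if_pos hQ, if_pos hP]
  · rw [if_neg hQ]
    exact Nat.zero_le _

open Classical in
theorem gam_sumB_le {n : ℕ} (A : Fin n → Fin n → Bool) (W : Finset (Fin n)) (K : ℕ)
    (hchain : ∀ (t y : Fin n) (S : Finset (Fin n)),
      (∀ u ∈ S, Relation.TransGen (gamLink A W (u : ℕ)) t y ∧ A t u = true ∧ A y u = false) →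
      S.card ≤ W.card * K) :
    ∑ u : Fin n, ∑ t ∈ gamOnes A u, gamColB A W u t ≤ n ^ 2 * (W.card * K) := by
  have e1 : ∀ u : Fin n, ∑ t ∈ gamOnes A u, gamColB A W u t
      = ∑ t : Fin n, ∑ y : Fin n,
          (if (Relation.TransGen (gamLink A W (u : ℕ)) t y ∧ A t u = true ∧ A y u = false)
            then 1 else 0) := by
    intro u
    unfold gamOnes gamColB
    rw [Finset.sum_filter]
    apply Finset.sum_congr rfl
    intro t _
    by_cases h : A t u = true
    · simp only [h, if_true, true_and, Finset.card_filter]
    · simp [h]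
  simp only [e1]
  rw [Finset.sum_comm]
  have hty : ∀ t y : Fin n, ∑ u : Fin n,
      (if (Relation.TransGen (gamLink A W (u : ℕ)) t y ∧ A t u = true ∧ A y u = false)
        then 1 else 0) ≤ W.card * K := by
    intro t y
    rw [← Finset.card_filter]
    apply hchain t y
    intro u hu
    exact (Finset.mem_filter.1 hu).2
  calc ∑ t : Fin n, ∑ u : Fin n, ∑ y : Fin n,
        (if (Relation.TransGen (gamLink A W (u : ℕ)) t y ∧ A t u = true ∧ A y u = false)
          then 1 else 0)
      = ∑ t : Fin n, ∑ y : Fin n, ∑ u : Fin n,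
        (if (Relation.TransGen (gamLink A W (u : ℕ)) t y ∧ A t u = true ∧ A y u = false)
          then 1 else 0) := Finset.sum_congr rfl (fun t _ => Finset.sum_comm)
    _ ≤ ∑ _t : Fin n, ∑ _y : Fin n, W.card * K :=
        Finset.sum_le_sum (fun t _ => Finset.sum_le_sum (fun y _ => hty t y))
    _ = n ^ 2 * (W.card * K) := by
        simp only [Finset.sum_const, Finset.card_univ, Fintype.card_fin, smul_eq_mul]
        ring

/-- Choice of the roots: for a suitable `τ` the rebuilt matrix differs from `A` in few entries. -/
theorem exists_roots_aux {n : ℕ} (A : Fin n → Fin n → Bool) (W : Finset (Fin n)) (K r : ℕ)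
    (hr : 1 ≤ r)
    (hchain : ∀ (t y : Fin n) (S : Finset (Fin n)),
      (∀ u ∈ S, Relation.TransGen (gamLink A W (u : ℕ)) t y ∧ A t u = true ∧ A y u = false) →
      S.card ≤ W.card * K) :
    ∃ τ : Fin n → Option (Fin n),
      r * numDiff A (gamBuild A W τ) ≤ r ^ 2 * n + gamLoss A W + n ^ 2 * (W.card * K) := by
  classical
  have hcol := fun u : Fin n => gam_col_cost A W r hr u
  choose τ hτ using hcol
  refine ⟨τ, ?_⟩
  have h1 : r * numDiff A (gamBuild A W τ)
      ≤ ∑ u : Fin n, (r ^ 2 + ∑ t ∈ gamOnes A u, (gamColA A W u t + gamColB A W u t)) := by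
    rw [gam_numDiff_eq, Finset.mul_sum]
    apply Finset.sum_le_sum
    intro u _
    exact hτ u
  have h2 : ∑ u : Fin n, (r ^ 2 + ∑ t ∈ gamOnes A u, (gamColA A W u t + gamColB A W u t))
      = r ^ 2 * n + ∑ u : Fin n, ∑ t ∈ gamOnes A u, gamColA A W u t
        + ∑ u : Fin n, ∑ t ∈ gamOnes A u, gamColB A W u t := by
    simp only [Finset.sum_add_distrib, Finset.sum_const, Finset.card_univ, Fintype.card_fin,
      smul_eq_mul]
    ring
  have hA := gam_sumA_le A W
  have hB := gam_sumB_le A W K hchain
  calc r * numDiff A (gamBuild A W τ)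
      ≤ r ^ 2 * n + ∑ u : Fin n, ∑ t ∈ gamOnes A u, gamColA A W u t
        + ∑ u : Fin n, ∑ t ∈ gamOnes A u, gamColB A W u t := h2 ▸ h1
    _ ≤ r ^ 2 * n + gamLoss A W + n ^ 2 * (W.card * K) :=
        Nat.add_le_add (Nat.add_le_add_left hA _) hB

end Vale.Agent.Lib.P037
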