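import Mathlib
import Vale.Agent.Lib.P037.Defs
import Vale.Agent.Lib.P037.Basic
import Vale.Agent.Lib.P037.GamDefs
import Vale.Agent.Lib.P037.GamCover
import Vale.Agent.Lib.P037.GamIface
import Vale.Agent.Lib.P037.GamPivot
import Vale.Agent.Lib.P037.GamFree
import Vale.Agent.Lib.P037.GamChain
import Vale.Agent.Lib.P037.GamClean
import Vale.Agent.Lib.P037.GamRoots

namespace Vale.Agent.Lib.P037

open Finset

theorem gam_arith (n e d K r T₁ T₂ G₁ G₂ L q D₂ N : ℝ)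
    (hn : 0 < n) (he : 0 < e) (he1 : e ≤ 1)
    (hr1 : e * n / 8 ≤ r) (hr2 : r ≤ e * n / 4)
    (hd1 : e ^ 2 * n / 400 ≤ d)
    (hK1 : e ^ 4 * n / 10 ^ 6 ≤ K) (hK2 : K ≤ e ^ 4 * n / (5 * 10 ^ 5))
    (hG₁ : 0 ≤ G₁) (hG₂ : 0 ≤ G₂) (hL : 0 ≤ L) (hq : 0 ≤ q)
    (hd2 : d ≤ e ^ 2 * n / 200)
    (hN : N ≤ (e ^ 8 / 10 ^ 12) ^ 2 * n ^ 4)
    (h1 : T₁ ^ 2 ≤ 4 * n ^ 2 * N) (h2 : K * T₂ ≤ 2 * T₁) (h3 : d ^ 2 * G₁ ≤ 5 * T₁)
    (h4 : d * G₂ ≤ 5 * T₂) (h5 : 2 * L ≤ 5 * d * n ^ 2) (h6 : d * q ≤ 5 * n)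
    (h7 : r * D₂ ≤ r ^ 2 * n + L + n ^ 2 * (q * K)) :
    n * (G₁ + G₂) + D₂ < e * n ^ 2 := by
  have hd0 : 0 < d := lt_of_lt_of_le (by positivity) hd1
  have hK0 : 0 < K := lt_of_lt_of_le (by positivity) hK1
  have hr0 : 0 < r := lt_of_lt_of_le (by positivity) hr1
  -- T₁ ≤ 2 σ n^3
  have hT : T₁ ≤ 2 * (e ^ 8 / 10 ^ 12) * n ^ 3 := by
    have hsq : T₁ ^ 2 ≤ (2 * (e ^ 8 / 10 ^ 12) * n ^ 3) ^ 2 := by
      calc T₁ ^ 2 ≤ 4 * n ^ 2 * N := h1
        _ ≤ 4 * n ^ 2 * ((e ^ 8 / 10 ^ 12) ^ 2 * n ^ 4) := by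
            apply mul_le_mul_of_nonneg_left hN; positivity
        _ = (2 * (e ^ 8 / 10 ^ 12) * n ^ 3) ^ 2 := by ring
    exact (abs_le_of_sq_le_sq' hsq (by positivity)).2
  -- G₁ bound
  have hG1 : G₁ ≤ e * n / 100 := by
    have hpos : 0 < (e ^ 2 * n / 400) ^ 2 := by positivity
    have hle : (e ^ 2 * n / 400) ^ 2 * G₁ ≤ (e ^ 2 * n / 400) ^ 2 * (e * n / 100) := by
      calc (e ^ 2 * n / 400) ^ 2 * G₁ ≤ d ^ 2 * G₁ := by
            apply mul_le_mul_of_nonneg_right _ hG₁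
            exact pow_le_pow_left₀ (by positivity) hd1 2
        _ ≤ 5 * T₁ := h3
        _ ≤ 5 * (2 * (e ^ 8 / 10 ^ 12) * n ^ 3) := by linarith
        _ ≤ (e ^ 2 * n / 400) ^ 2 * (e * n / 100) := by
            have h8 : e ^ 8 ≤ e ^ 5 := pow_le_pow_of_le_one he.le he1 (by norm_num)
            have hn3 : 0 < n ^ 3 := by positivity
            have : 5 * (2 * (e ^ 8 / 10 ^ 12) * n ^ 3) ≤ 5 * (2 * (e ^ 5 / 10 ^ 12) * n ^ 3) := by
              have : e ^ 8 / 10 ^ 12 ≤ e ^ 5 / 10 ^ 12 := by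
                apply div_le_div_of_nonneg_right h8; positivity
              nlinarith
            calc 5 * (2 * (e ^ 8 / 10 ^ 12) * n ^ 3) ≤ 5 * (2 * (e ^ 5 / 10 ^ 12) * n ^ 3) := this
              _ ≤ (e ^ 2 * n / 400) ^ 2 * (e * n / 100) := by
                  have hp : 0 ≤ e ^ 5 * n ^ 3 := by positivity
                  have e1 : 5 * (2 * (e ^ 5 / 10 ^ 12) * n ^ 3) = (e ^ 5 * n ^ 3) * (10 / 10 ^ 12) := by
                    ring
                  have e2 : (e ^ 2 * n / 400) ^ 2 * (e * n / 100) = (e ^ 5 * n ^ 3) * (1 / 16000000) := by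
                    ring
                  rw [e1, e2]
                  apply mul_le_mul_of_nonneg_left _ hp
                  norm_num
    exact le_of_mul_le_mul_left hle hpos
  -- G₂ bound
  have hG2 : G₂ ≤ e * n / 100 := by
    have hpos : 0 < (e ^ 2 * n / 400) * (e ^ 4 * n / 10 ^ 6) := by positivity
    have hle : (e ^ 2 * n / 400) * (e ^ 4 * n / 10 ^ 6) * G₂ ≤
        (e ^ 2 * n / 400) * (e ^ 4 * n / 10 ^ 6) * (e * n / 100) := by
      calc (e ^ 2 * n / 400) * (e ^ 4 * n / 10 ^ 6) * G₂ ≤ d * K * G₂ := by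
            apply mul_le_mul_of_nonneg_right _ hG₂
            apply mul_le_mul hd1 hK1 (by positivity) hd0.le
        _ = K * (d * G₂) := by ring
        _ ≤ K * (5 * T₂) := by apply mul_le_mul_of_nonneg_left h4 hK0.le
        _ = 5 * (K * T₂) := by ring
        _ ≤ 5 * (2 * T₁) := by linarith
        _ ≤ 5 * (2 * (2 * (e ^ 8 / 10 ^ 12) * n ^ 3)) := by linarith
        _ ≤ (e ^ 2 * n / 400) * (e ^ 4 * n / 10 ^ 6) * (e * n / 100) := by
            have h8 : e ^ 8 ≤ e ^ 7 := pow_le_pow_of_le_one he.le he1 (by norm_num)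
            have hn3 : 0 ≤ n ^ 3 := by positivity
            have e1 : 5 * (2 * (2 * (e ^ 8 / 10 ^ 12) * n ^ 3)) = (e ^ 8 * n ^ 3) * (20 / 10 ^ 12) := by
              ring
            have e2 : (e ^ 2 * n / 400) * (e ^ 4 * n / 10 ^ 6) * (e * n / 100) =
                (e ^ 7 * n ^ 3) * (1 / (4 * 10 ^ 10)) := by ring
            rw [e1, e2]
            have : e ^ 8 * n ^ 3 ≤ e ^ 7 * n ^ 3 := mul_le_mul_of_nonneg_right h8 hn3
            have hp : 0 ≤ e ^ 7 * n ^ 3 := by positivity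
            calc (e ^ 8 * n ^ 3) * (20 / 10 ^ 12) ≤ (e ^ 7 * n ^ 3) * (20 / 10 ^ 12) := by
                  apply mul_le_mul_of_nonneg_right this; positivity
              _ ≤ (e ^ 7 * n ^ 3) * (1 / (4 * 10 ^ 10)) := by
                  apply mul_le_mul_of_nonneg_left _ hp
                  norm_num
    exact le_of_mul_le_mul_left hle hpos
  -- q K bound
  have hqK : q * K ≤ e ^ 2 * n / 250 := by
    have hpos : 0 < e ^ 2 * n / 400 := by positivity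
    have hle : (e ^ 2 * n / 400) * (q * K) ≤ (e ^ 2 * n / 400) * (e ^ 2 * n / 250) := by
      calc (e ^ 2 * n / 400) * (q * K) ≤ d * (q * K) := by
            apply mul_le_mul_of_nonneg_right hd1; positivity
        _ = (d * q) * K := by ring
        _ ≤ (5 * n) * K := by apply mul_le_mul_of_nonneg_right h6 hK0.le
        _ ≤ (5 * n) * (e ^ 4 * n / (5 * 10 ^ 5)) := by
            apply mul_le_mul_of_nonneg_left hK2; positivity
        _ = (e ^ 2 * n / 400) * (e ^ 2 * n / 250) := by ring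
    exact le_of_mul_le_mul_left hle hpos
  -- L bound
  have hLb : L ≤ e ^ 2 * n ^ 3 / 80 := by
    have : 5 * d * n ^ 2 ≤ 5 * (e ^ 2 * n / 200) * n ^ 2 := by
      have hn2 : 0 ≤ n ^ 2 := by positivity
      nlinarith
    have e1 : 5 * (e ^ 2 * n / 200) * n ^ 2 = 2 * (e ^ 2 * n ^ 3 / 80) := by ring
    linarith
  -- D₂ bound
  have hD2 : D₂ ≤ e * n ^ 2 / 4 + 4 * e * n ^ 2 / 25 := by
    have hnq : n ^ 2 * (q * K) ≤ n ^ 2 * (e ^ 2 * n / 250) := by
      apply mul_le_mul_of_nonneg_left hqK; positivity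
    have h7' : r * D₂ ≤ r * (r * n) + (e ^ 2 * n ^ 3 / 80 + n ^ 2 * (e ^ 2 * n / 250)) := by
      have : r ^ 2 * n = r * (r * n) := by ring
      linarith
    have hrn : r * n ≤ e * n ^ 2 / 4 := by
      have : r * n ≤ (e * n / 4) * n := mul_le_mul_of_nonneg_right hr2 hn.le
      have e1 : (e * n / 4) * n = e * n ^ 2 / 4 := by ring
      linarith
    have hrest : e ^ 2 * n ^ 3 / 80 + n ^ 2 * (e ^ 2 * n / 250) ≤ r * (4 * e * n ^ 2 / 25) := by
      have : (e * n / 8) * (4 * e * n ^ 2 / 25) ≤ r * (4 * e * n ^ 2 / 25) := by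
        apply mul_le_mul_of_nonneg_right hr1; positivity
      have e1 : (e * n / 8) * (4 * e * n ^ 2 / 25) = e ^ 2 * n ^ 3 / 50 := by ring
      have e2 : e ^ 2 * n ^ 3 / 80 + n ^ 2 * (e ^ 2 * n / 250) = e ^ 2 * n ^ 3 * (33 / 2000) := by
        ring
      have hp : 0 ≤ e ^ 2 * n ^ 3 := by positivity
      nlinarith
    have hle : r * D₂ ≤ r * (e * n ^ 2 / 4 + 4 * e * n ^ 2 / 25) := by
      have : r * (r * n) ≤ r * (e * n ^ 2 / 4) := mul_le_mul_of_nonneg_left hrn hr0.le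
      have e1 : r * (e * n ^ 2 / 4 + 4 * e * n ^ 2 / 25) =
          r * (e * n ^ 2 / 4) + r * (4 * e * n ^ 2 / 25) := by ring
      linarith
    exact le_of_mul_le_mul_left hle hr0
  have hfin : n * (G₁ + G₂) ≤ n * (e * n / 100 + e * n / 100) := by
    apply mul_le_mul_of_nonneg_left _ hn.le
    linarith
  have e3 : n * (e * n / 100 + e * n / 100) = e * n ^ 2 / 50 := by ring
  have hpos : 0 < e * n ^ 2 := by positivity
  linarith

/-- Sum of the cover sizes over all column pairs, squared, against the copy count. -/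
theorem gam_cover_sum_sq {n : ℕ} (A : Fin n → Fin n → Bool) (V : Fin n → Fin n → Finset (Fin n))
    (hV : ∀ w u : Fin n, (V w u).card ^ 2 ≤ 4 * gamInv A w u) :
    (∑ w : Fin n, ∑ u ∈ univ.filter (fun u : Fin n => w < u), (V w u).card) ^ 2 ≤
      4 * n ^ 2 * copyCount gamPattern A := by
  have hN := sum_gamInv_le_copyCount A
  set P : Finset (Fin n × Fin n) := (univ : Finset (Fin n × Fin n)).filter (fun p => p.1 < p.2)
    with hP
  have hsum : ∀ f : Fin n → Fin n → ℕ,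
      ∑ w : Fin n, ∑ u ∈ univ.filter (fun u : Fin n => w < u), f w u = ∑ p ∈ P, f p.1 p.2 := by
    intro f
    rw [hP, Finset.sum_filter, Fintype.sum_prod_type]
    apply Finset.sum_congr rfl
    intro w _
    rw [Finset.sum_filter]
  rw [hsum (fun w u => (V w u).card)]
  rw [hsum (fun w u => gamInv A w u)] at hN
  have hcs := sq_sum_le_card_mul_sum_sq (s := P) (f := fun p : Fin n × Fin n => (V p.1 p.2).card)
  have hPc : P.card ≤ n ^ 2 := by
    calc P.card ≤ (univ : Finset (Fin n × Fin n)).card := Finset.card_filter_le _ _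
      _ = n ^ 2 := by simp [sq]
  have h2 : ∑ p ∈ P, (V p.1 p.2).card ^ 2 ≤ 4 * copyCount gamPattern A := by
    calc ∑ p ∈ P, (V p.1 p.2).card ^ 2 ≤ ∑ p ∈ P, 4 * gamInv A p.1 p.2 :=
          Finset.sum_le_sum (fun p _ => hV p.1 p.2)
      _ = 4 * ∑ p ∈ P, gamInv A p.1 p.2 := by rw [Finset.mul_sum]
      _ ≤ 4 * copyCount gamPattern A := Nat.mul_le_mul_left 4 hN
  calc (∑ p ∈ P, (V p.1 p.2).card) ^ 2 ≤ P.card * ∑ p ∈ P, (V p.1 p.2).card ^ 2 := hcs
    _ ≤ n ^ 2 * (4 * copyCount gamPattern A) := Nat.mul_le_mul hPc h2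
    _ = 4 * n ^ 2 * copyCount gamPattern A := by ring

/-- The combinatorial core: for all parameters `d, K, r` there is a matrix `B` without a copy
of `gamPattern` whose distance from `A` is controlled by the listed chain of inequalities. -/
theorem gam_core {n : ℕ} (A : Fin n → Fin n → Bool) (d K r : ℕ) (hd : 1 ≤ d) (hr : 1 ≤ r) :
    ∃ B : Fin n → Fin n → Bool, IsFree gamPattern B ∧
      ∃ T₁ T₂ G₁ G₂ L q D₂ : ℕ,
        T₁ ^ 2 ≤ 4 * n ^ 2 * copyCount gamPattern A ∧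
        K * T₂ ≤ 2 * T₁ ∧
        d ^ 2 * G₁ ≤ 5 * T₁ ∧
        d * G₂ ≤ 5 * T₂ ∧
        2 * L ≤ 5 * d * n ^ 2 ∧
        d * q ≤ 5 * n ∧
        r * D₂ ≤ r ^ 2 * n + L + n ^ 2 * (q * K) ∧
        numDiff A B ≤ n * (G₁ + G₂) + D₂ := by
  obtain ⟨V, hV, hVsz⟩ := exists_covers A
  obtain ⟨W, h1, h2, h3, h4⟩ :=
    exists_pivots A d hd (fun w u => (V w u).card) (fun w => (gamZw V K w).card)
  obtain ⟨A₁, hS, hP2, hloss, hdiff⟩ := exists_clean A V hV K W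
  obtain ⟨τ, hτ⟩ := exists_roots_aux A₁ W K r hr
    (fun t y S hSu => card_chain_diff_le A₁ W hS K hP2 t y S hSu)
  refine ⟨gamBuild A₁ W τ, isFree_gamPattern_of_gamFree (gamBuild_gamFree A₁ W hS τ),
    ∑ w : Fin n, ∑ u ∈ univ.filter (fun u : Fin n => w < u), (V w u).card,
    ∑ w : Fin n, (gamZw V K w).card,
    ∑ w ∈ W, ∑ u ∈ W.filter (fun u => w < u), (V w u).card,
    ∑ w ∈ W, (gamZw V K w).card,
    gamLoss A W, W.card, numDiff A₁ (gamBuild A₁ W τ),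
    gam_cover_sum_sq A V hVsz, gamZw_sum_le V K, h1, h2, h3, h4, ?_, ?_⟩
  · calc r * numDiff A₁ (gamBuild A₁ W τ)
        ≤ r ^ 2 * n + gamLoss A₁ W + n ^ 2 * (W.card * K) := hτ
      _ ≤ r ^ 2 * n + gamLoss A W + n ^ 2 * (W.card * K) := by
          have := hloss
          omega
  · calc numDiff A (gamBuild A₁ W τ)
        ≤ numDiff A A₁ + numDiff A₁ (gamBuild A₁ W τ) := numDiff_triangle _ _ _
      _ ≤ n * ((∑ w ∈ W, ∑ u ∈ W.filter (fun u => w < u), (V w u).card) +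
            ∑ w ∈ W, (gamZw V K w).card) + numDiff A₁ (gamBuild A₁ W τ) :=
          Nat.add_le_add_right hdiff _

/-- Polynomial removal for `gamPattern`: a matrix that is `ε`-far from having no copy contains
at least `ε ^ 16 / 10 ^ 24 * n ^ 4` copies. -/
theorem gam_removal {n : ℕ} (A : Fin n → Fin n → Bool) (ε : ℝ) (hε : 0 < ε)
    (hfar : IsFar gamPattern A ε) :
    ε ^ 16 / 10 ^ 24 * (n : ℝ) ^ 4 ≤ (copyCount gamPattern A : ℝ) := by
  rcases Nat.eq_zero_or_pos n with hn0 | hnpos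
  · subst hn0
    simp
  by_contra hcon
  have hlt : (copyCount gamPattern A : ℝ) < ε ^ 16 / 10 ^ 24 * (n : ℝ) ^ 4 := not_le.mp hcon
  have hn : (0 : ℝ) < n := by exact_mod_cast hnpos
  have he1 : ε ≤ 1 := by
    have hz : IsFree gamPattern (fun _ _ => false : Fin n → Fin n → Bool) :=
      isFree_gamPattern_of_gamFree (by intro x y u v _ _ h; simp at h)
    have h := hfar _ hz
    have hnd : (numDiff A (fun _ _ => false) : ℝ) ≤ (n : ℝ) ^ 2 := by
      have : numDiff A (fun _ _ => false) ≤ n ^ 2 := by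
        unfold numDiff
        calc _ ≤ (univ : Finset (Fin n × Fin n)).card := Finset.card_filter_le _ _
          _ = n ^ 2 := by simp [sq]
      exact_mod_cast this
    have hn2 : (0 : ℝ) < (n : ℝ) ^ 2 := by positivity
    by_contra hc
    have : 1 < ε := not_le.mp hc
    nlinarith
  have hN1 : (1 : ℝ) ≤ copyCount gamPattern A := by
    exact_mod_cast copyCount_pos_of_isFar gamPattern A ε hε hnpos hfar
  have hbig : (10 : ℝ) ^ 6 < ε ^ 4 * n := by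
    have h1 : (10 : ℝ) ^ 24 < ε ^ 16 * (n : ℝ) ^ 4 := by
      have h0 : (1 : ℝ) < ε ^ 16 / 10 ^ 24 * (n : ℝ) ^ 4 := lt_of_le_of_lt hN1 hlt
      have h10 : (0 : ℝ) < 10 ^ 24 := by positivity
      calc (10 : ℝ) ^ 24 = 10 ^ 24 * 1 := by ring
        _ < 10 ^ 24 * (ε ^ 16 / 10 ^ 24 * (n : ℝ) ^ 4) := mul_lt_mul_of_pos_left h0 h10
        _ = ε ^ 16 * (n : ℝ) ^ 4 := by field_simp
    have h2 : ((10 : ℝ) ^ 6) ^ 4 < (ε ^ 4 * n) ^ 4 := by
      calc ((10 : ℝ) ^ 6) ^ 4 = 10 ^ 24 := by norm_num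
        _ < ε ^ 16 * (n : ℝ) ^ 4 := h1
        _ = (ε ^ 4 * n) ^ 4 := by ring
    exact lt_of_pow_lt_pow_left₀ 4 (by positivity) h2
  have he4 : ε ^ 4 ≤ ε ^ 2 := pow_le_pow_of_le_one hε.le he1 (by norm_num)
  have he2 : ε ^ 2 ≤ ε := by
    have := pow_le_pow_of_le_one hε.le he1 (show 1 ≤ 2 by norm_num)
    simpa using this
  have hb2 : (10 : ℝ) ^ 6 < ε ^ 2 * n := by
    have : ε ^ 4 * n ≤ ε ^ 2 * n := mul_le_mul_of_nonneg_right he4 hn.le
    linarith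
  have hb1 : (10 : ℝ) ^ 6 < ε * n := by
    have : ε ^ 2 * n ≤ ε * n := mul_le_mul_of_nonneg_right he2 hn.le
    linarith
  set r : ℕ := ⌈ε * n / 8⌉₊ with hrdef
  set d : ℕ := ⌈ε ^ 2 * n / 400⌉₊ with hddef
  set K : ℕ := ⌈ε ^ 4 * n / 10 ^ 6⌉₊ with hKdef
  have hr1 : ε * n / 8 ≤ (r : ℝ) := Nat.le_ceil _
  have hd1 : ε ^ 2 * n / 400 ≤ (d : ℝ) := Nat.le_ceil _
  have hK1 : ε ^ 4 * n / 10 ^ 6 ≤ (K : ℝ) := Nat.le_ceil _
  have hr2 : (r : ℝ) ≤ ε * n / 4 := by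
    have : (r : ℝ) < ε * n / 8 + 1 := Nat.ceil_lt_add_one (by positivity)
    linarith
  have hd2 : (d : ℝ) ≤ ε ^ 2 * n / 200 := by
    have : (d : ℝ) < ε ^ 2 * n / 400 + 1 := Nat.ceil_lt_add_one (by positivity)
    linarith
  have hK2 : (K : ℝ) ≤ ε ^ 4 * n / (5 * 10 ^ 5) := by
    have : (K : ℝ) < ε ^ 4 * n / 10 ^ 6 + 1 := Nat.ceil_lt_add_one (by positivity)
    have e1 : ε ^ 4 * n / (5 * 10 ^ 5) = 2 * (ε ^ 4 * n / 10 ^ 6) := by ring
    have : (1 : ℝ) < ε ^ 4 * n / 10 ^ 6 := by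
      rw [lt_div_iff₀ (by positivity)]
      linarith
    linarith
  have hr : 1 ≤ r := Nat.ceil_pos.mpr (by positivity)
  have hd : 1 ≤ d := Nat.ceil_pos.mpr (by positivity)
  obtain ⟨B, hB, T₁, T₂, G₁, G₂, L, q, D₂, c1, c2, c3, c4, c5, c6, c7, c8⟩ :=
    gam_core A d K r hd hr
  have hN : (copyCount gamPattern A : ℝ) ≤ (ε ^ 8 / 10 ^ 12) ^ 2 * (n : ℝ) ^ 4 := by
    have e1 : (ε ^ 8 / 10 ^ 12) ^ 2 * (n : ℝ) ^ 4 = ε ^ 16 / 10 ^ 24 * (n : ℝ) ^ 4 := by ring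
    rw [e1]
    exact hlt.le
  have key := gam_arith (n : ℝ) ε d K r T₁ T₂ G₁ G₂ L q D₂ (copyCount gamPattern A) hn hε he1
    hr1 hr2 hd1 hK1 hK2 (Nat.cast_nonneg _) (Nat.cast_nonneg _) (Nat.cast_nonneg _)
    (Nat.cast_nonneg _) hd2 hN (by exact_mod_cast c1) (by exact_mod_cast c2)
    (by exact_mod_cast c3) (by exact_mod_cast c4) (by exact_mod_cast c5) (by exact_mod_cast c6)
    (by exact_mod_cast c7)
  have hfarB := hfar B hB
  have hc8 : (numDiff A B : ℝ) ≤ (n : ℝ) * ((G₁ : ℝ) + G₂) + D₂ := by exact_mod_cast c8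
  linarith

end Vale.Agent.Lib.P037
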