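import Mathlib
import Vale.Agent.Lib.P037.Defs
import Vale.Agent.Lib.P037.Basic
import Vale.Agent.Lib.P037.BlowDefs
import Vale.Agent.Lib.P037.BlowFree
import Vale.Agent.Lib.P037.BlowCS
import Vale.Agent.Lib.P037.BlowInj
import Vale.Agent.Lib.P037.BlowStep
import Vale.Agent.Lib.P037.BlowGen
import Vale.Agent.Lib.P037.BlowBlock
import Vale.Agent.Lib.P037.GamDefs
import Vale.Agent.Lib.P037.GamMain
import Vale.Agent.Lib.P037.AllDefs
import Vale.Agent.Lib.P037.AllMain

namespace Vale.Agent.Lib.P037

open Finset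

/-- One duplication step: if `H` has the polynomial removal property then so does the pattern
obtained by duplicating one row and one column of `H`. -/
theorem dup_step {k : ℕ} (H : Fin k → Fin k → Bool) (i₀ j₀ : Fin k) (h : PolyRemovalK H) :
    PolyRemovalK (dupPat H i₀ j₀) := by
  refine dup_step_of H i₀ j₀ (fun n B hB => dup_free H i₀ j₀ B hB) ?_ h
  intro n A
  calc (copyCount H A) ^ 4 ≤ n ^ (6 * k - 2) * (dupZ H A i₀ j₀).card := dup_count_cs H A i₀ j₀
    _ ≤ n ^ (6 * k - 2) * (4 * copyCount (dupPat H i₀ j₀) A + 2 * n ^ (2 * k + 1)) :=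
        Nat.mul_le_mul_left _ (dup_count_inj H A i₀ j₀)

/-- Closure under blow-ups: if `H` has the polynomial removal property then so does every pattern
obtained from `H` by repeating rows and columns. -/
theorem blow_closure {k m : ℕ} (H : Fin k → Fin k → Bool) (h : PolyRemovalK H)
    (f g : Fin m → Fin k) (hf : Monotone f) (hg : Monotone g)
    (hfs : Function.Surjective f) (hgs : Function.Surjective g) :
    PolyRemovalK (fun i j => H (f i) (g j)) :=
  blow_of_dup (fun _ H' i₀ j₀ h' => dup_step H' i₀ j₀ h') H h f g hf hg hfs hgs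

/-- Every `2 × 2` pattern has the polynomial removal property (in the `PolyRemovalK` form). -/
theorem polyRemovalK_two (H₀ : Fin 2 → Fin 2 → Bool) : PolyRemovalK H₀ := by
  have hG : PolyRemoval G2 := by
    refine ⟨1 / 10 ^ 24, by positivity, 16, ?_⟩
    intro n A ε hε _ hfar
    have h := gam_removal A ε hε hfar
    have e : (1 : ℝ) / 10 ^ 24 * ε ^ 16 * (n : ℝ) ^ 4 = ε ^ 16 / 10 ^ 24 * (n : ℝ) ^ 4 := by ring
    rw [e]
    exact h
  obtain ⟨c, hc, C, hC⟩ := all_two_by_two hG H₀
  exact ⟨c, hc, C, fun n A ε hε hε1 hfar => by simpa using hC n A ε hε hε1 hfar⟩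

/-- Every square pattern made of at most four constant blocks has the polynomial removal
property. -/
theorem block_patterns {k : ℕ} (H₀ : Fin 2 → Fin 2 → Bool) (f g : Fin k → Fin 2)
    (hf : Monotone f) (hg : Monotone g) : PolyRemovalK (fun i j => H₀ (f i) (g j)) :=
  block_of_blow (fun _ _ H h f g hf hg hfs hgs => blow_closure H h f g hf hg hfs hgs)
    polyRemovalK_two H₀ f g hf hg

end Vale.Agent.Lib.P037
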