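import Mathlib
import Vale.Agent.Lib.P037.Defs
import Vale.Agent.Lib.P037.Basic

namespace Vale.Agent.Lib.P037

/-- `H` placed in the top-left corner of an `n × n` matrix, zeros elsewhere. -/
def padded {k : ℕ} (H : Fin k → Fin k → Bool) (n : ℕ) : Fin n → Fin n → Bool :=
  fun r c => if h : r.val < k ∧ c.val < k then H ⟨r.val, h.1⟩ ⟨c.val, h.2⟩ else false

theorem padded_castLE {k n : ℕ} (H : Fin k → Fin k → Bool) (hkn : k ≤ n) (i j : Fin k) :
    padded H n (Fin.castLE hkn i) (Fin.castLE hkn j) = H i j := by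
  unfold padded
  simp

theorem padded_not_free {k n : ℕ} (H : Fin k → Fin k → Bool) (hkn : k ≤ n) :
    ¬ IsFree H (padded H n) := by
  intro hfree
  exact hfree (Fin.castLE hkn) (Fin.castLE hkn) (Fin.strictMono_castLE hkn)
    (Fin.strictMono_castLE hkn) (fun i j => padded_castLE H hkn i j)

theorem padded_true_lt {k n : ℕ} (H : Fin k → Fin k → Bool) (r c : Fin n)
    (h : padded H n r c = true) : r.val < k ∧ c.val < k := by
  unfold padded at h
  by_contra hcon
  simp [hcon] at h

theorem copyCount_padded_le {k n : ℕ} (H : Fin k → Fin k → Bool) (hkn : k ≤ n)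
    (hrow : ∀ i, ∃ j, H i j = true) (hcol : ∀ j, ∃ i, H i j = true) :
    copyCount H (padded H n) ≤ k ^ k * k ^ k := by
  classical
  let S : Finset (Fin k → Fin n) :=
    (Finset.univ : Finset (Fin k → Fin k)).image (fun g => fun i => Fin.castLE hkn (g i))
  have hS : S.card ≤ k ^ k := by
    refine le_trans Finset.card_image_le ?_
    simp
  have hsub : copies H (padded H n) ⊆ S ×ˢ S := by
    intro p hp
    rw [mem_copies] at hp
    obtain ⟨_, _, hp3⟩ := hp
    have h1 : ∀ i, (p.1 i).val < k := by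
      intro i
      obtain ⟨j, hj⟩ := hrow i
      have := hp3 i j
      rw [hj] at this
      exact (padded_true_lt H _ _ this).1
    have h2 : ∀ j, (p.2 j).val < k := by
      intro j
      obtain ⟨i, hi⟩ := hcol j
      have := hp3 i j
      rw [hi] at this
      exact (padded_true_lt H _ _ this).2
    rw [Finset.mem_product]
    constructor
    · refine Finset.mem_image.mpr ⟨fun i => ⟨(p.1 i).val, h1 i⟩, Finset.mem_univ _, ?_⟩
      funext i
      exact Fin.ext rfl
    · refine Finset.mem_image.mpr ⟨fun i => ⟨(p.2 i).val, h2 i⟩, Finset.mem_univ _, ?_⟩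
      funext i
      exact Fin.ext rfl
  calc copyCount H (padded H n) = (copies H (padded H n)).card := rfl
    _ ≤ (S ×ˢ S).card := Finset.card_le_card hsub
    _ = S.card * S.card := Finset.card_product S S
    _ ≤ k ^ k * k ^ k := Nat.mul_le_mul hS hS

theorem isFar_padded {k n : ℕ} (H : Fin k → Fin k → Bool) (hkn : k ≤ n) (hn : 1 ≤ n) :
    IsFar H (padded H n) (1 / (n : ℝ) ^ 2) := by
  intro B hB
  have hne : padded H n ≠ B := by
    intro h
    rw [← h] at hB
    exact padded_not_free H hkn hB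
  have hpos : 1 ≤ numDiff (padded H n) B := by
    unfold numDiff
    rw [Nat.succ_le_iff, Finset.card_pos]
    by_contra hempty
    rw [Finset.not_nonempty_iff_eq_empty, Finset.filter_eq_empty_iff] at hempty
    apply hne
    funext r c
    have := hempty (Finset.mem_univ (r, c))
    simpa using this
  have hn' : (0 : ℝ) < (n : ℝ) ^ 2 := by positivity
  rw [one_div, inv_mul_cancel₀ hn'.ne']
  exact_mod_cast hpos

/-- Any exponent `C` that works in the polynomial removal inequality for a pattern `H` with a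
one in every row and every column must be at least `k`. -/
theorem exponent_lower_bound {k : ℕ} (H : Fin k → Fin k → Bool)
    (hrow : ∀ i, ∃ j, H i j = true) (hcol : ∀ j, ∃ i, H i j = true)
    (c C : ℝ) (hc : 0 < c) (hC : C < k) :
    ∃ (n : ℕ) (ε : ℝ) (A : Fin n → Fin n → Bool), 1 ≤ n ∧ 0 < ε ∧ ε < 1 ∧ IsFar H A ε ∧
      (copyCount H A : ℝ) < c * ε ^ C * (n : ℝ) ^ (2 * k) := by
  have hδ : 0 < 2 * ((k : ℝ) - C) := by linarith
  have htend : Filter.Tendsto (fun m : ℕ => ((m : ℝ)) ^ (2 * ((k : ℝ) - C))) Filter.atTop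
      Filter.atTop :=
    (tendsto_rpow_atTop hδ).comp tendsto_natCast_atTop_atTop
  have hev := htend.eventually_gt_atTop (((k ^ k * k ^ k : ℕ) : ℝ) / c)
  have hev2 : ∀ᶠ m : ℕ in Filter.atTop, max k 2 ≤ m := Filter.eventually_ge_atTop (max k 2)
  obtain ⟨n, hn1, hn2⟩ := (hev.and hev2).exists
  have hkn : k ≤ n := le_trans (le_max_left _ _) hn2
  have h2n : 2 ≤ n := le_trans (le_max_right _ _) hn2
  have hx : (2 : ℝ) ≤ (n : ℝ) := by exact_mod_cast h2n
  have hx0 : (0 : ℝ) < (n : ℝ) := by linarith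
  have hx2 : (1 : ℝ) < (n : ℝ) ^ 2 := by nlinarith
  refine ⟨n, 1 / (n : ℝ) ^ 2, padded H n, by omega, by positivity, ?_,
    isFar_padded H hkn (by omega), ?_⟩
  · rw [div_lt_one (by positivity)]
    exact hx2
  · have hcount : (copyCount H (padded H n) : ℝ) ≤ ((k ^ k * k ^ k : ℕ) : ℝ) := by
      exact_mod_cast copyCount_padded_le H hkn hrow hcol
    have h1 : (1 / (n : ℝ) ^ 2) ^ C = ((n : ℝ) ^ (2 * C))⁻¹ := by
      rw [one_div, Real.inv_rpow (by positivity), ← Real.rpow_natCast, ← Real.rpow_mul hx0.le]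
      norm_num
    have h2 : ((n : ℝ)) ^ (2 * k) = (n : ℝ) ^ (2 * (k : ℝ)) := by
      rw [← Real.rpow_natCast]
      norm_num
    have h3 : c * (1 / (n : ℝ) ^ 2) ^ C * (n : ℝ) ^ (2 * k) =
        c * (n : ℝ) ^ (2 * ((k : ℝ) - C)) := by
      rw [h1, h2]
      have : 2 * ((k : ℝ) - C) = 2 * (k : ℝ) - 2 * C := by ring
      rw [this, Real.rpow_sub hx0]
      field_simp
    rw [h3]
    have h4 : ((k ^ k * k ^ k : ℕ) : ℝ) < c * (n : ℝ) ^ (2 * ((k : ℝ) - C)) := by
      rw [div_lt_iff₀ hc] at hn1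
      linarith
    linarith

end Vale.Agent.Lib.P037
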