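import Mathlib

namespace Vale.Agent.Lib.P037

open Finset

variable {α : Type*} [DecidableEq α] {n : ℕ}

open Classical in
/-- Occurrences of the pattern `p` (length `k`) as a subsequence of the word `w`,
using only positions `≥ b`. -/
noncomputable def occ (w : Fin n → α) (k : ℕ) (p : Fin k → α) (b : ℕ) : Finset (Fin k → Fin n) :=
  univ.filter (fun f => StrictMono f ∧ (∀ i, w (f i) = p i) ∧ ∀ i, b ≤ (f i).val)

theorem mem_occ (w : Fin n → α) (k : ℕ) (p : Fin k → α) (b : ℕ) (f : Fin k → Fin n) :
    f ∈ occ w k p b ↔ StrictMono f ∧ (∀ i, w (f i) = p i) ∧ ∀ i, b ≤ (f i).val := by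
  classical
  unfold occ
  simp

theorem tail_mem_occ (w : Fin n → α) (k : ℕ) (p : Fin (k + 1) → α) (b : ℕ)
    (f : Fin (k + 1) → Fin n) (hf : f ∈ occ w (k + 1) p b) (b' : ℕ) (hb' : b' ≤ (f 0).val + 1) :
    Fin.tail f ∈ occ w k (Fin.tail p) b' := by
  rw [mem_occ] at hf ⊢
  obtain ⟨h1, h2, h3⟩ := hf
  refine ⟨?_, ?_, ?_⟩
  · intro i j hij
    exact h1 (Fin.succ_lt_succ_iff.mpr hij)
  · intro i
    exact h2 i.succ
  · intro i
    have : f 0 < f i.succ := h1 (Fin.succ_pos i)
    have : (f 0).val < (f i.succ).val := this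
    show b' ≤ (f i.succ).val
    omega

theorem cons_mem_occ (w : Fin n → α) (k : ℕ) (p : Fin (k + 1) → α) (b : ℕ)
    (x : Fin n) (hx1 : b ≤ x.val) (hx2 : w x = p 0)
    (g : Fin k → Fin n) (hg : g ∈ occ w k (Fin.tail p) (x.val + 1)) :
    (Fin.cons x g : Fin (k + 1) → Fin n) ∈ occ w (k + 1) p b := by
  rw [mem_occ] at hg ⊢
  obtain ⟨h1, h2, h3⟩ := hg
  refine ⟨?_, ?_, ?_⟩
  · intro i j hij
    induction i using Fin.cases with
    | zero =>
      induction j using Fin.cases with
      | zero => exact absurd hij (lt_irrefl _)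
      | succ j =>
        simp only [Fin.cons_zero, Fin.cons_succ]
        have := h3 j
        exact Fin.lt_def.mpr (by omega)
    | succ i =>
      induction j using Fin.cases with
      | zero => exact absurd hij (Fin.not_lt_zero _)
      | succ j =>
        simp only [Fin.cons_succ]
        exact h1 (Fin.succ_lt_succ_iff.mp hij)
  · intro i
    induction i using Fin.cases with
    | zero => simpa using hx2
    | succ i =>
      rw [Fin.cons_succ]
      exact h2 i
  · intro i
    induction i using Fin.cases with
    | zero => simpa using hx1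
    | succ i =>
      simp only [Fin.cons_succ]
      have := h3 i
      omega

/-- Main word lemma: if a pattern of length `k+1` has at most `s^(k+1)` occurrences as a
subsequence, then all occurrences can be hit by at most `(k+1) * s` positions. -/
theorem exists_hitting (w : Fin n → α) :
    ∀ (k : ℕ) (p : Fin (k + 1) → α) (b s : ℕ), (occ w (k + 1) p b).card ≤ s ^ (k + 1) →
      ∃ D : Finset (Fin n), D.card ≤ (k + 1) * s ∧ ∀ f ∈ occ w (k + 1) p b, ∃ i, f i ∈ D := by
  classical
  intro k
  induction k with
  | zero =>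
    intro p b s hs
    refine ⟨(occ w 1 p b).image (fun f => f 0), ?_, ?_⟩
    · refine le_trans Finset.card_image_le ?_
      simpa using hs
    · intro f hf
      exact ⟨0, Finset.mem_image_of_mem _ hf⟩
  | succ k ih =>
    intro p b s hs
    by_cases hs0 : s = 0
    · subst hs0
      have hempty : occ w (k + 1 + 1) p b = ∅ := by
        apply Finset.card_eq_zero.mp
        simpa using hs
      refine ⟨∅, by simp, ?_⟩
      intro f hf
      rw [hempty] at hf
      simp at hf
    have hspos : 0 < s := Nat.pos_of_ne_zero hs0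
    let deg : Fin n → ℕ := fun x => (occ w (k + 1) (Fin.tail p) (x.val + 1)).card
    let heavy : Finset (Fin n) :=
      univ.filter (fun x => b ≤ x.val ∧ w x = p 0 ∧ s ^ (k + 1) < deg x)
    let light : Finset (Fin n) :=
      univ.filter (fun x => b ≤ x.val ∧ w x = p 0 ∧ deg x ≤ s ^ (k + 1))
    have hheavy : heavy.card * (s ^ (k + 1) + 1) ≤ (occ w (k + 1 + 1) p b).card := by
      have hsub : heavy.biUnion (fun x => (occ w (k + 1) (Fin.tail p) (x.val + 1)).image
          (fun g => (Fin.cons x g : Fin (k + 1 + 1) → Fin n))) ⊆ occ w (k + 1 + 1) p b := by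
        intro f hf
        rw [Finset.mem_biUnion] at hf
        obtain ⟨x, hx, hf⟩ := hf
        rw [Finset.mem_image] at hf
        obtain ⟨g, hg, rfl⟩ := hf
        have hx' := (Finset.mem_filter.mp hx).2
        exact cons_mem_occ w (k + 1) p b x hx'.1 hx'.2.1 g hg
      have hdisj : ∀ x ∈ heavy, ∀ y ∈ heavy, x ≠ y →
          Disjoint ((occ w (k + 1) (Fin.tail p) (x.val + 1)).image
            (fun g => (Fin.cons x g : Fin (k + 1 + 1) → Fin n)))
          ((occ w (k + 1) (Fin.tail p) (y.val + 1)).image
            (fun g => (Fin.cons y g : Fin (k + 1 + 1) → Fin n))) := by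
        intro x _ y _ hxy
        rw [Finset.disjoint_left]
        intro f hf1 hf2
        rw [Finset.mem_image] at hf1 hf2
        obtain ⟨g1, _, rfl⟩ := hf1
        obtain ⟨g2, _, h2⟩ := hf2
        apply hxy
        have := congrFun h2 0
        simpa using this.symm
      have hcard : (heavy.biUnion (fun x => (occ w (k + 1) (Fin.tail p) (x.val + 1)).image
          (fun g => (Fin.cons x g : Fin (k + 1 + 1) → Fin n)))).card = ∑ x ∈ heavy, deg x := by
        rw [Finset.card_biUnion hdisj]
        apply Finset.sum_congr rfl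
        intro x _
        apply Finset.card_image_of_injective
        intro g1 g2 h
        exact (Fin.cons_injective2 h).2
      have hsum : heavy.card * (s ^ (k + 1) + 1) ≤ ∑ x ∈ heavy, deg x := by
        have := Finset.card_nsmul_le_sum heavy deg (s ^ (k + 1) + 1) (by
          intro x hx
          have := (Finset.mem_filter.mp hx).2.2.2
          omega)
        simpa using this
      calc heavy.card * (s ^ (k + 1) + 1) ≤ ∑ x ∈ heavy, deg x := hsum
        _ = _ := hcard.symm
        _ ≤ _ := Finset.card_le_card hsub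
    have hheavy2 : heavy.card ≤ s := by
      by_contra hcon
      rw [not_le] at hcon
      have h1 : (s + 1) * (s ^ (k + 1) + 1) ≤ heavy.card * (s ^ (k + 1) + 1) :=
        Nat.mul_le_mul_right _ hcon
      have h2 : s ^ (k + 1 + 1) = s * s ^ (k + 1) := by ring
      have h3 : (s + 1) * (s ^ (k + 1) + 1) = s * s ^ (k + 1) + s + s ^ (k + 1) + 1 := by ring
      omega
    have hcase : ∀ f ∈ occ w (k + 1 + 1) p b, f 0 ∈ heavy ∨ f 0 ∈ light := by
      intro f hf
      have hf' := (mem_occ _ _ _ _ _).mp hf
      by_cases hd : s ^ (k + 1) < deg (f 0)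
      · left
        exact Finset.mem_filter.mpr ⟨Finset.mem_univ _, hf'.2.2 0, hf'.2.1 0, hd⟩
      · right
        exact Finset.mem_filter.mpr ⟨Finset.mem_univ _, hf'.2.2 0, hf'.2.1 0, not_lt.mp hd⟩
    by_cases hl : light.Nonempty
    · let x0 := light.min' hl
      have hx0 : x0 ∈ light := Finset.min'_mem light hl
      have hx0' := (Finset.mem_filter.mp hx0).2
      obtain ⟨D', hD'1, hD'2⟩ := ih (Fin.tail p) (x0.val + 1) s hx0'.2.2
      refine ⟨heavy ∪ D', ?_, ?_⟩
      · calc (heavy ∪ D').card ≤ heavy.card + D'.card := Finset.card_union_le _ _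
          _ ≤ s + (k + 1) * s := Nat.add_le_add hheavy2 hD'1
          _ = (k + 1 + 1) * s := by ring
      · intro f hf
        rcases hcase f hf with h | h
        · exact ⟨0, Finset.mem_union_left _ h⟩
        · have hle : x0 ≤ f 0 := Finset.min'_le light (f 0) h
          have hle' : x0.val ≤ (f 0).val := hle
          have ht := tail_mem_occ w (k + 1) p b f hf (x0.val + 1) (by omega)
          obtain ⟨i, hi⟩ := hD'2 _ ht
          exact ⟨i.succ, Finset.mem_union_right _ hi⟩
    · refine ⟨heavy, ?_, ?_⟩
      · calc heavy.card ≤ s := hheavy2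
          _ ≤ (k + 1 + 1) * s := by nlinarith
      · intro f hf
        rcases hcase f hf with h | h
        · exact ⟨0, h⟩
        · exact absurd ⟨f 0, h⟩ hl

end Vale.Agent.Lib.P037
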