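import Mathlib
import Vale.Agent.Lib.P037.Defs
import Vale.Agent.Lib.P037.Basic
import Vale.Agent.Lib.P037.Word

namespace Vale.Agent.Lib.P037

open Finset

/-- A monotone retraction of `Fin n` onto the complement of `D`. -/
theorem exists_retraction {n : ℕ} (D : Finset (Fin n)) (hD : ∃ x, x ∉ D) :
    ∃ σ : Fin n → Fin n, Monotone σ ∧ (∀ x, σ x ∉ D) ∧ ∀ x, x ∉ D → σ x = x := by
  classical
  let S : Finset (Fin n) := univ.filter (fun x => x ∉ D)
  have hS : ∀ x, x ∈ S ↔ x ∉ D := by
    intro x
    simp [S]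
  have hne : S.Nonempty := by
    obtain ⟨x, hx⟩ := hD
    exact ⟨x, (hS x).mpr hx⟩
  let below : Fin n → Finset (Fin n) := fun x => S.filter (fun y => y ≤ x)
  have hbelow : ∀ x y, y ∈ below x ↔ y ∈ S ∧ y ≤ x := by
    intro x y
    simp [below]
  let σ : Fin n → Fin n :=
    fun x => if h : (below x).Nonempty then (below x).max' h else S.min' hne
  have hσS : ∀ x, σ x ∈ S := by
    intro x
    by_cases h : (below x).Nonempty
    · have h1 : σ x = (below x).max' h := by simp [σ, dif_pos h]
      rw [h1]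
      exact ((hbelow x _).mp (Finset.max'_mem _ h)).1
    · have h1 : σ x = S.min' hne := by simp [σ, dif_neg h]
      rw [h1]
      exact Finset.min'_mem S hne
  refine ⟨σ, ?_, ?_, ?_⟩
  · intro x y hxy
    by_cases hx : (below x).Nonempty
    · have hsub : below x ⊆ below y := by
        intro z hz
        rw [hbelow] at hz ⊢
        exact ⟨hz.1, le_trans hz.2 hxy⟩
      have hy : (below y).Nonempty := hx.mono hsub
      have h1 : σ x = (below x).max' hx := by simp [σ, dif_pos hx]
      have h2 : σ y = (below y).max' hy := by simp [σ, dif_pos hy]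
      rw [h1, h2]
      exact Finset.max'_subset hx hsub
    · have h1 : σ x = S.min' hne := by simp [σ, dif_neg hx]
      rw [h1]
      exact Finset.min'_le S _ (hσS y)
  · intro x
    exact (hS _).mp (hσS x)
  · intro x hx
    have hxb : x ∈ below x := (hbelow x x).mpr ⟨(hS x).mpr hx, le_refl x⟩
    have h : (below x).Nonempty := ⟨x, hxb⟩
    have h1 : σ x = (below x).max' h := by simp [σ, dif_pos h]
    rw [h1]
    apply le_antisymm
    · exact Finset.max'_le _ h x (fun y hy => ((hbelow x y).mp hy).2)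
    · exact Finset.le_max' _ x hxb

/-- If every copy of `H` in `A` uses a row of `DR` or a column of `DC`, then `A` can be made
`H`-free by changing at most `(|DR| + |DC|) * n` entries. -/
theorem exists_free_of_hitting {k n : ℕ} (hk : 0 < k) (H : Fin k → Fin k → Bool)
    (hrows : Function.Injective H) (hcols : Function.Injective (fun j i => H i j))
    (A : Fin n → Fin n → Bool) (DR DC : Finset (Fin n))
    (hhit : ∀ p ∈ copies H A, (∃ i, p.1 i ∈ DR) ∨ ∃ j, p.2 j ∈ DC) :
    ∃ B : Fin n → Fin n → Bool, IsFree H B ∧ numDiff A B ≤ (DR.card + DC.card) * n := by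
  classical
  by_cases h12 : (∃ x, x ∉ DR) ∧ (∃ x, x ∉ DC)
  · obtain ⟨σ, hσ1, hσ2, hσ3⟩ := exists_retraction DR h12.1
    obtain ⟨τ, hτ1, hτ2, hτ3⟩ := exists_retraction DC h12.2
    refine ⟨fun x y => A (σ x) (τ y), ?_, ?_⟩
    · intro r c hr hc hrc0
      have hrc : ∀ i j, A (σ (r i)) (τ (c j)) = H i j := fun i j => hrc0 i j
      have hr' : StrictMono (fun i => σ (r i)) := by
        apply Monotone.strictMono_of_injective
        · exact hσ1.comp hr.monotone
        · intro i i' hii'
          apply hrows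
          funext j
          have h1 := hrc i j
          have h2 := hrc i' j
          simp only at hii'
          rw [← h1, ← h2, hii']
      have hc' : StrictMono (fun j => τ (c j)) := by
        apply Monotone.strictMono_of_injective
        · exact hτ1.comp hc.monotone
        · intro j j' hjj'
          apply hcols
          funext i
          have h1 := hrc i j
          have h2 := hrc i j'
          simp only at hjj'
          show H i j = H i j'
          rw [← h1, ← h2, hjj']
      have hmem : ((fun i => σ (r i)), (fun j => τ (c j))) ∈ copies H A := by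
        rw [mem_copies]
        exact ⟨hr', hc', hrc⟩
      rcases hhit _ hmem with ⟨i, hi⟩ | ⟨j, hj⟩
      · exact hσ2 _ hi
      · exact hτ2 _ hj
    · unfold numDiff
      have hsub : (univ.filter (fun p : Fin n × Fin n => A p.1 p.2 ≠ A (σ p.1) (τ p.2))) ⊆
          (DR ×ˢ (univ : Finset (Fin n))) ∪ ((univ : Finset (Fin n)) ×ˢ DC) := by
        intro p hp
        rw [Finset.mem_filter] at hp
        rw [Finset.mem_union, Finset.mem_product, Finset.mem_product]
        by_contra hcon
        rw [not_or] at hcon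
        have h1 : p.1 ∉ DR := fun h => hcon.1 ⟨h, Finset.mem_univ _⟩
        have h2 : p.2 ∉ DC := fun h => hcon.2 ⟨Finset.mem_univ _, h⟩
        apply hp.2
        rw [hσ3 _ h1, hτ3 _ h2]
      calc _ ≤ ((DR ×ˢ (univ : Finset (Fin n))) ∪ ((univ : Finset (Fin n)) ×ˢ DC)).card :=
            Finset.card_le_card hsub
        _ ≤ (DR ×ˢ (univ : Finset (Fin n))).card + ((univ : Finset (Fin n)) ×ˢ DC).card :=
            Finset.card_union_le _ _
        _ = DR.card * n + n * DC.card := by
            rw [Finset.card_product, Finset.card_product, Finset.card_univ, Fintype.card_fin]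
        _ = (DR.card + DC.card) * n := by ring
  · refine ⟨fun _ _ => !(H ⟨0, hk⟩ ⟨0, hk⟩), ?_, ?_⟩
    · intro r c _ _ hrc
      have := hrc ⟨0, hk⟩ ⟨0, hk⟩
      simp at this
    · have hfull : n ≤ DR.card + DC.card := by
        rw [not_and_or] at h12
        rcases h12 with h | h
        · have : DR = univ := by
            apply Finset.eq_univ_of_forall
            intro x
            by_contra hx
            exact h ⟨x, hx⟩
          rw [this, Finset.card_univ, Fintype.card_fin]
          omega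
        · have : DC = univ := by
            apply Finset.eq_univ_of_forall
            intro x
            by_contra hx
            exact h ⟨x, hx⟩
          rw [this, Finset.card_univ, Fintype.card_fin]
          omega
      unfold numDiff
      calc _ ≤ (univ : Finset (Fin n × Fin n)).card := Finset.card_filter_le _ _
        _ = n * n := by rw [Finset.card_univ, Fintype.card_prod, Fintype.card_fin]
        _ ≤ (DR.card + DC.card) * n := Nat.mul_le_mul_right n hfull

/-- Hitting sets for all copies, when there are at most `s^(2(k+1))` copies. -/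
theorem exists_hitting_sets {k n : ℕ} (H : Fin (k + 1) → Fin (k + 1) → Bool)
    (A : Fin n → Fin n → Bool) (s : ℕ) (hs : copyCount H A ≤ s ^ (2 * (k + 1))) :
    ∃ DR DC : Finset (Fin n),
      DR.card + DC.card ≤ ((univ.image A).card ^ (k + 1)) * ((k + 1) * s) ∧
      ∀ p ∈ copies H A, (∃ i, p.1 i ∈ DR) ∨ ∃ j, p.2 j ∈ DC := by
  classical
  have key : ∀ X : Fin (k + 1) → (Fin n → Bool), ∃ DR DC : Finset (Fin n),
      DR.card + DC.card ≤ (k + 1) * s ∧
      ∀ p ∈ copies H A, (∀ i, A (p.1 i) = X i) → (∃ i, p.1 i ∈ DR) ∨ ∃ j, p.2 j ∈ DC := by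
    intro X
    let rowOcc := occ A (k + 1) X 0
    let colWord : Fin n → (Fin (k + 1) → Bool) := fun y => fun i => X i y
    let colPat : Fin (k + 1) → (Fin (k + 1) → Bool) := fun j => fun i => H i j
    let colOcc := occ colWord (k + 1) colPat 0
    have hprod : rowOcc ×ˢ colOcc ⊆ copies H A := by
      intro p hp
      rw [Finset.mem_product] at hp
      have h1 := (mem_occ _ _ _ _ _).mp hp.1
      have h2 := (mem_occ _ _ _ _ _).mp hp.2
      rw [mem_copies]
      refine ⟨h1.1, h2.1, ?_⟩
      intro i j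
      rw [h1.2.1 i]
      exact congrFun (h2.2.1 j) i
    have hcard : rowOcc.card * colOcc.card ≤ s ^ (k + 1) * s ^ (k + 1) := by
      calc rowOcc.card * colOcc.card = (rowOcc ×ˢ colOcc).card := (Finset.card_product _ _).symm
        _ ≤ (copies H A).card := Finset.card_le_card hprod
        _ ≤ s ^ (2 * (k + 1)) := hs
        _ = s ^ (k + 1) * s ^ (k + 1) := by ring
    have hor : rowOcc.card ≤ s ^ (k + 1) ∨ colOcc.card ≤ s ^ (k + 1) := by
      by_contra hcon
      rw [not_or, not_le, not_le] at hcon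
      have := Nat.mul_lt_mul'' hcon.1 hcon.2
      omega
    rcases hor with h | h
    · obtain ⟨D, hD1, hD2⟩ := exists_hitting A k X 0 s h
      refine ⟨D, ∅, by simpa using hD1, ?_⟩
      intro p hp hX
      left
      rw [mem_copies] at hp
      exact hD2 p.1 ((mem_occ _ _ _ _ _).mpr ⟨hp.1, hX, fun i => Nat.zero_le _⟩)
    · obtain ⟨D, hD1, hD2⟩ := exists_hitting colWord k colPat 0 s h
      refine ⟨∅, D, by simpa using hD1, ?_⟩
      intro p hp hX
      right
      rw [mem_copies] at hp
      refine hD2 p.2 ((mem_occ _ _ _ _ _).mpr ⟨hp.2.1, ?_, fun i => Nat.zero_le _⟩)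
      intro j
      funext i
      show X i (p.2 j) = H i j
      rw [← hX i]
      exact hp.2.2 i j
  choose DRf DCf h1 h2 using key
  let T : Finset (Fin (k + 1) → (Fin n → Bool)) :=
    Fintype.piFinset (fun _ : Fin (k + 1) => univ.image A)
  have hT : T.card = (univ.image A).card ^ (k + 1) := by
    simp [T, Fintype.card_piFinset]
  refine ⟨T.biUnion DRf, T.biUnion DCf, ?_, ?_⟩
  · calc (T.biUnion DRf).card + (T.biUnion DCf).card
        ≤ ∑ X ∈ T, (DRf X).card + ∑ X ∈ T, (DCf X).card :=
          Nat.add_le_add Finset.card_biUnion_le Finset.card_biUnion_le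
      _ = ∑ X ∈ T, ((DRf X).card + (DCf X).card) := Finset.sum_add_distrib.symm
      _ ≤ ∑ _X ∈ T, (k + 1) * s := Finset.sum_le_sum (fun X _ => h1 X)
      _ = T.card * ((k + 1) * s) := by rw [Finset.sum_const, smul_eq_mul]
      _ = (univ.image A).card ^ (k + 1) * ((k + 1) * s) := by rw [hT]
  · intro p hp
    have hmem : (fun i => A (p.1 i)) ∈ T := by
      simp only [T, Fintype.mem_piFinset]
      intro i
      exact Finset.mem_image_of_mem A (Finset.mem_univ _)
    rcases h2 (fun i => A (p.1 i)) p hp (fun i => rfl) with ⟨i, hi⟩ | ⟨j, hj⟩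
    · left
      exact ⟨i, Finset.mem_biUnion.mpr ⟨_, hmem, hi⟩⟩
    · right
      exact ⟨j, Finset.mem_biUnion.mpr ⟨_, hmem, hj⟩⟩

/-- Polynomial removal for patterns with pairwise distinct rows and pairwise distinct columns,
for host matrices with `m` distinct rows, with a bound polynomial in `ε` and `1 / m`. -/
theorem few_row_types {k n : ℕ} (hk : 1 ≤ k) (H : Fin k → Fin k → Bool)
    (hrows : Function.Injective H) (hcols : Function.Injective (fun j i => H i j))
    (A : Fin n → Fin n → Bool) (ε : ℝ) (hε : 0 < ε) (hfar : IsFar H A ε) :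
    (ε / (2 * (k : ℝ) * ((univ.image A).card : ℝ) ^ k)) ^ (2 * k) * (n : ℝ) ^ (2 * k) ≤
      (copyCount H A : ℝ) := by
  classical
  obtain ⟨k, rfl⟩ : ∃ k', k = k' + 1 := ⟨k - 1, by omega⟩
  by_cases hn : n = 0
  · subst hn
    have : ((0 : ℕ) : ℝ) ^ (2 * (k + 1)) = 0 := by
      rw [Nat.cast_zero]
      exact zero_pow (by omega)
    rw [this, mul_zero]
    exact Nat.cast_nonneg _
  have hn1 : 1 ≤ n := Nat.one_le_iff_ne_zero.mpr hn
  have hN : 1 ≤ copyCount H A := copyCount_pos_of_isFar H A ε hε hn1 hfar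
  set N := copyCount H A with hNdef
  set m := (univ.image A).card with hmdef
  have hm : 1 ≤ m := by
    rw [hmdef, Nat.succ_le_iff, Finset.card_pos]
    exact ⟨A ⟨0, by omega⟩, Finset.mem_image_of_mem A (Finset.mem_univ _)⟩
  have hex : ∃ s : ℕ, N ≤ s ^ (2 * (k + 1)) := ⟨N, Nat.le_self_pow (by omega) N⟩
  let s := Nat.find hex
  have hs : N ≤ s ^ (2 * (k + 1)) := Nat.find_spec hex
  have hmin : ∀ t, t < s → ¬ N ≤ t ^ (2 * (k + 1)) := fun t ht => Nat.find_min hex ht
  obtain ⟨DR, DC, hD1, hD2⟩ := exists_hitting_sets H A s hs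
  obtain ⟨B, hB1, hB2⟩ := exists_free_of_hitting (by omega) H hrows hcols A DR DC hD2
  have hfarB := hfar B hB1
  have hnpos : (0 : ℝ) < (n : ℝ) := by exact_mod_cast hn1
  have hmpos : (0 : ℝ) < (m : ℝ) := by exact_mod_cast hm
  have h1 : (numDiff A B : ℝ) ≤ ((m : ℝ) ^ (k + 1) * (((k : ℝ) + 1) * (s : ℝ))) * (n : ℝ) := by
    have : numDiff A B ≤ (m ^ (k + 1) * ((k + 1) * s)) * n :=
      le_trans hB2 (Nat.mul_le_mul_right n hD1)
    exact_mod_cast this
  have h2 : ε * (n : ℝ) ≤ (m : ℝ) ^ (k + 1) * (((k : ℝ) + 1) * (s : ℝ)) := by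
    have h3 : ε * (n : ℝ) ^ 2 ≤ ((m : ℝ) ^ (k + 1) * (((k : ℝ) + 1) * (s : ℝ))) * (n : ℝ) :=
      le_trans hfarB h1
    have h4 : ε * (n : ℝ) ^ 2 = (ε * (n : ℝ)) * (n : ℝ) := by ring
    rw [h4] at h3
    exact le_of_mul_le_mul_right h3 hnpos
  have hden : (0 : ℝ) < 2 * ((k + 1 : ℕ) : ℝ) * (m : ℝ) ^ (k + 1) := by positivity
  set x := ε * (n : ℝ) / (2 * ((k + 1 : ℕ) : ℝ) * (m : ℝ) ^ (k + 1)) with hx
  have hx0 : 0 ≤ x := by positivity
  have hxs : x ≤ (s : ℝ) / 2 := by
    rw [hx, div_le_div_iff₀ hden (by norm_num)]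
    push_cast
    nlinarith [h2]
  have hLHS : (ε / (2 * ((k + 1 : ℕ) : ℝ) * (m : ℝ) ^ (k + 1))) ^ (2 * (k + 1)) *
      (n : ℝ) ^ (2 * (k + 1)) = x ^ (2 * (k + 1)) := by
    rw [hx, ← mul_pow]
    congr 1
    ring
  rw [hLHS]
  by_cases hs2 : s ≤ 1
  · have hx1 : x ≤ 1 := by
      have : (s : ℝ) ≤ 1 := by exact_mod_cast hs2
      linarith
    calc x ^ (2 * (k + 1)) ≤ 1 := pow_le_one₀ hx0 hx1
      _ ≤ (N : ℝ) := by exact_mod_cast hN
  · have hs2' : 2 ≤ s := by omega
    have hlt : (s - 1) ^ (2 * (k + 1)) < N := by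
      have := hmin (s - 1) (by omega)
      omega
    have hxt : x ≤ ((s - 1 : ℕ) : ℝ) := by
      have h5 : ((s - 1 : ℕ) : ℝ) = (s : ℝ) - 1 := by
        rw [Nat.cast_sub (by omega)]
        simp
      have h6 : (2 : ℝ) ≤ (s : ℝ) := by exact_mod_cast hs2'
      rw [h5]
      linarith
    calc x ^ (2 * (k + 1)) ≤ ((s - 1 : ℕ) : ℝ) ^ (2 * (k + 1)) :=
          pow_le_pow_left₀ hx0 hxt _
      _ ≤ (N : ℝ) := by exact_mod_cast hlt.le

end Vale.Agent.Lib.P037
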